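import Crest.Agent.R77.Defs

/-!
# Row 77: integration on the cylinder `ℝ × M`
-/

set_option autoImplicit false

open MeasureTheory Set Filter Topology
open scoped ENNReal

namespace Crest.Agent.R77

variable {M : Type*} [MeasurableSpace M]

/-- The product measure on the cylinder. -/
noncomputable abbrev mu (σ : Measure M) : Measure (ℝ × M) := (volume : Measure ℝ).prod σ

/-- Half cylinder `t < c`. -/
def Hs (M : Type*) (c : ℝ) : Set (ℝ × M) := {x | x.1 < c}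

/-- Layer `-l ≤ t < 0`. -/
def Ly (M : Type*) (l : ℝ) : Set (ℝ × M) := {x | -l ≤ x.1 ∧ x.1 < 0}

/-- Shift to the left by `l`. -/
def sh (l : ℝ) (x : ℝ × M) : ℝ × M := (x.1 - l, x.2)

/-- Reflection. -/
def rf (x : ℝ × M) : ℝ × M := (-x.1, x.2)

omit [MeasurableSpace M] in
@[simp] theorem mem_Hs {c : ℝ} {x : ℝ × M} : x ∈ Hs M c ↔ x.1 < c := Iff.rfl
omit [MeasurableSpace M] in
@[simp] theorem mem_Ly {l : ℝ} {x : ℝ × M} : x ∈ Ly M l ↔ -l ≤ x.1 ∧ x.1 < 0 := Iff.rfl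
omit [MeasurableSpace M] in
@[simp] theorem sh_fst (l : ℝ) (x : ℝ × M) : (sh l x).1 = x.1 - l := rfl
omit [MeasurableSpace M] in
@[simp] theorem sh_snd (l : ℝ) (x : ℝ × M) : (sh l x).2 = x.2 := rfl
omit [MeasurableSpace M] in
@[simp] theorem rf_fst (x : ℝ × M) : (rf x).1 = -x.1 := rfl
omit [MeasurableSpace M] in
@[simp] theorem rf_snd (x : ℝ × M) : (rf x).2 = x.2 := rfl

theorem measurableSet_Hs (c : ℝ) : MeasurableSet (Hs M c) :=
  measurableSet_lt measurable_fst measurable_const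

theorem measurableSet_Ly (l : ℝ) : MeasurableSet (Ly M l) :=
  (measurableSet_le measurable_const measurable_fst).inter
    (measurableSet_lt measurable_fst measurable_const)

@[fun_prop] theorem measurable_sh (l : ℝ) : Measurable (sh l : ℝ × M → ℝ × M) :=
  (measurable_fst.sub_const l).prodMk measurable_snd

@[fun_prop] theorem measurable_rf : Measurable (rf : ℝ × M → ℝ × M) :=
  measurable_fst.neg.prodMk measurable_snd

variable {σ : Measure M} [IsFiniteMeasure σ]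

theorem mp_sh (l : ℝ) : MeasurePreserving (sh l : ℝ × M → ℝ × M) (mu σ) (mu σ) :=
  (measurePreserving_sub_right volume l).prod (MeasurePreserving.id σ)

theorem mp_rf : MeasurePreserving (rf : ℝ × M → ℝ × M) (mu σ) (mu σ) :=
  (Measure.measurePreserving_neg volume).prod (MeasurePreserving.id σ)

theorem lintegral_sh (l : ℝ) {φ : ℝ × M → ℝ≥0∞} (hφ : Measurable φ) :
    ∫⁻ x, φ (sh l x) ∂mu σ = ∫⁻ x, φ x ∂mu σ := (mp_sh l).lintegral_comp hφ

theorem setLIntegral_sh (c l : ℝ) {φ : ℝ × M → ℝ≥0∞} (hφ : Measurable φ) :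
    ∫⁻ x in Hs M c, φ (sh l x) ∂mu σ = ∫⁻ x in Hs M (c - l), φ x ∂mu σ := by
  have h := (mp_sh (σ := σ) l).setLIntegral_comp_preimage (measurableSet_Hs (c - l)) hφ
  have e : sh l ⁻¹' Hs M (c - l) = Hs M c := by
    ext x; simp
  rwa [e] at h

theorem lintegral_split {φ : ℝ × M → ℝ≥0∞} (hφ : Measurable φ) :
    ∫⁻ x, φ x ∂mu σ = ∫⁻ x in Hs M 0, φ x ∂mu σ + ∫⁻ x in Hs M 0, φ (rf x) ∂mu σ := by
  have hm : MeasurableSet {x : ℝ × M | 0 < x.1} := measurableSet_lt measurable_const measurable_fst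
  have h := (mp_rf (σ := σ)).setLIntegral_comp_preimage hm hφ
  have e : rf ⁻¹' {x : ℝ × M | 0 < x.1} = Hs M 0 := by
    ext x; simp
  rw [e] at h
  rw [h, ← lintegral_add_compl φ (measurableSet_Hs 0)]
  congr 1
  apply setLIntegral_congr
  have h0 : mu σ (({0} : Set ℝ) ×ˢ (univ : Set M)) = 0 := by
    rw [Measure.prod_prod]; simp
  have h1 : ∀ᵐ x ∂mu σ, x ∉ (({0} : Set ℝ) ×ˢ (univ : Set M)) := measure_eq_zero_iff_ae_notMem.1 h0
  filter_upwards [h1] with x hx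
  have hx0 : x.1 ≠ 0 := by simpa using hx
  apply propext
  change ¬ (x.1 < 0) ↔ 0 < x.1
  constructor
  · intro h; exact lt_of_le_of_ne (not_lt.1 h) hx0.symm
  · intro h; exact not_lt.2 h.le

omit [IsFiniteMeasure σ] in
theorem Hs_split {l : ℝ} (hl : 0 ≤ l) (φ : ℝ × M → ℝ≥0∞) :
    ∫⁻ x in Hs M 0, φ x ∂mu σ = ∫⁻ x in Hs M (-l), φ x ∂mu σ + ∫⁻ x in Ly M l, φ x ∂mu σ := by
  rw [← lintegral_union (measurableSet_Ly l)]
  · congr 2
    ext x
    simp only [mem_Hs, mem_union, mem_Ly]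
    constructor
    · intro h
      by_cases h' : x.1 < -l
      · exact Or.inl h'
      · exact Or.inr ⟨not_lt.1 h', h⟩
    · rintro (h | h)
      · linarith
      · exact h.2
  · rw [Set.disjoint_left]
    intro x h1 h2
    simp only [mem_Hs, mem_Ly] at h1 h2
    linarith [h2.1]

theorem lintegral_fst (ρ : ℝ → ℝ≥0∞) (hρ : Measurable ρ) (R : M → ℝ≥0∞) (hR : Measurable R) :
    ∫⁻ x, ρ x.1 * R x.2 ∂mu σ = (∫⁻ t, ρ t) * ∫⁻ ω, R ω ∂σ :=
  lintegral_prod_mul hρ.aemeasurable hR.aemeasurable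

theorem measure_Ly (l : ℝ) : mu σ (Ly M l) = ENNReal.ofReal l * σ univ := by
  have e : Ly M l = Ico (-l) 0 ×ˢ (univ : Set M) := by
    ext x; simp [Ly]
  rw [e, Measure.prod_prod]; simp

theorem lintegral_exp_Iio {b : ℝ} (hb : 0 < b) :
    ∫⁻ t in Iio (0 : ℝ), ENNReal.ofReal (Real.exp (b * t)) ≠ ⊤ := by
  have h : IntegrableOn (fun t : ℝ => Real.exp (b * t)) (Iio 0) :=
    (integrableOn_exp_mul_Iic hb 0).mono_set Iio_subset_Iic_self
  exact h.lintegral_lt_top.ne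

theorem lintegral_exp_Hs {b : ℝ} (hb : 0 < b) (C : ℝ) :
    ∫⁻ x in Hs M 0, ENNReal.ofReal (C * Real.exp (b * x.1)) ∂mu σ ≠ ⊤ := by
  have e : Hs M 0 = Iio (0 : ℝ) ×ˢ (univ : Set M) := by
    ext x; simp [Hs]
  rw [e, ← Measure.prod_restrict, Measure.restrict_univ]
  have h := lintegral_prod_mul (μ := (volume : Measure ℝ).restrict (Iio 0)) (ν := σ)
    (f := fun t : ℝ => ENNReal.ofReal (C * Real.exp (b * t))) (g := fun _ => 1)
    (by fun_prop) (by fun_prop)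
  simp only [mul_one, lintegral_const, one_mul] at h
  rw [h]
  refine ENNReal.mul_ne_top ?_ (measure_ne_top _ _)
  have h : IntegrableOn (fun t : ℝ => C * Real.exp (b * t)) (Iio 0) :=
    ((integrableOn_exp_mul_Iic hb 0).mono_set Iio_subset_Iic_self).const_mul C
  exact h.lintegral_lt_top.ne

/-- Integrating a translation invariant kernel against a profile in `t`. -/
theorem lintegral_profile (r : ℝ → M → M → ℝ≥0∞)
    (hr : Measurable (fun z : ℝ × M × M => r z.1 z.2.1 z.2.2)) (ρ : ℝ → ℝ≥0∞) (hρ : Measurable ρ) :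
    ∫⁻ x, ρ x.1 * ∫⁻ y, r (x.1 - y.1) x.2 y.2 ∂mu σ ∂mu σ =
      (∫⁻ t, ρ t) * ∫⁻ ω, ∫⁻ η, ∫⁻ d, r d ω η ∂volume ∂σ ∂σ := by
  have h1 : ∀ x : ℝ × M, ∫⁻ y, r (x.1 - y.1) x.2 y.2 ∂mu σ = ∫⁻ η, ∫⁻ d, r d x.2 η ∂volume ∂σ := by
    intro x
    have hm : Measurable (fun y : ℝ × M => r (x.1 - y.1) x.2 y.2) :=
      hr.comp (f := fun y : ℝ × M => (x.1 - y.1, x.2, y.2)) (by fun_prop)
    rw [lintegral_prod_symm _ hm.aemeasurable]
    refine lintegral_congr fun η => ?_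
    exact lintegral_sub_left_eq_self (fun d => r d x.2 η) x.1
  simp_rw [h1]
  refine lintegral_fst ρ hρ (fun ω => ∫⁻ η, ∫⁻ d, r d ω η ∂volume ∂σ) ?_
  refine Measurable.lintegral_prod_right' (f := fun z : M × M => ∫⁻ d, r d z.1 z.2) ?_
  refine Measurable.lintegral_prod_right' (f := fun z : (M × M) × ℝ => r z.2 z.1.1 z.1.2) ?_
  exact hr.comp (f := fun z : (M × M) × ℝ => (z.2, z.1.1, z.1.2)) (by fun_prop)

/-- Joint measurability of a kernel on the cylinder. -/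
abbrev MK (j : ℝ × M → ℝ × M → ℝ≥0∞) : Prop := Measurable (fun z : (ℝ × M) × (ℝ × M) => j z.1 z.2)

/-- Integral operator on the half cylinder `t < 0`. -/
noncomputable def T (σ : Measure M) (j : ℝ × M → ℝ × M → ℝ≥0∞) (φ : ℝ × M → ℝ≥0∞) (x : ℝ × M) :
    ℝ≥0∞ := ∫⁻ y in Hs M 0, j x y * φ y ∂mu σ

/-- Double integral over the half cylinder. -/
noncomputable def D (σ : Measure M) (F : ℝ × M → ℝ × M → ℝ≥0∞) : ℝ≥0∞ :=
  ∫⁻ x in Hs M 0, ∫⁻ y in Hs M 0, F x y ∂mu σ ∂mu σ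

omit [IsFiniteMeasure σ] in
theorem MK.right {j : ℝ × M → ℝ × M → ℝ≥0∞} (hj : MK j) (x : ℝ × M) : Measurable (j x) :=
  hj.comp (f := fun y => (x, y)) (by fun_prop)

theorem measurable_T {j : ℝ × M → ℝ × M → ℝ≥0∞} (hj : MK j) {φ : ℝ × M → ℝ≥0∞}
    (hφ : Measurable φ) : Measurable (T σ j φ) :=
  Measurable.lintegral_prod_right' (f := fun z : (ℝ × M) × (ℝ × M) => j z.1 z.2 * φ z.2)
    (hj.mul (hφ.comp measurable_snd))

omit [IsFiniteMeasure σ] in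
theorem T_add {j : ℝ × M → ℝ × M → ℝ≥0∞} (hj : MK j) {φ ψ : ℝ × M → ℝ≥0∞}
    (hφ : Measurable φ) (x : ℝ × M) :
    T σ j (fun y => φ y + ψ y) x = T σ j φ x + T σ j ψ x := by
  unfold T
  simp_rw [mul_add]
  exact lintegral_add_left ((hj.right x).mul hφ) _

omit [IsFiniteMeasure σ] in
theorem T_add_ker {j j1 j2 : ℝ × M → ℝ × M → ℝ≥0∞} (hj : MK j1) {φ : ℝ × M → ℝ≥0∞}
    (hφ : Measurable φ) (x : ℝ × M) (h : ∀ y : ℝ × M, y.1 < 0 → j x y = j1 x y + j2 x y) :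
    T σ j φ x = T σ j1 φ x + T σ j2 φ x := by
  unfold T
  rw [← lintegral_add_left ((hj.right x).fun_mul hφ)]
  refine setLIntegral_congr_fun (measurableSet_Hs 0) fun y hy => ?_
  rw [h y hy, add_mul]

omit [IsFiniteMeasure σ] in
theorem T_mono {j j' : ℝ × M → ℝ × M → ℝ≥0∞} {φ ψ : ℝ × M → ℝ≥0∞} {x : ℝ × M}
    (h : ∀ y : ℝ × M, y.1 < 0 → j x y * φ y ≤ j' x y * ψ y) : T σ j φ x ≤ T σ j' ψ x :=
  setLIntegral_mono' (measurableSet_Hs 0) fun y hy => h y hy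

omit [IsFiniteMeasure σ] in
theorem T_congr {j : ℝ × M → ℝ × M → ℝ≥0∞} {φ ψ : ℝ × M → ℝ≥0∞} (x : ℝ × M)
    (h : ∀ y : ℝ × M, y.1 < 0 → φ y = ψ y) : T σ j φ x = T σ j ψ x :=
  setLIntegral_congr_fun (measurableSet_Hs 0) fun y hy => by rw [h y hy]

omit [IsFiniteMeasure σ] in
theorem D_eq {j : ℝ × M → ℝ × M → ℝ≥0∞} (hj : MK j) (φ : ℝ × M → ℝ≥0∞) {ψ : ℝ × M → ℝ≥0∞}
    (hψ : Measurable ψ) :
    ∫⁻ x in Hs M 0, φ x * T σ j ψ x ∂mu σ = D σ (fun x y => φ x * (j x y * ψ y)) := by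
  unfold D T
  refine lintegral_congr fun x => ?_
  exact (lintegral_const_mul _ ((hj.right x).fun_mul hψ)).symm

omit [IsFiniteMeasure σ] in
theorem D_mono {F F' : ℝ × M → ℝ × M → ℝ≥0∞}
    (h : ∀ x y : ℝ × M, x.1 < 0 → y.1 < 0 → F x y ≤ F' x y) : D σ F ≤ D σ F' :=
  setLIntegral_mono' (measurableSet_Hs 0) fun x hx =>
    setLIntegral_mono' (measurableSet_Hs 0) fun y hy => h x y hx hy

theorem D_add {F F' : ℝ × M → ℝ × M → ℝ≥0∞} (hF : MK F) :
    D σ (fun x y => F x y + F' x y) = D σ F + D σ F' := by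
  unfold D
  rw [← lintegral_add_left (Measurable.lintegral_prod_right' hF)]
  refine lintegral_congr fun x => ?_
  exact lintegral_add_left (hF.right x) _

theorem D_swap {F : ℝ × M → ℝ × M → ℝ≥0∞} (hF : MK F) : D σ F = D σ (fun x y => F y x) :=
  lintegral_lintegral_swap hF.aemeasurable

end Crest.Agent.R77
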