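import Mathlib

/-!
# Row 77 (Hénon–Lane–Emden): definitions for the cylinder formulation

Points of the cylinder are pairs `(t, ω)` (`t = log r`).  `CylKernel` lists the properties of the
Newton kernel `k(d, ω, η) = (2 cosh d - 2⟪ω, η⟫)^(-a)` that the abstract argument uses.
-/

set_option autoImplicit false

open MeasureTheory Set Filter Topology
open scoped ENNReal

namespace Crest.Agent.R77

/-- The abstract properties of the Newton kernel on the cylinder `ℝ × M`. -/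
structure CylKernel (M : Type*) [MeasurableSpace M] (σ : Measure M) (a : ℝ) where
  k : ℝ → M → M → ℝ≥0∞
  meas : Measurable (fun z : ℝ × M × M => k z.1 z.2.1 z.2.2)
  symm : ∀ d ω η, k d ω η = k d η ω
  anti : ∀ d d' ω η, |d| ≤ |d'| → k d' ω η ≤ k d ω η
  c0 : ℝ
  c0_pos : 0 < c0
  lo : ∀ d ω η, ENNReal.ofReal (c0 * Real.exp (-(a * |d|))) ≤ k d ω η
  C0 : ℝ
  C0_pos : 0 < C0
  hi : ∀ ε, 0 < ε → ε ≤ 1 → ∀ d ω η, ε ≤ |d| →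
    k d ω η ≤ ENNReal.ofReal (C0 * ε ^ (-(2 * a)) * Real.exp (-(a * |d|)))
  loc : ∀ γ : ℝ≥0∞, γ ≠ 0 → ∀ᶠ l in 𝓝[>] (0 : ℝ),
    ∫⁻ ω, ∫⁻ η, ∫⁻ d in Icc (-l) l, k d ω η ∂volume ∂σ ∂σ ≤ γ
  sec : ∀ γ : ℝ≥0∞, γ ≠ 0 → ∀ᶠ l in 𝓝[>] (0 : ℝ),
    ∫⁻ ω, ∫⁻ η, ∫⁻ d, (2 * k d ω η - (k (d + l) ω η + k (d - l) ω η)) ∂volume ∂σ ∂σ
      ≤ γ * ENNReal.ofReal l

end Crest.Agent.R77
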