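import Crest.Agent.R77.Defs

/-!
# Row 77: logarithmic polar coordinates and the Newton kernel on the cylinder
-/

set_option autoImplicit false

open MeasureTheory Set Filter Topology Metric
open scoped ENNReal RealInnerProductSpace

namespace Crest.Agent.R77

/-- Logarithmic polar coordinates `x = e^t ω`.
Recipe: `measurePreserving_homeomorphUnitSphereProd` (see the proof of `integral_fun_norm_addHaar`),
`volumeIoiPow` is `r^(n-1) dr` on `Ioi 0`, then `r = e^t`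
(`lintegral_image_eq_lintegral_abs_deriv_mul` with `Real.exp '' univ = Ioi 0`), Tonelli. -/
theorem lintegral_polar {n : ℕ} (hn : 1 ≤ n) (F : EuclideanSpace ℝ (Fin n) → ℝ≥0∞)
    (hF : Measurable F) :
    ∫⁻ x, F x = ∫⁻ y : ℝ × sphere (0 : EuclideanSpace ℝ (Fin n)) 1,
      ENNReal.ofReal (Real.exp (n * y.1)) * F (Real.exp y.1 • (y.2 : EuclideanSpace ℝ (Fin n)))
        ∂((volume : Measure ℝ).prod (volume : Measure (EuclideanSpace ℝ (Fin n))).toSphere) := by
  have : Nonempty (Fin n) := ⟨⟨0, hn⟩⟩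
  have hm1 : Measurable fun p : sphere (0 : EuclideanSpace ℝ (Fin n)) 1 × Ioi (0 : ℝ) =>
      F (p.2.1 • (p.1 : EuclideanSpace ℝ (Fin n))) := hF.comp (by fun_prop)
  have hm2 : Measurable fun y : ℝ × sphere (0 : EuclideanSpace ℝ (Fin n)) 1 =>
      ENNReal.ofReal (Real.exp (n * y.1)) *
        F (Real.exp y.1 • (y.2 : EuclideanSpace ℝ (Fin n))) :=
    Measurable.mul (by fun_prop) (hF.comp (by fun_prop))
  have h1 := (Measure.measurePreserving_homeomorphUnitSphereProd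
    (volume : Measure (EuclideanSpace ℝ (Fin n)))).lintegral_comp hm1
  have h2 : ∀ x : ({0}ᶜ : Set (EuclideanSpace ℝ (Fin n))),
      (homeomorphUnitSphereProd _ x).2.1 • ((homeomorphUnitSphereProd _ x).1 :
        EuclideanSpace ℝ (Fin n)) = x := fun x => by
    rw [← homeomorphUnitSphereProd_symm_apply_coe, Homeomorph.symm_apply_apply]
  simp only [h2] at h1
  rw [lintegral_subtype_comap (measurableSet_singleton _).compl, restrict_compl_singleton] at h1
  rw [h1, lintegral_prod _ hm1.aemeasurable, lintegral_prod_symm _ hm2.aemeasurable]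
  refine lintegral_congr fun ω => ?_
  have hm3 : Measurable fun r : Ioi (0 : ℝ) => F (r.1 • (ω : EuclideanSpace ℝ (Fin n))) :=
    hF.comp (by fun_prop)
  dsimp only
  rw [Measure.volumeIoiPow, lintegral_withDensity_eq_lintegral_mul _ (by fun_prop) hm3]
  simp only [Pi.mul_apply]
  rw [lintegral_subtype_comap measurableSet_Ioi (fun r : ℝ => ENNReal.ofReal
    (r ^ (Module.finrank ℝ (EuclideanSpace ℝ (Fin n)) - 1)) *
      F (r • (ω : EuclideanSpace ℝ (Fin n)))), ← Real.range_exp, ← image_univ,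
    lintegral_image_eq_lintegral_abs_deriv_mul MeasurableSet.univ
      (fun x _ => (Real.hasDerivAt_exp x).hasDerivWithinAt) Real.exp_injective.injOn,
    Measure.restrict_univ]
  refine lintegral_congr fun t => ?_
  rw [← mul_assoc, ← ENNReal.ofReal_mul (abs_nonneg _), abs_of_pos (Real.exp_pos t),
    finrank_euclideanSpace_fin, ← pow_succ', Nat.sub_add_cancel hn, Real.exp_nat_mul]

theorem norm_sq_polar {n : ℕ} (t s : ℝ) (ω η : sphere (0 : EuclideanSpace ℝ (Fin n)) 1) :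
    ‖Real.exp s • (η : EuclideanSpace ℝ (Fin n)) - Real.exp t • (ω : EuclideanSpace ℝ (Fin n))‖ ^ 2 =
      Real.exp (t + s) * (2 * Real.cosh (t - s) -
        2 * ⟪(ω : EuclideanSpace ℝ (Fin n)), (η : EuclideanSpace ℝ (Fin n))⟫) := by
  have hω : ‖(ω : EuclideanSpace ℝ (Fin n))‖ = 1 := by simp
  have hη : ‖(η : EuclideanSpace ℝ (Fin n))‖ = 1 := by simp
  rw [norm_sub_sq_real, norm_smul, norm_smul, hω, hη, real_inner_smul_left, real_inner_smul_right,
    real_inner_comm, Real.cosh_eq, neg_sub, Real.exp_add, Real.exp_sub, Real.exp_sub,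
    Real.norm_eq_abs, Real.norm_eq_abs, abs_of_pos (Real.exp_pos _), abs_of_pos (Real.exp_pos _)]
  field_simp
  ring

/-- the quantity `2 cosh d - 2 c` -/
noncomputable def pY (d c : ℝ) : ℝ := 2 * Real.cosh d - 2 * c

/-- the kernel -/
noncomputable def pK (a d c : ℝ) : ℝ≥0∞ := ENNReal.ofReal (pY d c) ^ (-a)

/-- an integrable majorant -/
noncomputable def pG (a d c : ℝ) : ℝ≥0∞ :=
  (Icc (-1 : ℝ) 1).indicator (fun d => pK (a + 3 / 4) d c) d +
    ENNReal.ofReal (Real.exp (-(a * |d|)))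

theorem pol_anti {a : ℝ} (ha : 0 ≤ a) {x y : ℝ≥0∞} (h : x ≤ y) : y ^ (-a) ≤ x ^ (-a) := by
  rw [ENNReal.rpow_neg, ENNReal.rpow_neg]
  exact ENNReal.inv_le_inv.2 (ENNReal.rpow_le_rpow h ha)

theorem pol_cosh_le (d : ℝ) : Real.cosh d ≤ Real.exp |d| := by
  rw [← Real.cosh_abs, Real.cosh_eq]
  have := Real.exp_le_exp.2 (show -|d| ≤ |d| by linarith [abs_nonneg d])
  linarith

theorem pY_nonneg (d : ℝ) {c : ℝ} (hc : |c| ≤ 1) : 0 ≤ pY d c := by
  have := Real.one_le_cosh d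
  have := (abs_le.1 hc).2
  unfold pY; linarith

theorem pY_le (d : ℝ) {c : ℝ} (hc : |c| ≤ 1) : pY d c ≤ 4 * Real.exp |d| := by
  have := pol_cosh_le d
  have := (abs_le.1 hc).1
  have := Real.one_le_exp (abs_nonneg d)
  unfold pY; linarith

theorem pY_ge {d c ε : ℝ} (hc : |c| ≤ 1) (h0 : 0 < ε) (h1 : ε ≤ 1) (hd : ε ≤ |d|) :
    Real.exp |d| * ε ^ 2 / 4 ≤ pY d c := by
  have hc1 := (abs_le.1 hc).2
  have hu := Real.add_one_le_exp |d|
  have huv : Real.exp |d| * Real.exp (-|d|) = 1 := by rw [← Real.exp_add]; simp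
  have hv0 := Real.exp_pos (-|d|)
  have hv : Real.exp (-|d|) ≤ 1 - ε / 2 := by
    by_contra hlt
    push Not at hlt
    nlinarith
  have h2 : ε ^ 2 / 4 ≤ (1 - Real.exp (-|d|)) ^ 2 := by nlinarith
  have h3 := mul_le_mul_of_nonneg_left h2 (Real.exp_pos |d|).le
  unfold pY
  rw [← Real.cosh_abs, Real.cosh_eq]
  nlinarith

theorem pK_lo {a : ℝ} (ha : 0 ≤ a) (d : ℝ) {c : ℝ} (hc : |c| ≤ 1) :
    ENNReal.ofReal ((4 : ℝ) ^ (-a) * Real.exp (-(a * |d|))) ≤ pK a d c := by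
  refine le_trans (le_of_eq ?_) (pol_anti ha (ENNReal.ofReal_le_ofReal (pY_le d hc)))
  rw [ENNReal.ofReal_rpow_of_pos (by positivity), Real.mul_rpow (by norm_num) (Real.exp_pos _).le,
    ← Real.exp_mul]
  congr 3; ring

theorem pol_rpow_eq {a ε : ℝ} (h0 : 0 < ε) (x : ℝ) :
    (Real.exp x * ε ^ 2 / 4) ^ (-a) = (4 : ℝ) ^ a * ε ^ (-(2 * a)) * Real.exp (-(a * x)) := by
  rw [Real.div_rpow (by positivity) (by norm_num), Real.mul_rpow (Real.exp_pos _).le (by positivity),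
    ← Real.exp_mul, ← Real.rpow_natCast, ← Real.rpow_mul h0.le, Real.rpow_neg (x := 4) (by norm_num),
    div_inv_eq_mul, show x * -a = -(a * x) by ring, show ((2 : ℕ) : ℝ) * -a = -(2 * a) by
      push_cast; ring]
  ring

theorem pK_hi {a : ℝ} (ha : 0 ≤ a) {ε d c : ℝ} (hc : |c| ≤ 1) (h0 : 0 < ε) (h1 : ε ≤ 1)
    (hd : ε ≤ |d|) :
    pK a d c ≤ ENNReal.ofReal ((4 : ℝ) ^ a * ε ^ (-(2 * a)) * Real.exp (-(a * |d|))) := by
  refine (pol_anti ha (ENNReal.ofReal_le_ofReal (pY_ge hc h0 h1 hd))).trans (le_of_eq ?_)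
  rw [ENNReal.ofReal_rpow_of_pos (by positivity), pol_rpow_eq h0]

theorem pol_tangent {a x y : ℝ} (ha : 0 ≤ a) (hx : 0 < x) (hy : 0 < y) :
    y ^ (-a) - a * y ^ (-a - 1) * (x - y) ≤ x ^ (-a) := by
  have h1 : x ^ (-a) = y ^ (-a) * (x / y) ^ (-a) := by
    rw [← Real.mul_rpow hy.le (div_pos hx hy).le, mul_div_cancel₀ _ hy.ne']
  have h2 : 1 - a * (x / y - 1) ≤ (x / y) ^ (-a) := by
    rw [Real.rpow_def_of_pos (div_pos hx hy)]
    have := Real.add_one_le_exp (Real.log (x / y) * -a)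
    have h3 := mul_le_mul_of_nonneg_left (Real.log_le_sub_one_of_pos (div_pos hx hy)) ha
    linarith
  rw [h1, Real.rpow_sub_one hy.ne']
  refine le_trans (le_of_eq ?_) (mul_le_mul_of_nonneg_left h2 (Real.rpow_pos_of_pos hy _).le)
  field_simp

theorem pol_cosh_sub_one {l : ℝ} (h0 : 0 ≤ l) (h1 : l ≤ 1) : Real.cosh l - 1 ≤ l ^ 2 := by
  have h2 := Real.cosh_le_exp_half_sq l
  have h3 : |l ^ 2 / 2| = l ^ 2 / 2 := abs_of_nonneg (by positivity)
  have h4 := Real.abs_exp_sub_one_le (x := l ^ 2 / 2) (by rw [h3]; nlinarith)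
  have h5 := (abs_le.1 h4).2
  rw [h3] at h5
  linarith

theorem pol_second {a l d c : ℝ} (ha : 0 ≤ a) (h0 : 0 ≤ l) (h1 : l ≤ 1) (hY : 0 < pY d c)
    (hp : 0 < pY (d + l) c) (hm : 0 < pY (d - l) c) :
    2 * pY d c ^ (-a) - (pY (d + l) c ^ (-a) + pY (d - l) c ^ (-a)) ≤
      4 * a * l ^ 2 * Real.exp |d| * pY d c ^ (-a - 1) := by
  have t1 := pol_tangent ha hp hY
  have t2 := pol_tangent ha hm hY
  have e : (pY (d + l) c - pY d c) + (pY (d - l) c - pY d c) =
      4 * (Real.cosh d * (Real.cosh l - 1)) := by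
    unfold pY
    rw [Real.cosh_add, Real.cosh_sub]; ring
  have h2 : Real.cosh d * (Real.cosh l - 1) ≤ Real.exp |d| * l ^ 2 :=
    mul_le_mul (pol_cosh_le d) (pol_cosh_sub_one h0 h1) (by linarith [Real.one_le_cosh l])
      (Real.exp_pos _).le
  have h3 : 0 ≤ a * pY d c ^ (-a - 1) := mul_nonneg ha (Real.rpow_pos_of_pos hY _).le
  have h4 := mul_le_mul_of_nonneg_left h2 h3
  have h5 : a * pY d c ^ (-a - 1) * (pY (d + l) c - pY d c) +
      a * pY d c ^ (-a - 1) * (pY (d - l) c - pY d c) =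
      4 * (a * pY d c ^ (-a - 1) * (Real.cosh d * (Real.cosh l - 1))) := by
    rw [← mul_add, e]; ring
  nlinarith

theorem pK_eq_top {a d c : ℝ} (ha : 0 < a) (h : pY d c = 0) : pK a d c = ⊤ := by
  rw [pK, h, ENNReal.ofReal_zero, ENNReal.zero_rpow_of_neg (by linarith)]

theorem pK_eq {a d c : ℝ} (h : 0 < pY d c) : pK a d c = ENNReal.ofReal (pY d c ^ (-a)) :=
  ENNReal.ofReal_rpow_of_pos h

theorem pK_le_pG {a d : ℝ} (c : ℝ) (hd : |d| ≤ 1) : pK (a + 3 / 4) d c ≤ pG a d c := by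
  rw [pG, indicator_of_mem (show d ∈ Icc (-1 : ℝ) 1 from abs_le.1 hd)]
  exact le_self_add

theorem pol_sec {a : ℝ} (ha : 0 < a) : ∃ C : ℝ, 0 < C ∧ ∀ l, 0 < l → l ≤ 1 → ∀ d c, |c| ≤ 1 →
    2 * pK a d c - (pK a (d + l) c + pK a (d - l) c) ≤
      ENNReal.ofReal (C * l ^ (3 / 2 : ℝ)) * pG a d c := by
  refine ⟨2 + 12 * a + 4 * a * 4 ^ (a + 1), by positivity, fun l h0 h1 d c hc => ?_⟩
  set C := 2 + 12 * a + 4 * a * 4 ^ (a + 1) with hC
  have hl : 0 < l ^ (3 / 2 : ℝ) := by positivity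
  have h4 : 0 < 4 * a * (4 : ℝ) ^ (a + 1) := by positivity
  have hC0 : 0 < C := by positivity
  rcases (pY_nonneg (d + l) hc).eq_or_lt with hp | hp
  · simp [pK_eq_top ha hp.symm]
  rcases (pY_nonneg (d - l) hc).eq_or_lt with hm | hm
  · simp [pK_eq_top ha hm.symm]
  rcases (pY_nonneg d hc).eq_or_lt with hY | hY
  · have hd : |d| ≤ 1 := by
      by_contra hd
      have := pY_ge hc one_pos le_rfl (not_le.1 hd).le
      have := Real.exp_pos |d|
      linarith
    have := pK_le_pG (a := a) c hd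
    rw [pK_eq_top (by linarith) hY.symm, top_le_iff] at this
    rw [this, ENNReal.mul_top (by simpa using mul_pos hC0 hl)]
    exact le_top
  have hp' := Real.rpow_pos_of_pos hp (-a)
  have hm' := Real.rpow_pos_of_pos hm (-a)
  have hs := pol_second ha.le h0.le h1 hY hp hm
  rw [pK_eq hY, pK_eq hp, pK_eq hm, ← ENNReal.ofReal_add hp'.le hm'.le, ← ENNReal.ofReal_ofNat 2,
    ← ENNReal.ofReal_mul (by norm_num), ← ENNReal.ofReal_sub _ (by positivity)]
  have hl2 : l ^ 2 = l ^ (2 : ℝ) := by simp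
  by_cases hd : |d| ≤ 1
  · refine le_trans ?_ (mul_le_mul_right (pK_le_pG c hd) _)
    rw [pK_eq hY, ← ENNReal.ofReal_mul (by positivity)]
    refine ENNReal.ofReal_le_ofReal ?_
    have hb := Real.rpow_pos_of_pos hY (-(a + 3 / 4))
    rcases le_total (pY d c) (l ^ 2) with h | h
    · have e1 : pY d c ^ (-a) = pY d c ^ (3 / 4 : ℝ) * pY d c ^ (-(a + 3 / 4)) := by
        rw [← Real.rpow_add hY]; congr 1; ring
      have e2 : pY d c ^ (3 / 4 : ℝ) ≤ l ^ (3 / 2 : ℝ) := by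
        refine (Real.rpow_le_rpow hY.le h (by norm_num)).trans (le_of_eq ?_)
        rw [hl2, ← Real.rpow_mul h0.le]; norm_num
      have e3 := mul_le_mul_of_nonneg_right e2 hb.le
      have e4 : 2 * (l ^ (3 / 2 : ℝ) * pY d c ^ (-(a + 3 / 4))) ≤
          C * (l ^ (3 / 2 : ℝ) * pY d c ^ (-(a + 3 / 4))) :=
        mul_le_mul_of_nonneg_right (by linarith) (by positivity)
      nlinarith
    · have e1 : pY d c ^ (-a - 1) = pY d c ^ (-(1 / 4) : ℝ) * pY d c ^ (-(a + 3 / 4)) := by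
        rw [← Real.rpow_add hY]; congr 1; ring
      have e2 : l ^ 2 * pY d c ^ (-(1 / 4) : ℝ) ≤ l ^ (3 / 2 : ℝ) := by
        refine (mul_le_mul_of_nonneg_left (Real.rpow_le_rpow_of_nonpos (by positivity) h
          (by norm_num)) (by positivity)).trans (le_of_eq ?_)
        rw [hl2, ← Real.rpow_mul h0.le, ← Real.rpow_add h0]; norm_num
      have e3 : Real.exp |d| ≤ 3 :=
        (Real.exp_le_exp.2 hd).trans (Real.exp_one_lt_d9.le.trans (by norm_num))
      have e5 : 0 ≤ l ^ 2 * pY d c ^ (-(1 / 4) : ℝ) := by positivity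
      calc _ ≤ _ := hs
        _ = 4 * a * Real.exp |d| * (l ^ 2 * pY d c ^ (-(1 / 4) : ℝ)) *
              pY d c ^ (-(a + 3 / 4)) := by rw [e1]; ring
        _ ≤ 4 * a * 3 * l ^ (3 / 2 : ℝ) * pY d c ^ (-(a + 3 / 4)) := by gcongr
        _ ≤ _ := by
          gcongr
          linarith
  · refine le_trans ?_ (mul_le_mul_right (le_add_self (a := ENNReal.ofReal
      (Real.exp (-(a * |d|))))) _)
    rw [← ENNReal.ofReal_mul (by positivity)]
    refine ENNReal.ofReal_le_ofReal ?_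
    have e1 : pY d c ^ (-a - 1) ≤ (4 : ℝ) ^ (a + 1) * Real.exp (-((a + 1) * |d|)) := by
      refine (Real.rpow_le_rpow_of_nonpos (by positivity)
        (pY_ge hc one_pos le_rfl (not_le.1 hd).le) (by linarith)).trans (le_of_eq ?_)
      rw [show -a - 1 = -(a + 1) by ring, pol_rpow_eq one_pos, Real.one_rpow, mul_one]
    have e2 : l ^ 2 ≤ l ^ (3 / 2 : ℝ) := by
      rw [hl2]
      exact Real.rpow_le_rpow_of_exponent_ge h0 h1 (by norm_num)
    have e3 : Real.exp |d| * Real.exp (-((a + 1) * |d|)) = Real.exp (-(a * |d|)) := by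
      rw [← Real.exp_add]; congr 1; ring
    calc _ ≤ _ := hs
      _ ≤ 4 * a * l ^ (3 / 2 : ℝ) * Real.exp |d| *
            ((4 : ℝ) ^ (a + 1) * Real.exp (-((a + 1) * |d|))) := by gcongr
      _ = 4 * a * 4 ^ (a + 1) * l ^ (3 / 2 : ℝ) * Real.exp (-(a * |d|)) := by rw [← e3]; ring
      _ ≤ _ := by
        gcongr
        linarith

theorem pol_loc {a δ : ℝ} (ha : 0 < a) (hδ : 0 < δ) {d c : ℝ} (hc : |c| ≤ 1) (hd : |d| ≤ 1) :
    pK a d c ≤ ENNReal.ofReal δ * pG a d c + ENNReal.ofReal ((δ ^ (4 / 3 : ℝ)) ^ (-a)) := by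
  rcases le_total (pY d c) (δ ^ (4 / 3 : ℝ)) with h | h
  · refine le_trans (le_trans ?_ (mul_le_mul_right (pK_le_pG c hd) _)) le_self_add
    rcases (pY_nonneg d hc).eq_or_lt with hY | hY
    · rw [pK_eq_top (a := a + 3 / 4) (by linarith) hY.symm, ENNReal.mul_top (by simpa using hδ)]
      exact le_top
    rw [pK_eq hY, pK_eq hY, ← ENNReal.ofReal_mul hδ.le]
    refine ENNReal.ofReal_le_ofReal ?_
    have e1 : pY d c ^ (-a) = pY d c ^ (3 / 4 : ℝ) * pY d c ^ (-(a + 3 / 4)) := by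
      rw [← Real.rpow_add hY]; congr 1; ring
    have e2 : pY d c ^ (3 / 4 : ℝ) ≤ δ := by
      refine (Real.rpow_le_rpow hY.le h (by norm_num)).trans (le_of_eq ?_)
      rw [← Real.rpow_mul hδ.le]; norm_num
    rw [e1]
    exact mul_le_mul_of_nonneg_right e2 (Real.rpow_pos_of_pos hY _).le
  · refine le_trans ?_ le_add_self
    rw [← ENNReal.ofReal_rpow_of_pos (by positivity)]
    exact pol_anti ha.le (ENNReal.ofReal_le_ofReal h)

theorem pol_exp_int {a : ℝ} (ha : 0 < a) :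
    ∫⁻ d : ℝ, ENNReal.ofReal (Real.exp (-(a * |d|))) < ⊤ := by
  refine Integrable.lintegral_lt_top ?_
  rw [← integrableOn_univ, ← Iic_union_Ioi (a := (0 : ℝ))]
  refine IntegrableOn.union ?_ ?_
  · refine (integrableOn_exp_mul_Iic ha 0).congr_fun (fun x hx => ?_) measurableSet_Iic
    simp only [abs_of_nonpos (mem_Iic.1 hx), mul_neg, neg_neg]
  · refine (exp_neg_integrableOn_Ioi 0 ha).congr_fun (fun x hx => ?_) measurableSet_Ioi
    simp only [abs_of_pos (mem_Ioi.1 hx), neg_mul]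

theorem pol_ball_int {n : ℕ} (hn : 1 ≤ n) {b : ℝ} (hb : 2 * b < n) :
    ∫⁻ z : EuclideanSpace ℝ (Fin n), (ball (0 : EuclideanSpace ℝ (Fin n)) 5).indicator
      (fun z => ENNReal.ofReal (‖z‖ ^ 2) ^ (-b)) z < ⊤ := by
  have : Nonempty (Fin n) := ⟨⟨0, hn⟩⟩
  have h : IntegrableOn (fun z : EuclideanSpace ℝ (Fin n) => ‖z‖ ^ (-(2 * b))) (ball 0 5) :=
    integrableOn_ball_of_norm_le_rpow (C := 1) (α := 2 * b) (by simpa using hn)
      (by simpa using hb) (Eventually.of_forall fun x => by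
        rw [one_mul, Real.norm_eq_abs, abs_of_nonneg (by positivity)])
      (Measurable.aestronglyMeasurable (by fun_prop))
  rw [lintegral_indicator measurableSet_ball]
  refine lt_of_eq_of_lt (lintegral_congr_ae (ae_restrict_of_ae ?_)) h.lintegral_lt_top
  filter_upwards [compl_mem_ae_iff.2 (measure_singleton (0 : EuclideanSpace ℝ (Fin n)))] with z hz
  have hz' : 0 < ‖z‖ := norm_pos_iff.2 hz
  rw [ENNReal.ofReal_rpow_of_pos (by positivity), ← Real.rpow_natCast, ← Real.rpow_mul hz'.le]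
  congr 2
  push_cast; ring

theorem pol_abs_inner {n : ℕ} (ω η : sphere (0 : EuclideanSpace ℝ (Fin n)) 1) :
    |⟪(ω : EuclideanSpace ℝ (Fin n)), (η : EuclideanSpace ℝ (Fin n))⟫| ≤ 1 := by
  have hω : ‖(ω : EuclideanSpace ℝ (Fin n))‖ = 1 := by simp
  have hη : ‖(η : EuclideanSpace ℝ (Fin n))‖ = 1 := by simp
  simpa [hω, hη] using abs_real_inner_le_norm (ω : EuclideanSpace ℝ (Fin n)) η

theorem pol_near_int {n : ℕ} (hn : 1 ≤ n) {b : ℝ} (hb0 : 0 ≤ b) (hb : 2 * b < n) :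
    ∃ J : ℝ≥0∞, J < ⊤ ∧ ∀ ω : sphere (0 : EuclideanSpace ℝ (Fin n)) 1,
      ∫⁻ η : sphere (0 : EuclideanSpace ℝ (Fin n)) 1, ∫⁻ d : ℝ, (Icc (-1 : ℝ) 1).indicator
        (fun d => pK b d ⟪(ω : EuclideanSpace ℝ (Fin n)), (η : EuclideanSpace ℝ (Fin n))⟫) d
        ∂volume ∂(volume : Measure (EuclideanSpace ℝ (Fin n))).toSphere ≤ J := by
  refine ⟨ENNReal.ofReal (Real.exp n) * _, ENNReal.mul_lt_top ENNReal.ofReal_lt_top
    (pol_ball_int hn hb), fun ω => ?_⟩
  set F : EuclideanSpace ℝ (Fin n) → ℝ≥0∞ := (ball (0 : EuclideanSpace ℝ (Fin n)) 5).indicator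
    (fun z => ENNReal.ofReal (‖z‖ ^ 2) ^ (-b)) with hF
  have hFm : Measurable F := Measurable.indicator (by fun_prop) measurableSet_ball
  have hFm' : Measurable fun y => F (y - (ω : EuclideanSpace ℝ (Fin n))) := hFm.comp (by fun_prop)
  have hm2 : Measurable fun y : ℝ × sphere (0 : EuclideanSpace ℝ (Fin n)) 1 =>
      ENNReal.ofReal (Real.exp (n * y.1)) * F (Real.exp y.1 • (y.2 : EuclideanSpace ℝ (Fin n)) -
        (ω : EuclideanSpace ℝ (Fin n))) :=
    Measurable.mul (by fun_prop) (hFm.comp (by fun_prop))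
  rw [← lintegral_sub_right_eq_self F (ω : EuclideanSpace ℝ (Fin n)), lintegral_polar hn _ hFm',
    lintegral_prod_symm _ hm2.aemeasurable,
    ← lintegral_const_mul' _ _ ENNReal.ofReal_ne_top]
  refine lintegral_mono fun η => ?_
  rw [← lintegral_const_mul' _ _ ENNReal.ofReal_ne_top]
  refine lintegral_mono fun d => ?_
  by_cases hd : d ∈ Icc (-1 : ℝ) 1
  swap
  · rw [indicator_of_notMem hd]; exact zero_le
  have hω : ‖(ω : EuclideanSpace ℝ (Fin n))‖ = 1 := by simp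
  have hη : ‖(η : EuclideanSpace ℝ (Fin n))‖ = 1 := by simp
  have e3 : Real.exp d ≤ 3 :=
    (Real.exp_le_exp.2 hd.2).trans (Real.exp_one_lt_d9.le.trans (by norm_num))
  have hmem : Real.exp d • (η : EuclideanSpace ℝ (Fin n)) - (ω : EuclideanSpace ℝ (Fin n)) ∈
      ball (0 : EuclideanSpace ℝ (Fin n)) 5 := by
    rw [mem_ball_zero_iff]
    refine (norm_sub_le _ _).trans_lt ?_
    rw [norm_smul, hω, hη, Real.norm_eq_abs, abs_of_pos (Real.exp_pos _)]
    linarith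
  have hsq := norm_sq_polar 0 d ω η
  rw [Real.exp_zero, one_smul, zero_add, zero_sub, Real.cosh_neg] at hsq
  simp only [hF]
  rw [indicator_of_mem hd, indicator_of_mem hmem, hsq, ENNReal.ofReal_mul (Real.exp_pos _).le,
    ENNReal.mul_rpow_of_ne_top ENNReal.ofReal_ne_top ENNReal.ofReal_ne_top,
    ENNReal.ofReal_rpow_of_pos (Real.exp_pos _), ← mul_assoc, ← mul_assoc,
    ← ENNReal.ofReal_mul (Real.exp_pos _).le, ← ENNReal.ofReal_mul (by positivity),
    ← Real.exp_mul, ← Real.exp_add, ← Real.exp_add]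
  refine le_mul_of_one_le_left zero_le ?_
  rw [ENNReal.one_le_ofReal]
  refine Real.one_le_exp ?_
  nlinarith [hd.1, hd.2]

theorem pol_pG_int {n : ℕ} (hn : 1 ≤ n) {a : ℝ} (ha : 0 < a) (hb : 2 * (a + 3 / 4) < n) :
    ∫⁻ ω : sphere (0 : EuclideanSpace ℝ (Fin n)) 1, ∫⁻ η : sphere (0 : EuclideanSpace ℝ (Fin n)) 1,
      ∫⁻ d : ℝ, pG a d ⟪(ω : EuclideanSpace ℝ (Fin n)), (η : EuclideanSpace ℝ (Fin n))⟫
        ∂volume ∂(volume : Measure (EuclideanSpace ℝ (Fin n))).toSphere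
        ∂(volume : Measure (EuclideanSpace ℝ (Fin n))).toSphere < ⊤ := by
  obtain ⟨J, hJ, h⟩ := pol_near_int hn (by linarith) hb
  refine lt_of_le_of_lt (lintegral_mono (g := fun _ => J + (∫⁻ d : ℝ, ENNReal.ofReal
    (Real.exp (-(a * |d|)))) * (volume : Measure (EuclideanSpace ℝ (Fin n))).toSphere univ)
    fun ω => ?_) ?_
  · simp only [pG]
    simp_rw [lintegral_add_right _ (show Measurable fun d : ℝ =>
      ENNReal.ofReal (Real.exp (-(a * |d|))) by fun_prop)]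
    rw [lintegral_add_right _ measurable_const, lintegral_const]
    exact add_le_add_left (h ω) _
  · rw [lintegral_const]
    exact ENNReal.mul_lt_top (ENNReal.add_lt_top.2 ⟨hJ, ENNReal.mul_lt_top (pol_exp_int ha)
      (measure_lt_top _ _)⟩) (measure_lt_top _ _)

theorem pol_eventually {f : ℝ → ℝ} (hf : Tendsto f (𝓝[>] 0) (𝓝 0)) {J γ : ℝ≥0∞} (hJ : J ≠ ⊤)
    (hγ : γ ≠ 0) : ∀ᶠ l in 𝓝[>] (0 : ℝ), ENNReal.ofReal (f l) * J ≤ γ := by
  have h1 := ENNReal.Tendsto.mul_const (b := J) (ENNReal.tendsto_ofReal hf) (Or.inr hJ)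
  rw [ENNReal.ofReal_zero, zero_mul] at h1
  exact h1.eventually (eventually_le_nhds (pos_iff_ne_zero.2 hγ))

/-- The Newton kernel on the cylinder satisfies all the axioms of `CylKernel`.

Recipe.  `a = (n-2)/2`, `Y(d) = 2 cosh d - 2⟪ω,η⟫ ≥ 2 cosh d - 2 = e^|d| (1 - e^(-|d|))² ≥ 0`,
`Y ≤ 4 e^|d|`; `1 - e^(-ε) ≥ ε/2` on `[0,1]`; so `c0 = 4^(-a)`, `C0 = 4^a` work (`ENNReal.rpow` with
negative exponent is antitone).
*Integrability*: `J = ∫⁻ω ∫⁻η ∫⁻d (cosh d)^(3/4) Y^(-a-3/4) < ∞`.  For `|d| ≥ 1` the integrand is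
`≤ C e^(-a|d|)`; for `|d| ≤ 1` use `lintegral_polar` and `norm_sq_polar` (with `t = 0`, `d = -s`):
the inner double integral is `≤ C ∫_{‖y‖ ≤ e} ‖y - ω‖^(-(n - 1/2)) dy ≤ C ∫_{ball 0 4} ‖z‖^(-(n-1/2)) dz < ∞`
(`integrableOn_ball_of_norm_le_rpow` or `locallyIntegrable_of_norm_le_rpow`, translation invariance),
uniformly in `ω`.
*`sec`*: tangent-line inequality for the convex `s ↦ s^(-a)` gives, when `Y(d) > 0`,
`2 Y(d)^(-a) - Y(d+l)^(-a) - Y(d-l)^(-a) ≤ a Y(d)^(-a-1) (Y(d+l)+Y(d-l)-2Y(d)) = 4 a (cosh l - 1) cosh d · Y(d)^(-a-1)`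
(if `Y(d±l) = 0` the truncated difference is `0`), and it is also `≤ 2 Y(d)^(-a)`; `min(x,y) ≤ x^(1/4) y^(3/4)`
gives the bound `C (cosh l - 1)^(3/4) (cosh d)^(3/4) Y^(-a-3/4) ≤ C l^(3/2) …` for `l ≤ 1`
(`cosh l - 1 ≤ l²`).  (`Y(d) = 0` forces `d = 0`, a null set; or there the bound is `⊤`.)
*`loc`*: on `|d| ≤ 1`, `Y ≤ 4e`, so `k ≤ C (cosh d)^(3/4) Y^(-a-3/4)`; the integral over the shrinking
sets `Icc (-l) l × M × M` of a function with finite integral tends to the integral over the null set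
`d = 0` (`tendsto_setLIntegral_zero` on the product measure, or: for every `L`,
`k ≤ L + L^(-3/(4a)) Y^(-a-3/4)`). -/
theorem exists_sphKernel {n : ℕ} (hn : 3 ≤ n) :
    ∃ K : CylKernel (sphere (0 : EuclideanSpace ℝ (Fin n)) 1)
        (volume : Measure (EuclideanSpace ℝ (Fin n))).toSphere (((n : ℝ) - 2) / 2),
      ∀ d ω η, K.k d ω η = (ENNReal.ofReal (2 * Real.cosh d -
        2 * ⟪(ω : EuclideanSpace ℝ (Fin n)), (η : EuclideanSpace ℝ (Fin n))⟫)) ^
          (-(((n : ℝ) - 2) / 2)) := by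
  have hn' : (3 : ℝ) ≤ n := by exact_mod_cast hn
  set a := ((n : ℝ) - 2) / 2 with ha'
  have ha : 0 < a := by rw [ha']; linarith
  have hJ := pol_pG_int (n := n) (by omega) ha (by rw [ha']; linarith)
  set σ := (volume : Measure (EuclideanSpace ℝ (Fin n))).toSphere with hσ
  set J := ∫⁻ ω : sphere (0 : EuclideanSpace ℝ (Fin n)) 1,
    ∫⁻ η : sphere (0 : EuclideanSpace ℝ (Fin n)) 1,
      ∫⁻ d : ℝ, pG a d ⟪(ω : EuclideanSpace ℝ (Fin n)), (η : EuclideanSpace ℝ (Fin n))⟫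
        ∂volume ∂σ ∂σ with hJ'
  have hsmall : ∀ᶠ l in 𝓝[>] (0 : ℝ), 0 < l ∧ l ≤ 1 := Ioc_mem_nhdsGT one_pos
  have hid : Tendsto (fun l : ℝ => l) (𝓝[>] 0) (𝓝 0) := tendsto_id.mono_left nhdsWithin_le_nhds
  refine ⟨{ k := fun d ω η => pK a d ⟪(ω : EuclideanSpace ℝ (Fin n)), (η : EuclideanSpace ℝ (Fin n))⟫
            meas := by unfold pK pY; fun_prop
            symm := fun d ω η => by rw [real_inner_comm]
            anti := fun d d' ω η h => pol_anti ha.le (ENNReal.ofReal_le_ofReal (by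
              have := Real.cosh_le_cosh.2 h
              unfold pY; linarith))
            c0 := 4 ^ (-a)
            c0_pos := by positivity
            lo := fun d ω η => pK_lo ha.le d (pol_abs_inner ω η)
            C0 := 4 ^ a
            C0_pos := by positivity
            hi := fun ε h0 h1 d ω η hd => pK_hi ha.le (pol_abs_inner ω η) h0 h1 hd
            loc := fun γ hγ => ?_
            sec := fun γ hγ => ?_ }, fun d ω η => rfl⟩
  · have hγ2 : γ / 2 ≠ 0 := by simpa using hγ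
    obtain ⟨δ, hδ, hδ0, -⟩ := ((pol_eventually hid hJ.ne hγ2).and hsmall).exists
    set L := ENNReal.ofReal ((δ ^ (4 / 3 : ℝ)) ^ (-a)) with hL
    have hL' : L * σ univ * σ univ ≠ ⊤ :=
      ENNReal.mul_ne_top (ENNReal.mul_ne_top ENNReal.ofReal_ne_top (measure_ne_top _ _))
        (measure_ne_top _ _)
    have h2 : Tendsto (fun l : ℝ => l - -l) (𝓝[>] 0) (𝓝 0) := by simpa using hid.sub hid.neg
    filter_upwards [pol_eventually h2 hL' hγ2, hsmall] with l hl ⟨_, hl1⟩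
    calc _ ≤ ∫⁻ ω, ∫⁻ η, (ENNReal.ofReal δ * ∫⁻ d : ℝ,
              pG a d ⟪(ω : EuclideanSpace ℝ (Fin n)), (η : EuclideanSpace ℝ (Fin n))⟫) +
              L * ENNReal.ofReal (l - -l) ∂σ ∂σ := by
          refine lintegral_mono fun ω => lintegral_mono fun η => ?_
          refine (setLIntegral_mono' measurableSet_Icc fun d hd => pol_loc ha hδ0
            (pol_abs_inner ω η) (abs_le.2 ⟨by linarith [hd.1], by linarith [hd.2]⟩)).trans ?_
          rw [lintegral_add_right _ measurable_const, setLIntegral_const, Real.volume_Icc,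
            lintegral_const_mul' _ _ ENNReal.ofReal_ne_top]
          gcongr
          exact Measure.restrict_le_self
      _ = ENNReal.ofReal δ * J + ENNReal.ofReal (l - -l) * (L * σ univ * σ univ) := by
          simp_rw [lintegral_add_right _ measurable_const, lintegral_const,
            lintegral_const_mul' _ _ ENNReal.ofReal_ne_top]
          ring
      _ ≤ γ / 2 + γ / 2 := add_le_add hδ hl
      _ = γ := ENNReal.add_halves γ
  · obtain ⟨C, hC, h⟩ := pol_sec ha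
    have h2 : Tendsto (fun l : ℝ => C * l ^ (1 / 2 : ℝ)) (𝓝[>] 0) (𝓝 0) := by
      simpa using (hid.rpow_const_nhds_zero (p := 1 / 2) (by norm_num)).const_mul C
    filter_upwards [pol_eventually h2 hJ.ne hγ, hsmall] with l hl ⟨hl0, hl1⟩
    calc _ ≤ ∫⁻ ω, ∫⁻ η, ∫⁻ d : ℝ, ENNReal.ofReal (C * l ^ (3 / 2 : ℝ)) *
              pG a d ⟪(ω : EuclideanSpace ℝ (Fin n)), (η : EuclideanSpace ℝ (Fin n))⟫
              ∂volume ∂σ ∂σ :=
          lintegral_mono fun ω => lintegral_mono fun η => lintegral_mono fun d =>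
            h l hl0 hl1 d _ (pol_abs_inner ω η)
      _ = ENNReal.ofReal (C * l ^ (1 / 2 : ℝ)) * J * ENNReal.ofReal l := by
          simp_rw [lintegral_const_mul' _ _ ENNReal.ofReal_ne_top]
          rw [mul_right_comm, ← ENNReal.ofReal_mul (by positivity), mul_assoc C,
            ← Real.rpow_add_one hl0.ne', show (1 / 2 + 1 : ℝ) = 3 / 2 by norm_num]
      _ ≤ _ := mul_le_mul_left hl _

end Crest.Agent.R77
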