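import Crest.Agent.R77.Weak

/-!
# Row 77: Riesz representation of nonnegative supersolutions
-/

set_option autoImplicit false

open MeasureTheory Set Filter Topology Laplacian InnerProductSpace
open scoped ENNReal

namespace Crest.Agent.R77

/-- Newton potential of `f` at `x` (not normalised): `∫ f(y) ‖y - x‖^(2-n) dy`. -/
noncomputable def newton {n : ℕ} (f : EuclideanSpace ℝ (Fin n) → ℝ)
    (x : EuclideanSpace ℝ (Fin n)) : ℝ≥0∞ :=
  ∫⁻ y, ENNReal.ofReal (f y) * (ENNReal.ofReal (‖y - x‖ ^ 2)) ^ (-(((n : ℝ) - 2) / 2))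

/-! ### the cut-off profile `b_θ(s) = (s-θ)₊³ (s+θ) / s³` -/

lemma repr_hasDerivAt_max {F F' : ℝ → ℝ} {θ : ℝ} (h : ∀ s, θ ≤ s → HasDerivAt F (F' s) s)
    (h0 : F' θ = 0) (s : ℝ) : HasDerivAt (fun t => F (max t θ)) (F' (max s θ)) s := by
  rcases lt_trichotomy s θ with hs | rfl | hs
  · rw [max_eq_right hs.le, h0]
    refine (hasDerivAt_const s (F θ)).congr_of_eventuallyEq ?_
    filter_upwards [Iio_mem_nhds hs] with t ht
    rw [max_eq_right (le_of_lt ht)]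
  · rw [max_self, h0]
    have h1 : HasDerivWithinAt (fun t => F (max t s)) 0 (Iic s) s :=
      (hasDerivAt_const s (F s)).hasDerivWithinAt.congr (fun t ht => by rw [max_eq_right ht])
        (by rw [max_self])
    have h2 : HasDerivWithinAt (fun t => F (max t s)) 0 (Ici s) s :=
      (h0 ▸ h s le_rfl).hasDerivWithinAt.congr (fun t ht => by rw [max_eq_left ht])
        (by rw [max_self])
    have h3 := h1.union h2
    rwa [Iic_union_Ici, hasDerivWithinAt_univ] at h3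
  · rw [max_eq_left hs.le]
    refine (h s hs.le).congr_of_eventuallyEq ?_
    filter_upwards [Ioi_mem_nhds hs] with t ht
    rw [max_eq_left (le_of_lt ht)]

noncomputable def rF0 (θ s : ℝ) : ℝ := s - 2 * θ + 2 * θ ^ 3 * s⁻¹ ^ 2 - θ ^ 4 * s⁻¹ ^ 3
noncomputable def rF1 (θ s : ℝ) : ℝ := 1 - 4 * θ ^ 3 * s⁻¹ ^ 3 + 3 * θ ^ 4 * s⁻¹ ^ 4
noncomputable def rF2 (θ s : ℝ) : ℝ := 12 * θ ^ 3 * s⁻¹ ^ 4 - 12 * θ ^ 4 * s⁻¹ ^ 5
noncomputable def rb0 (θ s : ℝ) : ℝ := rF0 θ (max s θ)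
noncomputable def rb1 (θ s : ℝ) : ℝ := rF1 θ (max s θ)
noncomputable def rb2 (θ s : ℝ) : ℝ := rF2 θ (max s θ)

section profile
variable {θ : ℝ}

lemma rF0_self (hθ : 0 < θ) : rF0 θ θ = 0 := by unfold rF0; field_simp; ring
lemma rF1_self (hθ : 0 < θ) : rF1 θ θ = 0 := by unfold rF1; field_simp; ring
lemma rF2_self (θ : ℝ) : rF2 θ θ = 0 := by unfold rF2; field_simp; ring

lemma hasDerivAt_rb0 (hθ : 0 < θ) (s : ℝ) : HasDerivAt (rb0 θ) (rb1 θ s) s := by
  refine repr_hasDerivAt_max (F := rF0 θ) (fun s hs => ?_) (rF1_self hθ) s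
  have hs0 : s ≠ 0 := (hθ.trans_le hs).ne'
  have h := hasDerivAt_inv hs0
  have := ((((hasDerivAt_id' s).sub_const (2 * θ)).add ((h.pow 2).const_mul (2 * θ ^ 3))).sub
    ((h.pow 3).const_mul (θ ^ 4)))
  refine HasDerivAt.congr_deriv this ?_
  simp only [rF1]; norm_num; field_simp; ring

lemma hasDerivAt_rb1 (hθ : 0 < θ) (s : ℝ) : HasDerivAt (rb1 θ) (rb2 θ s) s := by
  refine repr_hasDerivAt_max (F := rF1 θ) (fun s hs => ?_) (rF2_self θ) s
  have hs0 : s ≠ 0 := (hθ.trans_le hs).ne'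
  have h := hasDerivAt_inv hs0
  have := ((((h.pow 3).const_mul (4 * θ ^ 3)).const_sub 1).add
    ((h.pow 4).const_mul (3 * θ ^ 4)))
  refine HasDerivAt.congr_deriv this ?_
  simp only [rF2]; norm_num; field_simp; ring

lemma continuous_rb0 (hθ : 0 < θ) : Continuous (rb0 θ) :=
  continuous_iff_continuousAt.2 fun s => (hasDerivAt_rb0 hθ s).continuousAt

lemma continuous_rb1 (hθ : 0 < θ) : Continuous (rb1 θ) :=
  continuous_iff_continuousAt.2 fun s => (hasDerivAt_rb1 hθ s).continuousAt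

lemma continuous_rb2 (hθ : 0 < θ) : Continuous (rb2 θ) := by
  have h : Continuous fun s : ℝ => (max s θ)⁻¹ :=
    (continuous_id.max continuous_const).inv₀ fun s => (hθ.trans_le (le_max_right _ _)).ne'
  exact (continuous_const.mul (h.pow 4)).sub (continuous_const.mul (h.pow 5))

lemma rb0_of_le (hθ : 0 < θ) {s : ℝ} (h : s ≤ θ) : rb0 θ s = 0 := by
  rw [rb0, max_eq_right h, rF0_self hθ]
lemma rb1_of_le (hθ : 0 < θ) {s : ℝ} (h : s ≤ θ) : rb1 θ s = 0 := by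
  rw [rb1, max_eq_right h, rF1_self hθ]
lemma rb2_of_le {s : ℝ} (h : s ≤ θ) : rb2 θ s = 0 := by
  rw [rb2, max_eq_right h, rF2_self θ]

lemma rb0_nonneg (hθ : 0 < θ) (s : ℝ) : 0 ≤ rb0 θ s := by
  have h1 : θ ≤ max s θ := le_max_right _ _
  rw [rb0]
  generalize max s θ = t at *
  have ht : 0 < t := hθ.trans_le h1
  have : rF0 θ t = (t - θ) ^ 3 * (t + θ) / t ^ 3 := by unfold rF0; field_simp; ring
  rw [this]
  have := sub_nonneg.2 h1
  positivity

lemma rb0_ge (hθ : 0 < θ) (s : ℝ) : s - 2 * θ ≤ rb0 θ s := by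
  have h1 : θ ≤ max s θ := le_max_right _ _
  have h2 : s ≤ max s θ := le_max_left _ _
  rw [rb0]
  generalize max s θ = t at *
  have ht : 0 < t := hθ.trans_le h1
  have : rF0 θ t = t - 2 * θ + θ ^ 3 * (2 * t - θ) / t ^ 3 := by unfold rF0; field_simp; ring
  rw [this]
  have h3 : 0 ≤ 2 * t - θ := by linarith
  have : 0 ≤ θ ^ 3 * (2 * t - θ) / t ^ 3 := by positivity
  linarith

lemma rb0_le (hθ : 0 < θ) {s : ℝ} (hs : 0 ≤ s) : rb0 θ s ≤ s := by
  rcases le_total s θ with h | h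
  · rwa [rb0_of_le hθ h]
  · rw [rb0, max_eq_left h]
    have ht : 0 < s := hθ.trans_le h
    have : rF0 θ s = s - (2 * θ * (s - θ) * (s + θ) / s ^ 2 + θ ^ 4 / s ^ 3) := by
      unfold rF0; field_simp; ring
    rw [this]
    have := sub_nonneg.2 h
    have : 0 ≤ 2 * θ * (s - θ) * (s + θ) / s ^ 2 + θ ^ 4 / s ^ 3 := by positivity
    linarith

lemma rb1_nonneg (hθ : 0 < θ) (s : ℝ) : 0 ≤ rb1 θ s := by
  have h1 : θ ≤ max s θ := le_max_right _ _
  rw [rb1]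
  generalize max s θ = t at *
  have ht : 0 < t := hθ.trans_le h1
  have : rF1 θ t = (t - θ) ^ 2 * (t ^ 2 + 2 * θ * t + 3 * θ ^ 2) / t ^ 4 := by
    unfold rF1; field_simp; ring
  rw [this]
  positivity

lemma rb1_le (hθ : 0 < θ) (s : ℝ) : rb1 θ s ≤ 1 := by
  have h1 : θ ≤ max s θ := le_max_right _ _
  rw [rb1]
  generalize max s θ = t at *
  have ht : 0 < t := hθ.trans_le h1
  have : rF1 θ t = 1 - θ ^ 3 * (4 * t - 3 * θ) / t ^ 4 := by
    unfold rF1; field_simp; ring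
  rw [this]
  have h3 : 0 ≤ 4 * t - 3 * θ := by linarith
  have : 0 ≤ θ ^ 3 * (4 * t - 3 * θ) / t ^ 4 := by positivity
  linarith

lemma rb2_nonneg (hθ : 0 < θ) (s : ℝ) : 0 ≤ rb2 θ s := by
  have h1 : θ ≤ max s θ := le_max_right _ _
  rw [rb2]
  generalize max s θ = t at *
  have ht : 0 < t := hθ.trans_le h1
  have : rF2 θ t = 12 * θ ^ 3 * (t - θ) / t ^ 5 := by
    unfold rF2; field_simp
  rw [this]
  have := sub_nonneg.2 h1
  positivity

lemma rb2_inv (hθ : 0 < θ) {ρ : ℝ} (hρ : 0 < ρ) :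
    rb2 θ ρ⁻¹ = 12 * θ ^ 3 * ρ ^ 4 * max (1 - θ * ρ) 0 := by
  rcases le_total ρ⁻¹ θ with h | h
  · rw [rb2_of_le h, max_eq_right, mul_zero]
    have := mul_le_mul_of_nonneg_right h hρ.le
    rw [inv_mul_cancel₀ hρ.ne'] at this
    linarith
  · rw [rb2, max_eq_left h, max_eq_left, rF2, inv_inv]
    · ring
    · have := mul_le_mul_of_nonneg_right h hρ.le
      rw [inv_mul_cancel₀ hρ.ne'] at this
      linarith

lemma tendsto_rb1 (θ : ℝ) : Tendsto (rb1 θ) atTop (𝓝 1) := by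
  have h : Tendsto (fun s : ℝ => (max s θ)⁻¹) atTop (𝓝 0) :=
    tendsto_inv_atTop_zero.comp (tendsto_atTop_mono (fun s => le_max_left s θ) tendsto_id)
  have := (((h.pow 3).const_mul (4 * θ ^ 3)).const_sub 1).add ((h.pow 4).const_mul (3 * θ ^ 4))
  simp only [ne_eq, OfNat.ofNat_ne_zero, not_false_eq_true, zero_pow, mul_zero, sub_zero,
    add_zero] at this
  exact this

end profile

/-! ### the weak identity and the approximate identity -/

lemma repr_integrable {n : ℕ} {u : EuclideanSpace ℝ (Fin n) → ℝ} (hu : Continuous u)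
    (x0 : EuclideanSpace ℝ (Fin n)) {g : ℝ → ℝ} (hg : ContinuousOn g (Ici 0)) {W : ℝ}
    (hW : ∀ w, 0 ≤ w → W ≤ w → g w = 0) : Integrable fun y => u y * g (‖y - x0‖ ^ 2) := by
  have hc : Continuous fun y => u y * g (‖y - x0‖ ^ 2) :=
    hu.mul (hg.comp_continuous (by fun_prop) fun y => mem_Ici.2 (sq_nonneg _))
  refine hc.integrable_of_hasCompactSupport (HasCompactSupport.intro
    (isCompact_closedBall x0 (|W| + 1)) fun y hy => ?_)
  rw [Metric.mem_closedBall, dist_eq_norm, not_le] at hy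
  rw [hW _ (sq_nonneg _) (by nlinarith [le_abs_self W, abs_nonneg W]), mul_zero]

lemma repr_weak {n : ℕ} (hn : 2 ≤ n) {u f : EuclideanSpace ℝ (Fin n) → ℝ}
    (hu : Continuous u) (hu2 : ContDiffOn ℝ 2 u {0}ᶜ)
    (hf : ∀ x, x ≠ 0 → -(Δ u) x = f x) (hf0 : ∀ x, x ≠ 0 → 0 ≤ f x)
    (hfc : ContinuousOn f {0}ᶜ) (x0 : EuclideanSpace ℝ (Fin n)) {θ : ℝ} (hθ : 0 < θ)
    {k k1 k2 : ℝ → ℝ} {W : ℝ} (h1 : ∀ w, 0 ≤ w → HasDerivAt k (k1 w) w)
    (h2 : ∀ w, 0 ≤ w → HasDerivAt k1 (k2 w) w) (h3 : ContinuousOn k2 (Ici 0))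
    (hW : ∀ w, W ≤ w → k w ≤ θ) :
    Integrable (fun y => f y * rb0 θ (k (‖y - x0‖ ^ 2))) ∧
    Integrable (fun y => u y *
      (4 * ‖y - x0‖ ^ 2 * (rb2 θ (k (‖y - x0‖ ^ 2)) * k1 (‖y - x0‖ ^ 2) ^ 2))) ∧
    (∫ y, f y * rb0 θ (k (‖y - x0‖ ^ 2))) + ∫ y, u y *
      (4 * ‖y - x0‖ ^ 2 * (rb2 θ (k (‖y - x0‖ ^ 2)) * k1 (‖y - x0‖ ^ 2) ^ 2)) =
      ∫ y, u y * (rb1 θ (k (‖y - x0‖ ^ 2)) *
        -(2 * n * k1 (‖y - x0‖ ^ 2) + 4 * ‖y - x0‖ ^ 2 * k2 (‖y - x0‖ ^ 2))) := by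
  have ck : ContinuousOn k (Ici 0) := fun w hw => (h1 w hw).continuousAt.continuousWithinAt
  have ck1 : ContinuousOn k1 (Ici 0) := fun w hw => (h2 w hw).continuousAt.continuousWithinAt
  have cb1 := (continuous_rb1 hθ).comp_continuousOn ck
  have cb2 := (continuous_rb2 hθ).comp_continuousOn ck
  obtain ⟨i1, e⟩ := weak_radial hn u f hu hu2 hf hf0 hfc x0 (fun w => rb0 θ (k w))
    (fun w => rb1 θ (k w) * k1 w) (fun w => rb2 θ (k w) * k1 w * k1 w + rb1 θ (k w) * k2 w) W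
    (fun w hw => (hasDerivAt_rb0 hθ _).comp w (h1 w hw))
    (fun w hw => ((hasDerivAt_rb1 hθ _).comp w (h1 w hw)).mul (h2 w hw))
    (((cb2.mul ck1).mul ck1).add (cb1.mul h3)) (fun w _ => rb0_nonneg hθ _)
    (fun w hw => rb0_of_le hθ (hW w hw))
  have i2 := repr_integrable hu x0 (g := fun w => 4 * w * (rb2 θ (k w) * k1 w ^ 2)) (W := W)
    ((continuousOn_const.mul continuousOn_id).mul (cb2.mul (ck1.pow 2)))
    fun w _ hw => by simp [rb2_of_le (hW w hw)]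
  have i3 := repr_integrable hu x0
    (g := fun w => rb1 θ (k w) * -(2 * n * k1 w + 4 * w * k2 w)) (W := W)
    (cb1.mul ((continuousOn_const.mul ck1).add
      ((continuousOn_const.mul continuousOn_id).mul h3)).neg)
    fun w _ hw => by simp [rb1_of_le hθ (hW w hw)]
  refine ⟨i1, i2, ?_⟩
  rw [e, ← integral_neg, ← eq_sub_iff_add_eq, ← integral_sub i3 i2]
  refine integral_congr_ae (.of_forall fun y => ?_)
  simp only
  ring

/-- the normalising constant of the approximate identity -/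
noncomputable def reprI (n : ℕ) : ℝ :=
  ∫ z : EuclideanSpace ℝ (Fin n), (1 + ‖z‖ ^ 2) ^ (-((n : ℝ) + 2) / 2)

lemma reprI_integrable (n : ℕ) :
    Integrable fun z : EuclideanSpace ℝ (Fin n) => (1 + ‖z‖ ^ 2) ^ (-((n : ℝ) + 2) / 2) :=
  integrable_rpow_neg_one_add_norm_sq (by simp)

lemma reprI_pos (n : ℕ) : 0 < reprI n := by
  refine integral_pos_of_integrable_nonneg_nonzero (x := 0) ?_ (reprI_integrable n)
    (fun z => by positivity) (by simp)
  exact Continuous.rpow_const (by fun_prop) fun z => Or.inl (by positivity)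

lemma repr_approx {n : ℕ} {u : EuclideanSpace ℝ (Fin n) → ℝ} (hu : Continuous u)
    (x0 : EuclideanSpace ℝ (Fin n)) {g : ℝ → ℝ → ℝ} (hm : ∀ δ, Measurable (g δ))
    (hb : ∀ δ w, |g δ w| ≤ 1) {W : ℝ} (hW : ∀ δ, 0 < δ → ∀ w, W ≤ w → g δ w = 0)
    (hl : ∀ t, 0 ≤ t → Tendsto (fun δ => g δ (δ * t)) (𝓝[>] 0) (𝓝 1)) :
    Tendsto (fun δ => ∫ y, u y * (g δ (‖y - x0‖ ^ 2) *
      (δ * (δ + ‖y - x0‖ ^ 2) ^ (-((n : ℝ) + 2) / 2)))) (𝓝[>] 0) (𝓝 (reprI n * u x0)) := by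
  obtain ⟨M, hM⟩ := (isCompact_closedBall x0 (|W| + 1)).exists_bound_of_continuousOn
    hu.continuousOn
  have hM0 : 0 ≤ M := (norm_nonneg _).trans (hM x0 (Metric.mem_closedBall_self (by positivity)))
  have key : ∀ δ : ℝ, 0 < δ → ∫ y, u y * (g δ (‖y - x0‖ ^ 2) *
      (δ * (δ + ‖y - x0‖ ^ 2) ^ (-((n : ℝ) + 2) / 2))) =
      ∫ z : EuclideanSpace ℝ (Fin n), u (x0 + √δ • z) * g δ (δ * ‖z‖ ^ 2) *
        (1 + ‖z‖ ^ 2) ^ (-((n : ℝ) + 2) / 2) := by
    intro δ hδ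
    have hs : 0 < √δ := Real.sqrt_pos.2 hδ
    set F : EuclideanSpace ℝ (Fin n) → ℝ := fun y => u y * (g δ (‖y - x0‖ ^ 2) *
      (δ * (δ + ‖y - x0‖ ^ 2) ^ (-((n : ℝ) + 2) / 2))) with hF
    have h1 := Measure.integral_comp_smul volume (fun z => F (x0 + z)) √δ
    rw [integral_add_left_eq_self, finrank_euclideanSpace_fin, abs_of_pos (by positivity),
      smul_eq_mul, eq_inv_mul_iff_mul_eq₀ (by positivity)] at h1
    rw [← h1, ← integral_const_mul]
    refine integral_congr_ae (.of_forall fun z => ?_)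
    have h2 : ‖x0 + √δ • z - x0‖ ^ 2 = δ * ‖z‖ ^ 2 := by
      rw [add_sub_cancel_left, norm_smul, mul_pow, Real.norm_eq_abs, sq_abs, Real.sq_sqrt hδ.le]
    have h3 : √δ ^ n * (δ * δ ^ (-((n : ℝ) + 2) / 2)) = 1 := by
      rw [Real.sqrt_eq_rpow, ← Real.rpow_natCast, ← Real.rpow_mul hδ.le, mul_comm δ,
        ← Real.rpow_add_one hδ.ne', ← Real.rpow_add hδ,
        show 1 / 2 * (n : ℝ) + (-((n : ℝ) + 2) / 2 + 1) = 0 by ring, Real.rpow_zero]
    simp only [hF, h2]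
    rw [show δ + δ * ‖z‖ ^ 2 = δ * (1 + ‖z‖ ^ 2) by ring, Real.mul_rpow hδ.le (by positivity)]
    linear_combination (u (x0 + √δ • z) * g δ (δ * ‖z‖ ^ 2) *
      (1 + ‖z‖ ^ 2) ^ (-((n : ℝ) + 2) / 2)) * h3
  have hlim : Tendsto (fun δ => ∫ z : EuclideanSpace ℝ (Fin n), u (x0 + √δ • z) *
      g δ (δ * ‖z‖ ^ 2) * (1 + ‖z‖ ^ 2) ^ (-((n : ℝ) + 2) / 2)) (𝓝[>] 0)
      (𝓝 (∫ z : EuclideanSpace ℝ (Fin n), u x0 * 1 * (1 + ‖z‖ ^ 2) ^ (-((n : ℝ) + 2) / 2))) := by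
    refine tendsto_integral_filter_of_dominated_convergence
      (fun z => M * (1 + ‖z‖ ^ 2) ^ (-((n : ℝ) + 2) / 2)) (.of_forall fun δ => ?_) ?_
      ((reprI_integrable n).const_mul M) (.of_forall fun z => ?_)
    · refine AEStronglyMeasurable.mul (Measurable.aestronglyMeasurable ?_)
        (reprI_integrable n).aestronglyMeasurable
      exact (hu.measurable.comp (by fun_prop)).mul ((hm δ).comp (by fun_prop))
    · filter_upwards [self_mem_nhdsWithin] with δ hδ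
      refine .of_forall fun z => ?_
      rw [norm_mul, Real.norm_of_nonneg (by positivity : 0 ≤ (1 + ‖z‖ ^ 2) ^ (-((n : ℝ) + 2) / 2))]
      refine mul_le_mul_of_nonneg_right ?_ (by positivity)
      by_cases h : W ≤ δ * ‖z‖ ^ 2
      · rw [hW δ hδ _ h, mul_zero, norm_zero]
        exact hM0
      · rw [norm_mul]
        refine (mul_le_of_le_one_right (norm_nonneg _) (hb _ _)).trans (hM _ ?_)
        rw [Metric.mem_closedBall, dist_eq_norm, add_sub_cancel_left]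
        have h2 : ‖√δ • z‖ ^ 2 = δ * ‖z‖ ^ 2 := by
          rw [norm_smul, mul_pow, Real.norm_eq_abs, sq_abs, Real.sq_sqrt (le_of_lt hδ)]
        by_contra h3
        push Not at h h3
        nlinarith [le_abs_self W, abs_nonneg W]
    · refine Tendsto.mul_const _ (Tendsto.mul ?_ (hl _ (sq_nonneg _)))
      have : Continuous fun δ : ℝ => u (x0 + √δ • z) := hu.comp (by fun_prop)
      simpa using (this.tendsto 0).mono_left nhdsWithin_le_nhds
  rw [integral_const_mul, mul_one, mul_comm] at hlim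
  refine hlim.congr' ?_
  filter_upwards [self_mem_nhdsWithin] with δ hδ
  exact (key δ hδ).symm

/-! ### the case `n ≥ 3` -/

/-- the integrand of the boundary term -/
noncomputable def tI (a δ θ w : ℝ) : ℝ :=
  4 * w * (rb2 θ ((δ + w) ^ (-a)) * (-a * (δ + w) ^ (-a - 1)) ^ 2)

lemma tI_eq {a δ θ w : ℝ} (hδ : 0 < δ) (hθ : 0 < θ) (hw : 0 ≤ w) :
    tI a δ θ w = 48 * a ^ 2 * θ ^ 3 * (w * ((δ + w) ^ a) ^ 2 / (δ + w) ^ 2) *
      max (1 - θ * (δ + w) ^ a) 0 := by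
  have h : 0 < δ + w := by positivity
  have hρ : 0 < (δ + w) ^ a := Real.rpow_pos_of_pos h a
  rw [tI, Real.rpow_sub_one h.ne', Real.rpow_neg h.le, rb2_inv hθ hρ]
  field_simp
  ring

lemma tI_nonneg {a δ θ w : ℝ} (hθ : 0 < θ) (hw : 0 ≤ w) : 0 ≤ tI a δ θ w := by
  have := rb2_nonneg hθ ((δ + w) ^ (-a))
  unfold tI
  positivity

lemma tI_near {a δ θ w D : ℝ} (ha : 1 / 2 ≤ a) (hδ : 0 < δ) (hδ1 : δ ≤ 1) (hθ : 0 < θ)
    (hw : 0 ≤ w) (hD : w ≤ D) : tI a δ θ w ≤ 48 * a ^ 2 * (1 + D) ^ (2 * a - 1) * θ ^ 3 := by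
  have h : 0 < δ + w := by positivity
  have hρ : 0 < (δ + w) ^ a := Real.rpow_pos_of_pos h a
  rw [tI_eq hδ hθ hw]
  have h1 : max (1 - θ * (δ + w) ^ a) 0 ≤ 1 := max_le (by nlinarith [mul_pos hθ hρ]) zero_le_one
  have h2 : w * ((δ + w) ^ a) ^ 2 / (δ + w) ^ 2 ≤ (1 + D) ^ (2 * a - 1) := by
    have e : ((δ + w) ^ a) ^ 2 = (δ + w) ^ (2 * a - 1) * (δ + w) := by
      rw [← Real.rpow_add_one h.ne', ← Real.rpow_natCast, ← Real.rpow_mul h.le]
      congr 1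
      push_cast
      ring
    have h3 : (δ + w) ^ (2 * a - 1) ≤ (1 + D) ^ (2 * a - 1) :=
      Real.rpow_le_rpow h.le (by linarith) (by linarith)
    refine le_trans ?_ h3
    have h4 : 0 < (δ + w) ^ (2 * a - 1) := Real.rpow_pos_of_pos h _
    rw [e, div_le_iff₀ (by positivity)]
    nlinarith [mul_pos (mul_pos h4 h) hδ]
  have hD0 : 0 < 1 + D := by linarith
  calc _ ≤ 48 * a ^ 2 * θ ^ 3 * (1 + D) ^ (2 * a - 1) * 1 := by gcongr
    _ = _ := by ring

lemma tI_far {a δ θ w w' : ℝ} (ha : 0 < a) (hδ : 0 < δ) (hθ : 0 < θ)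
    (hw : 1 ≤ w) (h1 : w ≤ 4 * w') (h2 : w' ≤ 3 * w) :
    tI a δ θ w ≤ 128 * (2 * 4 ^ a) ^ 3 * (8 ^ a) ^ 2 * tI a δ (θ / (2 * 4 ^ a)) w' := by
  have hw0 : 0 < w := by linarith
  have hw' : 0 < w' := by linarith
  have h : 0 < δ + w := by positivity
  have h' : 0 < δ + w' := by positivity
  have h4 : (0 : ℝ) < 4 ^ a := by positivity
  have h8 : (0 : ℝ) < 8 ^ a := by positivity
  have hθ' : 0 < θ / (2 * 4 ^ a) := by positivity
  rcases le_total 1 (θ * (δ + w) ^ a) with hc | hc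
  · rw [tI_eq hδ hθ hw0.le, max_eq_right (by linarith), mul_zero]
    exact mul_nonneg (by positivity) (tI_nonneg hθ' hw'.le)
  rw [tI_eq hδ hθ hw0.le, tI_eq hδ hθ' hw'.le]
  have e1 : (δ + w) ^ a ≤ 8 ^ a * (δ + w') ^ a := by
    rw [← Real.mul_rpow (by norm_num) h'.le]
    exact Real.rpow_le_rpow h.le (by linarith) ha.le
  have e2 : (δ + w') ^ a ≤ 4 ^ a * (δ + w) ^ a := by
    rw [← Real.mul_rpow (by norm_num) h.le]
    exact Real.rpow_le_rpow h'.le (by linarith) ha.le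
  have hρ : 0 < (δ + w) ^ a := Real.rpow_pos_of_pos h a
  have hρ' : 0 < (δ + w') ^ a := Real.rpow_pos_of_pos h' a
  generalize (δ + w) ^ a = ρ at *
  generalize (δ + w') ^ a = ρ' at *
  generalize (4 : ℝ) ^ a = A at *
  generalize (8 : ℝ) ^ a = B at *
  have m1 : max (1 - θ * ρ) 0 ≤ 1 := max_le (by nlinarith [mul_pos hθ hρ]) zero_le_one
  have m2 : 1 / 2 ≤ max (1 - θ / (2 * A) * ρ') 0 := by
    refine le_trans ?_ (le_max_left _ _)
    have : θ / (2 * A) * ρ' ≤ θ / (2 * A) * (A * ρ) := mul_le_mul_of_nonneg_left e2 hθ'.le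
    have e : θ / (2 * A) * (A * ρ) = θ * ρ / 2 := by field_simp
    linarith
  have m3 : w * ρ ^ 2 / (δ + w) ^ 2 ≤ 64 * B ^ 2 * (w' * ρ' ^ 2 / (δ + w') ^ 2) := by
    calc w * ρ ^ 2 / (δ + w) ^ 2 ≤ (4 * w') * (B * ρ') ^ 2 / ((δ + w') / 4) ^ 2 := by
          gcongr
          linarith
      _ = _ := by field_simp; ring
  calc 48 * a ^ 2 * θ ^ 3 * (w * ρ ^ 2 / (δ + w) ^ 2) * max (1 - θ * ρ) 0
      ≤ 48 * a ^ 2 * θ ^ 3 * (64 * B ^ 2 * (w' * ρ' ^ 2 / (δ + w') ^ 2)) * 1 := by gcongr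
    _ = 128 * (2 * A) ^ 3 * B ^ 2 *
        (48 * a ^ 2 * (θ / (2 * A)) ^ 3 * (w' * ρ' ^ 2 / (δ + w') ^ 2) * (1 / 2)) := by
          field_simp
          ring
    _ ≤ _ := by gcongr

lemma repr_cut {a θ δ w : ℝ} (ha : 0 < a) (hθ : 0 < θ) (hδ : 0 < δ) (hw : θ ^ (-a⁻¹) ≤ w) :
    (δ + w) ^ (-a) ≤ θ := by
  refine (Real.rpow_le_rpow_of_nonpos (Real.rpow_pos_of_pos hθ (-a⁻¹)) (by linarith)
    (by linarith)).trans (le_of_eq ?_)
  rw [← Real.rpow_mul hθ.le, neg_mul_neg, inv_mul_cancel₀ ha.ne', Real.rpow_one]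

/-- the right-hand side of the weak identity -/
noncomputable def rR {n : ℕ} (u : EuclideanSpace ℝ (Fin n) → ℝ) (x0 : EuclideanSpace ℝ (Fin n))
    (a θ δ : ℝ) : ℝ :=
  2 * n * a * ∫ y, u y * (rb1 θ ((δ + ‖y - x0‖ ^ 2) ^ (-a)) *
    (δ * (δ + ‖y - x0‖ ^ 2) ^ (-((n : ℝ) + 2) / 2)))

lemma tendsto_rR {n : ℕ} {u : EuclideanSpace ℝ (Fin n) → ℝ} (hu : Continuous u)
    (x0 : EuclideanSpace ℝ (Fin n)) {a θ : ℝ} (ha : 0 < a) (hθ : 0 < θ) :
    Tendsto (rR u x0 a θ) (𝓝[>] 0) (𝓝 (2 * n * a * reprI n * u x0)) := by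
  rw [mul_assoc _ (reprI n)]
  refine Tendsto.const_mul _ (repr_approx hu x0 (g := fun δ w => rb1 θ ((δ + w) ^ (-a)))
    (fun δ => (continuous_rb1 hθ).measurable.comp (by fun_prop))
    (fun δ w => abs_le.2 ⟨by linarith [rb1_nonneg hθ ((δ + w) ^ (-a))], rb1_le hθ _⟩)
    (W := θ ^ (-a⁻¹)) (fun δ hδ w hw => rb1_of_le hθ (repr_cut ha hθ hδ hw)) fun t ht => ?_)
  refine (tendsto_rb1 θ).comp ((tendsto_rpow_neg_nhdsGT_zero (by linarith)).comp ?_)
  refine tendsto_nhdsWithin_iff.2 ⟨?_, ?_⟩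
  · have : Continuous fun δ : ℝ => δ + δ * t := by fun_prop
    simpa using (this.tendsto 0).mono_left nhdsWithin_le_nhds
  · filter_upwards [self_mem_nhdsWithin] with δ hδ
    have : 0 < δ := hδ
    exact mem_Ioi.2 (by positivity)

lemma repr_ident {n : ℕ} (hn : 3 ≤ n) {u f : EuclideanSpace ℝ (Fin n) → ℝ}
    (hu : Continuous u) (hu2 : ContDiffOn ℝ 2 u {0}ᶜ)
    (hf : ∀ x, x ≠ 0 → -(Δ u) x = f x) (hf0 : ∀ x, x ≠ 0 → 0 ≤ f x)
    (hfc : ContinuousOn f {0}ᶜ) (x0 : EuclideanSpace ℝ (Fin n)) {a θ δ : ℝ}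
    (ha : a = ((n : ℝ) - 2) / 2) (hθ : 0 < θ) (hδ : 0 < δ) :
    Integrable (fun y => f y * rb0 θ ((δ + ‖y - x0‖ ^ 2) ^ (-a))) ∧
    Integrable (fun y => u y * tI a δ θ (‖y - x0‖ ^ 2)) ∧
    (∫ y, f y * rb0 θ ((δ + ‖y - x0‖ ^ 2) ^ (-a))) + ∫ y, u y * tI a δ θ (‖y - x0‖ ^ 2) =
      rR u x0 a θ δ := by
  have hn' : (3 : ℝ) ≤ n := by exact_mod_cast hn
  have ha0 : 0 < a := by rw [ha]; linarith
  have hd : ∀ (p w : ℝ), 0 ≤ w → HasDerivAt (fun w => (δ + w) ^ p) (p * (δ + w) ^ (p - 1)) w := by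
    intro p w hw
    simpa using ((hasDerivAt_id' w).const_add δ).rpow_const (p := p) (Or.inl (by positivity))
  obtain ⟨i1, i2, e⟩ := repr_weak (by omega) hu hu2 hf hf0 hfc x0 hθ
    (k := fun w => (δ + w) ^ (-a)) (k1 := fun w => -a * (δ + w) ^ (-a - 1))
    (k2 := fun w => -a * ((-a - 1) * (δ + w) ^ (-a - 1 - 1))) (W := θ ^ (-a⁻¹))
    (hd _) (fun w hw => (hd _ w hw).const_mul _)
    (fun w hw => (((hd _ w hw).const_mul _).const_mul _).continuousAt.continuousWithinAt)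
    fun w hw => repr_cut ha0 hθ hδ hw
  refine ⟨i1, i2, e.trans ?_⟩
  rw [rR, ← integral_const_mul]
  refine integral_congr_ae (.of_forall fun y => ?_)
  have h : 0 < δ + ‖y - x0‖ ^ 2 := by positivity
  have e1 : -((n : ℝ) + 2) / 2 = -a - 1 - 1 := by rw [ha]; ring
  have e2 : (δ + ‖y - x0‖ ^ 2) ^ (-a - 1) =
      (δ + ‖y - x0‖ ^ 2) ^ (-a - 1 - 1) * (δ + ‖y - x0‖ ^ 2) := by
    rw [← Real.rpow_add_one h.ne']; congr 1; ring
  have e3 : (n : ℝ) = 2 * a + 2 := by rw [ha]; ring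
  simp only [e1, e2]
  rw [e3]
  ring

lemma repr_ae_ne {n : ℕ} (hn : 1 ≤ n) (x : EuclideanSpace ℝ (Fin n)) :
    ∀ᵐ y : EuclideanSpace ℝ (Fin n), y ≠ x := by
  have : Nonempty (Fin n) := ⟨⟨0, hn⟩⟩
  exact Measure.ae_ne _ _

/-- Two-sided Riesz representation (`n ≥ 3`).

Recipe.  `a = (n-2)/2`.  For `θ > 0` let `b_θ(s) = s - 3θ + 3θ²/s - θ³/s² = s (1-θ/s)³` for `s ≥ θ`,
`0` for `s ≤ θ`; it is `C²` on `s > 0` with `b' = 1 - 3θ²/s² + 2θ³/s³ ∈ [0,1]`, `b'' = 6θ²(s-θ)/s⁴ ≥ 0`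
(for `s ≥ θ`; `0` below), `0 ≤ b_θ(s) ≤ s`, `b_θ(s) ≥ s - 3θ`.  With `K_δ(w) = (δ+w)^(-a)`,
`weak_radial` for `ψ = b_θ ∘ K_δ` gives (using `2(a+1) = n`)
  `∫ f b_θ(K_δ) + T(δ,θ,x0) = 2 n a ∫ u b_θ'(K_δ) δ (δ+w)^(-a-2)`,
  `T(δ,θ,x0) = ∫ u · 24 a² θ² (1 - θ (δ+w)^a)₊ · w (δ+w)^(a-2) ≥ 0`, `w = ‖y - x0‖²`.
(AI) As `δ → 0+` the right side tends to `c u(x0)`, `c = 2 n a ∫ (1+‖z‖²)^(-(n+2)/2) dz`
(substitute `y = x0 + √δ z`, `Measure.integral_comp_smul`/`integral_add_left_eq_self`, dominated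
convergence: the integrand vanishes unless `δ‖z‖² ≤ θ^(-1/a)`, where `u` is bounded;
`integrable_rpow_neg_one_add_norm_sq`).
*Lower bound*: drop `T`; Fatou / monotone convergence as `δ → 0`, then `θ → 0`.
*Upper bound*: `∫ f b_θ(K_δ) ≤ newton f x0`.  Let `D = 2‖x - x0‖ + 1`, `δ, δ' ≤ 1`.  On `w < D²`
the integrand of `T(δ,θ,x0)` is `≤ C θ² w^(-1/2) (1+D²)^(a-1/2) sup u` (integrable since `n ≥ 2`), so that
part is `O(θ²)`.  On `w ≥ D²`, `θ w^a < 1`, one has `w' = ‖y-x‖² ∈ [w/4, 9w/4]`, `δ' + w' ≤ 4 w`, so with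
`θ' = θ / (2·4^a)` the integrand of `T(δ,θ,x0)` is `≤ C₁(n)` times that of `T(δ',θ',x)`, and
`T(δ',θ',x) ≤` right side at `x` `→ c u(x)` as `δ' → 0`.  Let `δ, δ' → 0`, then `θ → 0`; `C = C₁ c`. -/
theorem repr {n : ℕ} (hn : 3 ≤ n) : ∃ c : ℝ, 0 < c ∧ ∃ C : ℝ, 0 < C ∧
    ∀ (u f : EuclideanSpace ℝ (Fin n) → ℝ), Continuous u → ContDiffOn ℝ 2 u {0}ᶜ →
      (∀ x, 0 ≤ u x) → (∀ x, x ≠ 0 → -(Δ u) x = f x) → (∀ x, x ≠ 0 → 0 ≤ f x) →
      ContinuousOn f {0}ᶜ →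
      (∀ x0, newton f x0 ≤ ENNReal.ofReal (c * u x0)) ∧
      (∀ x0 x, ENNReal.ofReal (c * u x0) ≤ newton f x0 + ENNReal.ofReal (C * u x)) := by
  have hn' : (3 : ℝ) ≤ n := by exact_mod_cast hn
  set a : ℝ := ((n : ℝ) - 2) / 2 with ha
  have ha1 : 1 / 2 ≤ a := by rw [ha]; linarith
  have ha0 : 0 < a := by linarith
  set c : ℝ := 2 * n * a * reprI n with hc
  have hc0 : 0 < c := by have := reprI_pos n; positivity
  set C₁ : ℝ := 128 * (2 * 4 ^ a) ^ 3 * (8 ^ a) ^ 2 with hC₁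
  have hC0 : 0 < C₁ := by positivity
  refine ⟨c, hc0, C₁ * c, by positivity, fun u f hu hu2 hu0 hf hf0 hfc => ?_⟩
  have hT : ∀ {θ : ℝ} (δ : ℝ) (x0 : EuclideanSpace ℝ (Fin n)), 0 < θ →
      0 ≤ ∫ y, u y * tI a δ θ (‖y - x0‖ ^ 2) := fun δ x0 hθ =>
    integral_nonneg fun y => mul_nonneg (hu0 y) (tI_nonneg hθ (sq_nonneg _))
  have hF : ∀ {θ : ℝ} (δ : ℝ) (x0 : EuclideanSpace ℝ (Fin n)), 0 < θ →
      0 ≤ᵐ[volume] fun y => f y * rb0 θ ((δ + ‖y - x0‖ ^ 2) ^ (-a)) := fun δ x0 hθ =>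
    (repr_ae_ne (by omega) 0).mono fun y hy => mul_nonneg (hf0 y hy) (rb0_nonneg hθ _)
  have hN : ∀ x0, newton f x0 = ∫⁻ y, ENNReal.ofReal (f y * (‖y - x0‖ ^ 2) ^ (-a)) := by
    intro x0
    refine lintegral_congr_ae ?_
    filter_upwards [repr_ae_ne (by omega) 0, repr_ae_ne (by omega) x0] with y hy hy'
    rw [ENNReal.ofReal_mul (hf0 y hy), ENNReal.ofReal_rpow_of_pos
      (pow_pos (norm_pos_iff.2 (sub_ne_zero.2 hy')) 2)]
  have low : ∀ x0, newton f x0 ≤ ENNReal.ofReal (c * u x0) := by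
    intro x0
    have h1 : ∀ k : ℕ, ∃ δ : ℝ, 0 < δ ∧ δ < 1 / ((k : ℝ) + 1) ∧
        rR u x0 a (1 / ((k : ℝ) + 1)) δ < c * u x0 + 1 / ((k : ℝ) + 1) := by
      intro k
      have hk : (0 : ℝ) < 1 / ((k : ℝ) + 1) := by positivity
      have e1 := (tendsto_rR hu x0 ha0 hk).eventually (gt_mem_nhds (lt_add_of_pos_right _ hk))
      obtain ⟨δ, h1, h2⟩ := (e1.and (Ioo_mem_nhdsGT hk)).exists
      exact ⟨δ, h2.1, h2.2, h1⟩
    choose δ hδ0 hδ1 hδ2 using h1
    have hθ : ∀ k : ℕ, (0 : ℝ) < 1 / ((k : ℝ) + 1) := fun k => by positivity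
    have tθ : Tendsto (fun k : ℕ => 1 / ((k : ℝ) + 1)) atTop (𝓝 0) :=
      tendsto_one_div_add_atTop_nhds_zero_nat
    have tδ : Tendsto δ atTop (𝓝 0) :=
      squeeze_zero (fun k => (hδ0 k).le) (fun k => (hδ1 k).le) tθ
    have hI := fun k => repr_ident hn hu hu2 hf hf0 hfc x0 ha (hθ k) (hδ0 k)
    calc newton f x0 = ∫⁻ y, liminf (fun k : ℕ => ENNReal.ofReal
          (f y * rb0 (1 / ((k : ℝ) + 1)) ((δ k + ‖y - x0‖ ^ 2) ^ (-a)))) atTop := by
          rw [hN]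
          refine lintegral_congr_ae ?_
          filter_upwards [repr_ae_ne (by omega) x0] with y hy
          have hw : 0 < ‖y - x0‖ ^ 2 := pow_pos (norm_pos_iff.2 (sub_ne_zero.2 hy)) 2
          refine (Tendsto.liminf_eq (ENNReal.tendsto_ofReal (Tendsto.const_mul _ ?_))).symm
          have t1 : Tendsto (fun k => (δ k + ‖y - x0‖ ^ 2) ^ (-a)) atTop
              (𝓝 ((‖y - x0‖ ^ 2) ^ (-a))) := by
            refine Tendsto.rpow_const ?_ (Or.inl hw.ne')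
            simpa using tδ.add_const (‖y - x0‖ ^ 2)
          have t2 := t1.sub (tθ.const_mul 2)
          rw [mul_zero, sub_zero] at t2
          exact tendsto_of_tendsto_of_tendsto_of_le_of_le t2 t1 (fun k => rb0_ge (hθ k) _)
            fun k => rb0_le (hθ k) (Real.rpow_nonneg (by have := hδ0 k; positivity) _)
      _ ≤ liminf (fun k : ℕ => ∫⁻ y, ENNReal.ofReal
          (f y * rb0 (1 / ((k : ℝ) + 1)) ((δ k + ‖y - x0‖ ^ 2) ^ (-a)))) atTop :=
          lintegral_liminf_le' fun k => (hI k).1.aemeasurable.ennreal_ofReal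
      _ ≤ liminf (fun k : ℕ => ENNReal.ofReal (c * u x0 + 1 / ((k : ℝ) + 1))) atTop := by
          refine liminf_le_liminf (.of_forall fun k => ?_)
          rw [← ofReal_integral_eq_lintegral_ofReal (hI k).1 (hF _ x0 (hθ k))]
          refine ENNReal.ofReal_le_ofReal ?_
          have := hT (δ k) x0 (hθ k)
          linarith [(hI k).2.2, hδ2 k]
      _ = ENNReal.ofReal (c * u x0) := by
          refine Tendsto.liminf_eq (ENNReal.tendsto_ofReal ?_)
          simpa using tθ.const_add (c * u x0)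
  refine ⟨low, fun x0 x => ?_⟩
  have hfin : newton f x0 ≠ ⊤ := ((low x0).trans_lt ENNReal.ofReal_lt_top).ne
  set N := (newton f x0).toReal with hNdef
  set D := 2 * ‖x - x0‖ + 1 with hD
  obtain ⟨M, hM⟩ := (isCompact_closedBall x0 D).exists_bound_of_continuousOn hu.continuousOn
  set E := M * (48 * a ^ 2 * (1 + D ^ 2) ^ (2 * a - 1)) with hE
  set V := (volume : Measure (EuclideanSpace ℝ (Fin n))).real (Metric.closedBall x0 D) with hV
  have key : ∀ θ : ℝ, 0 < θ → c * u x0 ≤ N + V * (E * θ ^ 3) + C₁ * (c * u x) := by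
    intro θ hθ
    have hθ' : 0 < θ / (2 * 4 ^ a) := by positivity
    refine le_of_tendsto_of_tendsto (tendsto_rR hu x0 ha0 hθ)
      (((tendsto_rR hu x ha0 hθ').const_mul C₁).const_add (N + V * (E * θ ^ 3))) ?_
    filter_upwards [Ioo_mem_nhdsGT (zero_lt_one' ℝ)] with δ hδ
    obtain ⟨i1, i2, e1⟩ := repr_ident hn hu hu2 hf hf0 hfc x0 ha hθ hδ.1
    obtain ⟨i3, i4, e2⟩ := repr_ident hn hu hu2 hf hf0 hfc x ha hθ' hδ.1
    have b1 : ∫ y, f y * rb0 θ ((δ + ‖y - x0‖ ^ 2) ^ (-a)) ≤ N := by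
      rw [hNdef, ← ENNReal.ofReal_le_iff_le_toReal hfin,
        ofReal_integral_eq_lintegral_ofReal i1 (hF δ x0 hθ), hN]
      refine lintegral_mono_ae ?_
      filter_upwards [repr_ae_ne (by omega) 0, repr_ae_ne (by omega) x0] with y hy hy'
      have hw : 0 < ‖y - x0‖ ^ 2 := pow_pos (norm_pos_iff.2 (sub_ne_zero.2 hy')) 2
      refine ENNReal.ofReal_le_ofReal (mul_le_mul_of_nonneg_left ?_ (hf0 y hy))
      refine (rb0_le hθ (Real.rpow_nonneg (by have := hδ.1; positivity) _)).trans ?_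
      exact Real.rpow_le_rpow_of_nonpos hw (by linarith [hδ.1]) (by linarith)
    have i5 : Integrable ((Metric.closedBall x0 D).indicator fun _ => E * θ ^ 3) :=
      (integrable_indicator_iff measurableSet_closedBall).2
        (integrableOn_const measure_closedBall_lt_top.ne)
    have b2 : ∫ y, u y * tI a δ θ (‖y - x0‖ ^ 2) ≤
        ∫ y, ((Metric.closedBall x0 D).indicator (fun _ => E * θ ^ 3) y +
          C₁ * (u y * tI a δ (θ / (2 * 4 ^ a)) (‖y - x‖ ^ 2))) := by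
      refine integral_mono i2 (i5.add (i4.const_mul _)) fun y => ?_
      have p1 : 0 ≤ u y * tI a δ (θ / (2 * 4 ^ a)) (‖y - x‖ ^ 2) :=
        mul_nonneg (hu0 y) (tI_nonneg hθ' (sq_nonneg _))
      simp only
      by_cases hy : y ∈ Metric.closedBall x0 D
      · rw [indicator_of_mem hy]
        have q1 : u y ≤ M := (le_abs_self _).trans (hM y hy)
        rw [Metric.mem_closedBall, dist_eq_norm] at hy
        have q2 := tI_near ha1 hδ.1 hδ.2.le hθ (sq_nonneg _)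
          (pow_le_pow_left₀ (norm_nonneg _) hy 2)
        have q3 := mul_le_mul q1 q2 (tI_nonneg hθ (sq_nonneg _)) ((hu0 y).trans q1)
        have q4 := mul_nonneg hC0.le p1
        rw [hE]
        linarith
      · rw [indicator_of_notMem hy, zero_add]
        rw [Metric.mem_closedBall, dist_eq_norm, not_le] at hy
        have r1 : ‖y - x0‖ ≤ ‖y - x‖ + ‖x - x0‖ := norm_sub_le_norm_sub_add_norm_sub _ _ _
        have r2 : ‖y - x‖ ≤ ‖y - x0‖ + ‖x - x0‖ := by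
          rw [norm_sub_rev x]
          exact norm_sub_le_norm_sub_add_norm_sub _ _ _
        have r3 := norm_nonneg (x - x0)
        have r4 := norm_nonneg (y - x)
        have q := tI_far (w := ‖y - x0‖ ^ 2) (w' := ‖y - x‖ ^ 2) ha0 hδ.1 hθ
          (by nlinarith) (by nlinarith) (by nlinarith)
        have := mul_le_mul_of_nonneg_left q (hu0 y)
        rw [hC₁]
        linarith
    rw [integral_add i5 (i4.const_mul _), integral_const_mul, integral_indicator_const _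
      measurableSet_closedBall, smul_eq_mul, ← hV] at b2
    have b3 : ∫ y, u y * tI a δ (θ / (2 * 4 ^ a)) (‖y - x‖ ^ 2) ≤ rR u x a (θ / (2 * 4 ^ a)) δ := by
      have := integral_nonneg_of_ae (hF δ x hθ')
      linarith
    have := mul_le_mul_of_nonneg_left b3 hC0.le
    linarith
  have key2 : c * u x0 ≤ N + C₁ * c * u x := by
    have t : Tendsto (fun θ : ℝ => N + V * (E * θ ^ 3) + C₁ * (c * u x)) (𝓝[>] 0)
        (𝓝 (N + V * (E * 0 ^ 3) + C₁ * (c * u x))) :=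
      (Continuous.tendsto (by fun_prop) 0).mono_left nhdsWithin_le_nhds
    have := ge_of_tendsto t (eventually_nhdsWithin_of_forall key)
    linarith
  refine (ENNReal.ofReal_le_ofReal key2).trans (ENNReal.ofReal_add_le.trans ?_)
  rw [hNdef, ENNReal.ofReal_toReal hfin]

/-- In the plane there is no nonnegative strict supersolution.

Recipe.  `ψ(w) = b_1(M - log(δ+w))` (`b_θ` as above, extended by `0` on `s ≤ θ`; it is `C²` on `ℝ`).
`weak_radial` with `x0 = 0` gives `∫ f ψ ≤ 4 ∫ u b_1'(M - log(δ+w)) δ (δ+w)^(-2)`, whose limit as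
`δ → 0` is `4 c u(0)` independently of `M`.  But `b_1(s) ≥ s - 3`, so on the annulus `1 ≤ ‖y‖ ≤ 2`
(where `f ≥ m > 0` by compactness) and `δ ≤ 1` the left side is `≥ m (M - log 5 - 3) vol`, which is
unbounded in `M`. -/
theorem two_dim (u f : EuclideanSpace ℝ (Fin 2) → ℝ) (hu : Continuous u)
    (hu2 : ContDiffOn ℝ 2 u {0}ᶜ) (hu0 : ∀ x, 0 ≤ u x)
    (hf : ∀ x, x ≠ 0 → -(Δ u) x = f x) (hf0 : ∀ x, x ≠ 0 → 0 < f x)
    (hfc : ContinuousOn f {0}ᶜ) : False := by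
  have hf0' : ∀ x, x ≠ 0 → 0 ≤ f x := fun x hx => (hf0 x hx).le
  set p : EuclideanSpace ℝ (Fin 2) := EuclideanSpace.single 0 2 with hp
  have hpn : ‖p‖ = 2 := by simp [hp]
  have hK : ∀ y ∈ Metric.closedBall p 1, y ≠ 0 ∧ ‖y‖ ≤ 3 := by
    intro y hy
    rw [Metric.mem_closedBall, dist_eq_norm] at hy
    refine ⟨fun h => ?_, ?_⟩
    · rw [h, zero_sub, norm_neg, hpn] at hy
      norm_num at hy
    · have := norm_add_le (y - p) p
      rw [sub_add_cancel] at this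
      linarith
  obtain ⟨z, hz, hmin⟩ := (isCompact_closedBall p 1).exists_isMinOn
    ⟨p, Metric.mem_closedBall_self zero_le_one⟩ (hfc.mono fun y hy => (hK y hy).1)
  set m := f z with hm
  have hm0 : 0 < m := hf0 z (hK z hz).1
  set V := (volume : Measure (EuclideanSpace ℝ (Fin 2))).real (Metric.closedBall p 1) with hV
  have hV0 : 0 < V := ENNReal.toReal_pos (Metric.measure_closedBall_pos _ _ one_pos).ne'
    measure_closedBall_lt_top.ne
  have key : ∀ M : ℝ, V * (m * (M - 12)) ≤ 4 * (reprI 2 * u 0) := by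
    intro M
    have cut : ∀ δ : ℝ, 0 < δ → ∀ w, Real.exp M ≤ w → M - Real.log (δ + w) ≤ 1 := by
      intro δ hδ w hw
      have := Real.log_le_log (Real.exp_pos M) (show Real.exp M ≤ δ + w by linarith)
      rw [Real.log_exp] at this
      linarith
    have t := (repr_approx hu 0 (g := fun δ w => rb1 1 (M - Real.log (δ + w)))
      (fun δ => (continuous_rb1 one_pos).measurable.comp (by fun_prop))
      (fun δ w => abs_le.2 ⟨by linarith [rb1_nonneg one_pos (M - Real.log (δ + w))],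
        rb1_le one_pos _⟩) (W := Real.exp M)
      (fun δ hδ w hw => rb1_of_le one_pos (cut δ hδ w hw)) fun t ht => by
        refine (tendsto_rb1 1).comp (tendsto_atTop_add_const_left _ M
          (tendsto_neg_atBot_atTop.comp (Real.tendsto_log_nhdsGT_zero.comp ?_)))
        refine tendsto_nhdsWithin_iff.2 ⟨?_, ?_⟩
        · have : Continuous fun δ : ℝ => δ + δ * t := by fun_prop
          simpa using (this.tendsto 0).mono_left nhdsWithin_le_nhds
        · filter_upwards [self_mem_nhdsWithin] with δ hδ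
          have : 0 < δ := hδ
          exact mem_Ioi.2 (by positivity)).const_mul 4
    refine ge_of_tendsto t ?_
    filter_upwards [Ioo_mem_nhdsGT (zero_lt_one' ℝ)] with δ hδ
    have hδ0 := hδ.1
    have d1 : ∀ w, 0 ≤ w → HasDerivAt (fun w => M - Real.log (δ + w)) (-(δ + w)⁻¹) w := by
      intro w hw
      simpa using (((hasDerivAt_id' w).const_add δ).log (by positivity)).const_sub M
    have d2 : ∀ w, 0 ≤ w → HasDerivAt (fun w => -(δ + w)⁻¹) (((δ + w) ^ 2)⁻¹) w := by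
      intro w hw
      have := (((hasDerivAt_id' w).const_add δ).fun_inv (by positivity)).fun_neg
      refine this.congr_deriv ?_
      ring
    obtain ⟨i1, i2, e⟩ := repr_weak le_rfl hu hu2 hf hf0' hfc 0 one_pos d1 d2
      (ContinuousOn.inv₀ (by fun_prop) fun w hw => by have : 0 ≤ w := hw; positivity)
      (cut δ hδ0)
    have b1 : 0 ≤ ∫ y, u y * (4 * ‖y - 0‖ ^ 2 * (rb2 1 (M - Real.log (δ + ‖y - 0‖ ^ 2)) *
        (-(δ + ‖y - 0‖ ^ 2)⁻¹) ^ 2)) := integral_nonneg fun y => by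
      have := hu0 y
      have := rb2_nonneg one_pos (M - Real.log (δ + ‖y - 0‖ ^ 2))
      positivity
    have b2 : ∫ y, (Metric.closedBall p 1).indicator (fun _ => m * (M - 12)) y ≤
        ∫ y, f y * rb0 1 (M - Real.log (δ + ‖y - 0‖ ^ 2)) := by
      refine integral_mono_ae ((integrable_indicator_iff measurableSet_closedBall).2
        (integrableOn_const measure_closedBall_lt_top.ne)) i1 ?_
      filter_upwards [repr_ae_ne (by omega) 0] with y hy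
      by_cases h : y ∈ Metric.closedBall p 1
      · rw [indicator_of_mem h, sub_zero]
        have q1 : m ≤ f y := hmin h
        have q2 := rb0_ge one_pos (M - Real.log (δ + ‖y‖ ^ 2))
        have q3 := rb0_nonneg one_pos (M - Real.log (δ + ‖y‖ ^ 2))
        have q4 := Real.log_le_sub_one_of_pos (show 0 < δ + ‖y‖ ^ 2 by positivity)
        have q5 : ‖y‖ ^ 2 ≤ 3 ^ 2 := pow_le_pow_left₀ (norm_nonneg _) (hK y h).2 2
        calc m * (M - 12) ≤ m * rb0 1 (M - Real.log (δ + ‖y‖ ^ 2)) :=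
              mul_le_mul_of_nonneg_left (by linarith [hδ.2]) hm0.le
          _ ≤ _ := mul_le_mul_of_nonneg_right q1 q3
      · rw [indicator_of_notMem h]
        exact mul_nonneg (hf0' y hy) (rb0_nonneg one_pos _)
    rw [integral_indicator_const _ measurableSet_closedBall, smul_eq_mul, ← hV] at b2
    refine (b2.trans (le_add_of_nonneg_right b1)).trans (e.trans ?_).le
    rw [← integral_const_mul]
    refine integral_congr_ae (.of_forall fun y => ?_)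
    have h : 0 < δ + ‖y - 0‖ ^ 2 := by positivity
    simp only
    rw [show -(((2 : ℕ) : ℝ) + 2) / 2 = -2 by norm_num, Real.rpow_neg h.le, Real.rpow_two]
    push_cast
    field_simp
    ring
  have := key (12 + (4 * (reprI 2 * u 0) + 1) / (V * m))
  rw [add_sub_cancel_left, ← mul_assoc, mul_div_cancel₀ _ (by positivity)] at this
  linarith

end Crest.Agent.R77
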