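import Crest.Agent.R77.Main
import Crest.Agent.R77.Polar
import Crest.Agent.R77.Repr

/-!
# Row 77: from `ℝⁿ` to the cylinder
-/

set_option autoImplicit false

open MeasureTheory Set Filter Topology Metric
open scoped ENNReal RealInnerProductSpace Laplacian

namespace Crest.Agent.R77

theorem int_exp_top {M : Type*} [MeasurableSpace M] {σ : Measure M} [IsFiniteMeasure σ]
    (hσ : σ ≠ 0) {m : ℝ} (hm : 0 < m) (e : ℝ) : ∫⁻ x, wt m e x.1 ∂mu σ = ⊤ := by
  by_contra hcon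
  have hS : 0 < (σ univ).toReal :=
    ENNReal.toReal_pos (by simpa using hσ) (measure_ne_top _ _)
  set I := (∫⁻ x, wt m e x.1 ∂mu σ).toReal with hI
  have hI0 : 0 ≤ I := ENNReal.toReal_nonneg
  set N := I / (m * (σ univ).toReal) + 1 with hN
  have hN0 : 0 < N := by positivity
  have h : ENNReal.ofReal m * (ENNReal.ofReal N * σ univ) ≤ ∫⁻ x, wt m e x.1 ∂mu σ := by
    have e0 : ENNReal.ofReal m = wt m 0 0 := by simp [wt]
    rcases le_total 0 e with he | he
    · have := box_le' (σ := σ) (φ := fun x => wt m e x.1) (c := ENNReal.ofReal m) (t0 := 0) (t1 := N)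
        fun x h1 _ => by rw [e0]; exact wt_mono hm.le (by nlinarith)
      rwa [sub_zero] at this
    · have := box_le' (σ := σ) (φ := fun x => wt m e x.1) (c := ENNReal.ofReal m) (t0 := -N) (t1 := 0)
        fun x _ h1 => by rw [e0]; exact wt_mono hm.le (by nlinarith)
      rwa [zero_sub, neg_neg] at this
  have h2 := ENNReal.toReal_mono hcon h
  rw [ENNReal.toReal_mul, ENNReal.toReal_mul, ENNReal.toReal_ofReal hm.le,
    ENNReal.toReal_ofReal hN0.le, ← hI] at h2
  have h3 : m * (N * (σ univ).toReal) = I + m * (σ univ).toReal := by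
    rw [hN]; field_simp
  have h4 : 0 < m * (σ univ).toReal := by positivity
  linarith

variable {n : ℕ}

/-- Polar coordinates. -/
noncomputable def pt (x : ℝ × sphere (0 : EuclideanSpace ℝ (Fin n)) 1) : EuclideanSpace ℝ (Fin n) :=
  Real.exp x.1 • (x.2 : EuclideanSpace ℝ (Fin n))

@[fun_prop] theorem continuous_pt :
    Continuous (pt : ℝ × sphere (0 : EuclideanSpace ℝ (Fin n)) 1 → _) := by
  unfold pt; fun_prop

theorem norm_pt (x : ℝ × sphere (0 : EuclideanSpace ℝ (Fin n)) 1) : ‖pt x‖ = Real.exp x.1 := by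
  unfold pt
  rw [norm_smul, Real.norm_eq_abs, abs_of_pos (Real.exp_pos _)]
  simp

theorem toSphere_ne (hn : 1 ≤ n) : (volume : Measure (EuclideanSpace ℝ (Fin n))).toSphere ≠ 0 := by
  have : Nonempty (Fin n) := ⟨⟨0, hn⟩⟩
  exact Measure.toSphere_ne_zero _

/-- The solution on the cylinder. -/
noncomputable def liftU (a : ℝ) (u : EuclideanSpace ℝ (Fin n) → ℝ)
    (x : ℝ × sphere (0 : EuclideanSpace ℝ (Fin n)) 1) : ℝ≥0∞ :=
  ENNReal.ofReal (Real.exp (a * x.1) * u (pt x))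

/-- The source on the cylinder (real valued). -/
noncomputable def srcR (c e p : ℝ) (v : EuclideanSpace ℝ (Fin n) → ℝ)
    (x : ℝ × sphere (0 : EuclideanSpace ℝ (Fin n)) 1) : ℝ :=
  c⁻¹ * Real.exp (e * x.1) * v (pt x) ^ p

theorem continuous_srcR (c e : ℝ) {p : ℝ} (hp : 0 < p) {v : EuclideanSpace ℝ (Fin n) → ℝ}
    (hv : Continuous v) : Continuous (srcR c e p v) := by
  unfold srcR
  exact (continuous_const.mul (by fun_prop)).mul
    ((hv.comp continuous_pt).rpow_const fun _ => Or.inr hp.le)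

theorem measurable_src (A : ℝ) {p : ℝ} (hp : 0 < p) {v : EuclideanSpace ℝ (Fin n) → ℝ}
    (hv : Continuous v) : Measurable (fun y => ‖y‖ ^ A * v y ^ p) :=
  (measurable_norm.pow_const A).mul (hv.rpow_const fun _ => Or.inr hp.le).measurable

theorem newton_polar (hn : 1 ≤ n) {f : EuclideanSpace ℝ (Fin n) → ℝ} (hf : Measurable f)
    (x0 : EuclideanSpace ℝ (Fin n)) :
    newton f x0 = ∫⁻ y : ℝ × sphere (0 : EuclideanSpace ℝ (Fin n)) 1,
      ENNReal.ofReal (Real.exp (n * y.1)) * (ENNReal.ofReal (f (pt y)) *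
        (ENNReal.ofReal (‖pt y - x0‖ ^ 2)) ^ (-(((n : ℝ) - 2) / 2)))
        ∂mu (volume : Measure (EuclideanSpace ℝ (Fin n))).toSphere := by
  unfold newton
  rw [lintegral_polar hn]
  · rfl
  · exact hf.ennreal_ofReal.mul (Measurable.pow_const (by fun_prop) _)

theorem ofReal_exp_rpow (t b : ℝ) :
    ENNReal.ofReal (Real.exp t) ^ b = ENNReal.ofReal (Real.exp (t * b)) := by
  rw [ENNReal.ofReal_rpow_of_pos (Real.exp_pos _), ← Real.exp_mul]

/-- A source bounded below by a power of the norm has infinite potential at the origin. -/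
theorem newton_top (hn : 1 ≤ n) {B q m : ℝ} (hq : 0 < q) {u : EuclideanSpace ℝ (Fin n) → ℝ}
    (hu : Continuous u) (hm : 0 < m) (h : ∀ x, m ≤ u x) :
    newton (fun y => ‖y‖ ^ B * u y ^ q) 0 = ⊤ := by
  rw [newton_polar hn (measurable_src B hq hu), eq_top_iff,
    ← int_exp_top (toSphere_ne hn) (Real.rpow_pos_of_pos hm q) (B + 2)]
  refine lintegral_mono fun y => ?_
  have h1 : m ^ q ≤ u (pt y) ^ q := Real.rpow_le_rpow hm.le (h _) hq.le
  have h2 : 0 < m ^ q := Real.rpow_pos_of_pos hm q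
  rw [sub_zero, norm_pt, ← Real.exp_mul, sq, ← Real.exp_add, ofReal_exp_rpow,
    ← ENNReal.ofReal_mul (mul_nonneg (Real.exp_pos _).le (by linarith)),
    ← ENNReal.ofReal_mul (Real.exp_pos _).le]
  refine ENNReal.ofReal_le_ofReal ?_
  have e : Real.exp ((B + 2) * y.1) = Real.exp (n * y.1) * Real.exp (y.1 * B) *
      Real.exp ((y.1 + y.1) * -(((n : ℝ) - 2) / 2)) := by
    rw [← Real.exp_add, ← Real.exp_add]; congr 1; ring
  rw [e]
  have h3 : 0 < Real.exp (n * y.1) * Real.exp (y.1 * B) *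
      Real.exp ((y.1 + y.1) * -(((n : ℝ) - 2) / 2)) := by positivity
  nlinarith

theorem glob_of (hn : 3 ≤ n)
    {K : CylKernel (sphere (0 : EuclideanSpace ℝ (Fin n)) 1)
        (volume : Measure (EuclideanSpace ℝ (Fin n))).toSphere (((n : ℝ) - 2) / 2)}
    (hK : ∀ d ω η, K.k d ω η = (ENNReal.ofReal (2 * Real.cosh d -
        2 * ⟪(ω : EuclideanSpace ℝ (Fin n)), (η : EuclideanSpace ℝ (Fin n))⟫)) ^
          (-(((n : ℝ) - 2) / 2)))
    {c A B p q : ℝ} (hc : 0 < c) (hp : 0 < p) (hq : 0 < q) {u v : EuclideanSpace ℝ (Fin n) → ℝ}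
    (hu : Continuous u) (hv : Continuous v) (hu0 : ∀ x, 0 < u x) (hv0 : ∀ x, 0 < v x)
    (h : ∀ x, ENNReal.ofReal (c * v x) = newton (fun y => ‖y‖ ^ B * u y ^ q) x) :
    Glob K p (n - ((n : ℝ) - 2) / 2 + A - ((n : ℝ) - 2) / 2 * p) c⁻¹
      (fun x => ENNReal.ofReal (srcR c (n - ((n : ℝ) - 2) / 2 + A) p v x))
      (liftU (((n : ℝ) - 2) / 2) v)
      (fun x => ENNReal.ofReal (srcR c (n - ((n : ℝ) - 2) / 2 + B) q u x)) where
  hp := hp
  hα := inv_pos.2 hc
  mf := (continuous_srcR _ _ hp hv).measurable.ennreal_ofReal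
  mV := by
    refine Measurable.ennreal_ofReal (Continuous.measurable ?_)
    fun_prop
  mg := (continuous_srcR _ _ hq hu).measurable.ennreal_ofReal
  hf x := by
    have := hv0 (pt x)
    unfold liftU srcR wt
    rw [ENNReal.ofReal_rpow_of_pos (by positivity), ← ENNReal.ofReal_mul (by positivity),
      Real.mul_rpow (by positivity) this.le, ← Real.exp_mul, ← mul_assoc, mul_assoc c⁻¹ (Real.exp _) (Real.exp _),
      ← Real.exp_add]
    congr 4; ring
  hV x := by
    set a := ((n : ℝ) - 2) / 2 with ha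
    have e : liftU a v x = ENNReal.ofReal (c⁻¹ * Real.exp (a * x.1)) * ENNReal.ofReal (c * v (pt x)) := by
      unfold liftU
      rw [← ENNReal.ofReal_mul (by positivity)]
      congr 1; field_simp
    rw [e, h, newton_polar (by omega) (measurable_src B hq hu),
      ← lintegral_const_mul' _ _ ENNReal.ofReal_ne_top]
    refine lintegral_congr fun y => ?_
    have hy := hu0 (pt y)
    have e2 : ‖pt y - pt x‖ ^ 2 = _ := norm_sq_polar x.1 y.1 x.2 y.2
    rw [e2, hK, ENNReal.ofReal_mul (Real.exp_pos _).le,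
      ENNReal.mul_rpow_of_ne_top ENNReal.ofReal_ne_top ENNReal.ofReal_ne_top, ofReal_exp_rpow,
      ← ha, norm_pt, ← Real.exp_mul]
    have e3 : ENNReal.ofReal (srcR c (n - a + B) q u y) =
        ENNReal.ofReal (c⁻¹ * Real.exp (a * x.1)) * ENNReal.ofReal (Real.exp (n * y.1)) *
          ENNReal.ofReal (Real.exp (y.1 * B) * u (pt y) ^ q) *
            ENNReal.ofReal (Real.exp ((x.1 + y.1) * -a)) := by
      rw [← ENNReal.ofReal_mul (by positivity), ← ENNReal.ofReal_mul (by positivity),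
        ← ENNReal.ofReal_mul (by positivity)]
      congr 1
      unfold srcR
      have e4 : Real.exp ((n - a + B) * y.1) = Real.exp (a * x.1) * Real.exp (n * y.1) *
          Real.exp (y.1 * B) * Real.exp ((x.1 + y.1) * -a) := by
        rw [← Real.exp_add, ← Real.exp_add, ← Real.exp_add]; congr 1; ring
      rw [e4]; ring
    rw [e3]; ring
  up T := by
    obtain ⟨C, hC⟩ := (isCompact_closedBall (0 : EuclideanSpace ℝ (Fin n)) (Real.exp T)).bddAbove_image
      hv.continuousOn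
    have hC' : ∀ y, ‖y‖ ≤ Real.exp T → v y ≤ C := fun y hy => hC ⟨y, by simpa using hy, rfl⟩
    refine ⟨C, (hv0 0).le.trans (hC' 0 (by simpa using (Real.exp_pos T).le)), fun x hx => ?_⟩
    refine ENNReal.ofReal_le_ofReal ?_
    rw [mul_comm C]
    exact mul_le_mul_of_nonneg_left (hC' _ (by rw [norm_pt]; exact Real.exp_le_exp.2 hx))
      (Real.exp_pos _).le
  lo := by
    obtain ⟨y0, -, hy0⟩ := (isCompact_closedBall (0 : EuclideanSpace ℝ (Fin n)) 1).exists_isMinOn
      ⟨0, by simp⟩ hv.continuousOn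
    refine ⟨v y0, hv0 y0, fun x hx => ENNReal.ofReal_le_ofReal ?_⟩
    rw [mul_comm (v y0)]
    refine mul_le_mul_of_nonneg_left (hy0 ?_) (Real.exp_pos _).le
    rw [mem_closedBall, dist_zero_right, norm_pt]
    exact Real.exp_le_one_iff.2 hx
  uc T0 T1 γ hγ := by
    rcases eq_or_ne γ ⊤ with rfl | hγ'
    · exact Eventually.of_forall fun l x _ _ => by simp
    have hδ : 0 < γ.toReal := ENNReal.toReal_pos hγ hγ'
    have hcomp : IsCompact (Icc (T0 - 1) T1 ×ˢ (univ : Set (sphere (0 : EuclideanSpace ℝ (Fin n)) 1))) :=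
      isCompact_Icc.prod isCompact_univ
    obtain ⟨η, hη, hη'⟩ := Metric.uniformContinuousOn_iff.1 (hcomp.uniformContinuousOn_of_continuous
      (continuous_srcR c (n - ((n : ℝ) - 2) / 2 + A) hp hv).continuousOn) _ hδ
    filter_upwards [Ioo_mem_nhdsGT (lt_min hη one_pos)] with l hl x h0 h1
    have hl1 : l < η := hl.2.trans_le (min_le_left _ _)
    have hl2 : l < 1 := hl.2.trans_le (min_le_right _ _)
    have h2 := hη' x ⟨⟨by linarith, h1⟩, mem_univ _⟩ (sh l x)
      ⟨⟨by simp; linarith, by simp; linarith [hl.1]⟩, mem_univ _⟩ (by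
        rw [Prod.dist_eq]
        simp only [sh_fst, sh_snd, dist_self, Real.dist_eq, sub_sub_cancel]
        rw [abs_of_pos hl.1, max_eq_left hl.1.le]; exact hl1)
    rw [Real.dist_eq] at h2
    rw [← ENNReal.ofReal_toReal hγ']
    refine le_trans (ENNReal.ofReal_le_ofReal ?_) ENNReal.ofReal_add_le
    linarith [le_abs_self (srcR c (n - ((n : ℝ) - 2) / 2 + A) p v x -
      srcR c (n - ((n : ℝ) - 2) / 2 + A) p v (sh l x))]

theorem eq_of_repr (hn : 1 ≤ n) {c C B q : ℝ} (hC : 0 < C) (hq : 0 < q)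
    {u : EuclideanSpace ℝ (Fin n) → ℝ} {N : EuclideanSpace ℝ (Fin n) → ℝ≥0∞} (hu : Continuous u)
    (h1 : ∀ x0, N x0 ≤ ENNReal.ofReal (c * u x0))
    (h2 : ∀ x0 x, ENNReal.ofReal (c * u x0) ≤ N x0 + ENNReal.ofReal (C * u x))
    (h3 : newton (fun y => ‖y‖ ^ B * u y ^ q) 0 ≠ ⊤) (x0 : EuclideanSpace ℝ (Fin n)) :
    ENNReal.ofReal (c * u x0) = N x0 := by
  refine le_antisymm ?_ (h1 x0)
  have hN : N x0 ≠ ⊤ := ne_top_of_le_ne_top ENNReal.ofReal_ne_top (h1 x0)
  refine ENNReal.le_of_forall_pos_le_add fun ε hε _ => ?_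
  by_contra hcon
  refine h3 (newton_top hn (m := ε / C) hq hu (div_pos hε hC) fun x => ?_)
  by_contra hlt
  refine hcon ((h2 x0 x).trans (add_le_add_right ?_ _))
  rw [not_le, lt_div_iff₀' hC] at hlt
  rw [← ENNReal.ofReal_coe_nnreal]
  exact ENNReal.ofReal_le_ofReal hlt.le

theorem high_dim (hn : 3 ≤ n) {p q A B : ℝ} (hp : 0 < p) (hq : 0 < q)
    (hsub : (n : ℝ) - 2 < ((n : ℝ) + A) / (p + 1) + ((n : ℝ) + B) / (q + 1))
    {u v : EuclideanSpace ℝ (Fin n) → ℝ} (hu : Continuous u) (hv : Continuous v)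
    (hu2 : ContDiffOn ℝ 2 u {0}ᶜ) (hv2 : ContDiffOn ℝ 2 v {0}ᶜ) (hu0 : ∀ x, 0 < u x)
    (hv0 : ∀ x, 0 < v x)
    (h : ∀ x, x ≠ 0 → -(Δ u) x = ‖x‖ ^ A * v x ^ p ∧ -(Δ v) x = ‖x‖ ^ B * u x ^ q) : False := by
  obtain ⟨c, hc, C, hC, hr⟩ := repr hn
  obtain ⟨K, hK⟩ := exists_sphKernel hn
  have hcont : ∀ (A p : ℝ) (v : EuclideanSpace ℝ (Fin n) → ℝ), 0 < p → Continuous v →
      ContinuousOn (fun y => ‖y‖ ^ A * v y ^ p) {0}ᶜ := fun A p v hp hv =>
    (continuous_norm.continuousOn.rpow_const fun x hx => Or.inl (norm_ne_zero_iff.2 hx)).mul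
      (hv.rpow_const fun _ => Or.inr hp.le).continuousOn
  obtain ⟨r1, r2⟩ := hr u (fun y => ‖y‖ ^ A * v y ^ p) hu hu2 (fun x => (hu0 x).le)
    (fun x hx => (h x hx).1) (fun x _ => by have := hv0 x; positivity) (hcont A p v hp hv)
  obtain ⟨r3, r4⟩ := hr v (fun y => ‖y‖ ^ B * u y ^ q) hv hv2 (fun x => (hv0 x).le)
    (fun x hx => (h x hx).2) (fun x _ => by have := hu0 x; positivity) (hcont B q u hq hu)
  have e1 := eq_of_repr (B := B) (by omega) hC hq hu r1 r2
    (ne_top_of_le_ne_top ENNReal.ofReal_ne_top (r3 0))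
  have e2 := eq_of_repr (B := A) (by omega) hC hp hv r3 r4
    (ne_top_of_le_ne_top ENNReal.ofReal_ne_top (r1 0))
  have hn' : (3 : ℝ) ≤ n := by exact_mod_cast hn
  refine cyl_main (toSphere_ne (by omega)) (by linarith)
    (glob_of (A := A) hn hK hc hp hq hu hv hu0 hv0 e2)
    (glob_of (A := B) hn hK hc hq hp hv hu hv0 hu0 e1) ?_
  have e : (n - ((n : ℝ) - 2) / 2 + A - ((n : ℝ) - 2) / 2 * p) * (1 / (p + 1)) +
      (n - ((n : ℝ) - 2) / 2 + B - ((n : ℝ) - 2) / 2 * q) * (1 / (q + 1)) =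
      ((n : ℝ) + A) / (p + 1) + ((n : ℝ) + B) / (q + 1) - (n - 2) := by
    field_simp
    ring
  rw [e]
  linarith

end Crest.Agent.R77
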