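import Crest.Agent.R77.Basic

/-!
# Row 77: the direct, mirrored, Green and tension kernels
-/

set_option autoImplicit false

open MeasureTheory Set Filter Topology
open scoped ENNReal

namespace Crest.Agent.R77

variable {M : Type*} [MeasurableSpace M] {σ : Measure M} {a : ℝ}

namespace CylKernel

variable (K : CylKernel M σ a)

/-- Direct kernel, shifted by `l`. -/
def kd (l : ℝ) (x y : ℝ × M) : ℝ≥0∞ := K.k (x.1 - y.1 + l) x.2 y.2

/-- Mirror kernel, shifted by `l`. -/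
def km (l : ℝ) (x y : ℝ × M) : ℝ≥0∞ := K.k (x.1 + y.1 - l) x.2 y.2

/-- Green kernel of the half cylinder. -/
noncomputable def G (x y : ℝ × M) : ℝ≥0∞ := K.kd 0 x y - K.km 0 x y

/-- Tension kernel. -/
noncomputable def kap (l : ℝ) (x y : ℝ × M) : ℝ≥0∞ := K.km 0 x y - K.km l x y

/-- Second difference kernel. -/
noncomputable def rr (l : ℝ) (x y : ℝ × M) : ℝ≥0∞ := 2 * K.kd 0 x y - (K.kd l x y + K.kd (-l) x y)

/-- Near-diagonal part of the kernel. -/
noncomputable def kn (l : ℝ) (x y : ℝ × M) : ℝ≥0∞ :=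
  (Icc (-l) l).indicator (fun d => K.k d x.2 y.2) (x.1 - y.1)

theorem congr_abs {d d' : ℝ} (h : |d| = |d'|) (ω η : M) : K.k d ω η = K.k d' ω η :=
  le_antisymm (K.anti _ _ _ _ h.ge) (K.anti _ _ _ _ h.le)

theorem mk_kd (l : ℝ) : MK (K.kd l) :=
  K.meas.comp (f := fun z : (ℝ × M) × (ℝ × M) => (z.1.1 - z.2.1 + l, z.1.2, z.2.2)) (by fun_prop)

theorem mk_km (l : ℝ) : MK (K.km l) :=
  K.meas.comp (f := fun z : (ℝ × M) × (ℝ × M) => (z.1.1 + z.2.1 - l, z.1.2, z.2.2)) (by fun_prop)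

theorem mk_G : MK K.G := (K.mk_kd 0).sub (K.mk_km 0)

theorem mk_kap (l : ℝ) : MK (K.kap l) := (K.mk_km 0).sub (K.mk_km l)

theorem mk_rr (l : ℝ) : MK (K.rr l) :=
  ((K.mk_kd 0).const_mul 2).sub ((K.mk_kd l).add (K.mk_kd (-l)))

theorem meas_kn' (l : ℝ) : Measurable (fun z : ℝ × M × M =>
    (Icc (-l) l).indicator (fun d => K.k d z.2.1 z.2.2) z.1) := by
  have : (fun z : ℝ × M × M => (Icc (-l) l).indicator (fun d => K.k d z.2.1 z.2.2) z.1) =
      (Prod.fst ⁻¹' Icc (-l) l).indicator (fun z : ℝ × M × M => K.k z.1 z.2.1 z.2.2) := by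
    ext z
    by_cases h : z.1 ∈ Icc (-l) l
    · rw [indicator_of_mem h, indicator_of_mem (by exact h)]
    · rw [indicator_of_notMem h, indicator_of_notMem (by exact h)]
  rw [this]
  exact K.meas.indicator (measurable_fst measurableSet_Icc)

theorem mk_kn (l : ℝ) : MK (K.kn l) :=
  (K.meas_kn' l).comp (f := fun z : (ℝ × M) × (ℝ × M) => (z.1.1 - z.2.1, z.1.2, z.2.2))
    (by fun_prop)

theorem kd_swap (l : ℝ) (x y : ℝ × M) : K.kd l y x = K.kd (-l) x y := by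
  unfold kd
  rw [K.symm]
  apply K.congr_abs
  rw [← abs_neg]; congr 1; ring

theorem kd0_swap (x y : ℝ × M) : K.kd 0 y x = K.kd 0 x y := by
  rw [kd_swap, neg_zero]

theorem km_swap (l : ℝ) (x y : ℝ × M) : K.km l y x = K.km l x y := by
  unfold km
  rw [K.symm, add_comm]

theorem G_swap (x y : ℝ × M) : K.G y x = K.G x y := by
  unfold G; rw [kd0_swap, km_swap]

theorem kap_swap (l : ℝ) (x y : ℝ × M) : K.kap l y x = K.kap l x y := by
  unfold kap; rw [km_swap, km_swap K l]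

theorem kn_swap (l : ℝ) (x y : ℝ × M) : K.kn l y x = K.kn l x y := by
  unfold kn
  by_cases h : x.1 - y.1 ∈ Icc (-l) l
  · have h' : y.1 - x.1 ∈ Icc (-l) l := ⟨by linarith [h.2], by linarith [h.1]⟩
    rw [indicator_of_mem h, indicator_of_mem h', K.symm]
    exact K.congr_abs (abs_sub_comm _ _) _ _
  · have h' : y.1 - x.1 ∉ Icc (-l) l := fun h' => h ⟨by linarith [h'.2], by linarith [h'.1]⟩
    rw [indicator_of_notMem h, indicator_of_notMem h']

theorem kd_le_kn {l : ℝ} {x y : ℝ × M} (h : |x.1 - y.1| ≤ l) : K.kd 0 x y ≤ K.kn l x y := by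
  unfold kn kd
  rw [indicator_of_mem (by exact abs_le.1 h), add_zero]

theorem km_le_kd {x y : ℝ × M} (hx : x.1 < 0) (hy : y.1 < 0) : K.km 0 x y ≤ K.kd 0 x y := by
  apply K.anti
  rw [add_zero, sub_zero, abs_of_neg (by linarith : x.1 + y.1 < 0), abs_le]
  constructor <;> linarith

theorem kd_eq {x y : ℝ × M} (hx : x.1 < 0) (hy : y.1 < 0) :
    K.kd 0 x y = K.km 0 x y + K.G x y := (add_tsub_cancel_of_le (K.km_le_kd hx hy)).symm

theorem G_le (x y : ℝ × M) : K.G x y ≤ K.kd 0 x y := tsub_le_self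

theorem km_eq {l : ℝ} (hl : 0 ≤ l) {x y : ℝ × M} (hx : x.1 < 0) (hy : y.1 < 0) :
    K.km 0 x y = K.km l x y + K.kap l x y := by
  refine (add_tsub_cancel_of_le ?_).symm
  apply K.anti
  rw [sub_zero, abs_of_neg (by linarith : x.1 + y.1 < 0),
    abs_of_neg (by linarith : x.1 + y.1 - l < 0)]
  linarith

theorem two_kd_le (l : ℝ) (x y : ℝ × M) :
    K.kd 0 x y + K.kd 0 x y ≤ K.kd l x y + K.kd (-l) x y + K.rr l x y := by
  rw [← two_mul]; exact le_add_tsub

theorem kd_sh (l l' : ℝ) (x y : ℝ × M) : K.kd l' (sh l x) y = K.kd (l' - l) x y := by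
  unfold kd; simp only [sh_fst, sh_snd]; congr 1; ring

theorem km_sh (l : ℝ) (x y : ℝ × M) : K.km 0 (sh l x) y = K.km l x y := by
  unfold km; simp only [sh_fst, sh_snd]; congr 1; ring

theorem T_kd_sh (l l' : ℝ) (φ : ℝ × M → ℝ≥0∞) (x : ℝ × M) :
    T σ (K.kd l') φ (sh l x) = T σ (K.kd (l' - l)) φ x := by
  unfold T; simp_rw [kd_sh]

theorem T_km_sh (l : ℝ) (φ : ℝ × M → ℝ≥0∞) (x : ℝ × M) :
    T σ (K.km 0) φ (sh l x) = T σ (K.km l) φ x := by
  unfold T; simp_rw [km_sh]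

/-- The shift identity for a potential with sources on both sides. -/
theorem shift_id {l : ℝ} (hl : 0 ≤ l) {W φ ψ : ℝ × M → ℝ≥0∞} (hψ : Measurable ψ)
    (hW : ∀ x : ℝ × M, x.1 < 0 → W x = T σ (K.kd 0) φ x + T σ (K.km 0) ψ x)
    {x : ℝ × M} (hx : x.1 < 0) :
    W x + T σ (K.kd (-l)) φ x = W (sh l x) + T σ (K.kd 0) φ x + T σ (K.kap l) ψ x := by
  rw [hW x hx, hW (sh l x) (by simp; linarith), T_kd_sh, T_km_sh, zero_sub,
    T_add_ker (K.mk_km l) hψ x (fun y hy => K.km_eq hl hx hy)]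
  ring

variable [IsFiniteMeasure σ]

theorem pot_split {g : ℝ × M → ℝ≥0∞} (hg : Measurable g) (x : ℝ × M) :
    ∫⁻ y, K.k (x.1 - y.1) x.2 y.2 * g y ∂mu σ =
      T σ (K.kd 0) g x + T σ (K.km 0) (fun y => g (rf y)) x := by
  have hm : Measurable (fun y : ℝ × M => K.k (x.1 - y.1) x.2 y.2 * g y) :=
    (K.meas.comp (f := fun y : ℝ × M => (x.1 - y.1, x.2, y.2)) (by fun_prop)).mul hg
  rw [lintegral_split hm]
  unfold T kd km
  simp only [add_zero, sub_zero, rf_fst, rf_snd, sub_neg_eq_add]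

theorem pot_split_rf {g : ℝ × M → ℝ≥0∞} (hg : Measurable g) (x : ℝ × M) :
    ∫⁻ y, K.k ((rf x).1 - y.1) (rf x).2 y.2 * g y ∂mu σ =
      T σ (K.km 0) g x + T σ (K.kd 0) (fun y => g (rf y)) x := by
  rw [pot_split K hg]
  congr 1
  · unfold T
    refine lintegral_congr fun y => ?_
    congr 1
    apply K.congr_abs
    simp only [rf_fst]
    rw [← abs_neg]; congr 1; ring
  · unfold T
    refine lintegral_congr fun y => ?_
    congr 1
    apply K.congr_abs
    simp only [rf_fst]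
    rw [← abs_neg]; congr 1; ring

omit [IsFiniteMeasure σ] in
/-- Harnack-type bound for well separated points. -/
theorem far (ha : 0 < a) {ε : ℝ} (hε : 0 < ε) (hε1 : ε ≤ 1) {t s : ℝ} (ht : t < 0) (hs : -1 ≤ s)
    (h : ε ≤ |t - s|) (ω η : M) :
    K.k (t - s) ω η ≤ ENNReal.ofReal (K.C0 * ε ^ (-(2 * a)) * Real.exp (2 * a)) *
      (ENNReal.ofReal (Real.exp (-(a * |t|))) * ENNReal.ofReal (Real.exp (-(a * |s|)))) := by
  refine (K.hi ε hε hε1 _ ω η h).trans ?_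
  have hC : 0 ≤ K.C0 * ε ^ (-(2 * a)) := mul_nonneg K.C0_pos.le (Real.rpow_nonneg hε.le _)
  rw [← ENNReal.ofReal_mul (Real.exp_pos _).le,
    ← ENNReal.ofReal_mul (mul_nonneg hC (Real.exp_pos _).le)]
  apply ENNReal.ofReal_le_ofReal
  rw [mul_assoc (K.C0 * ε ^ (-(2 * a))), ← Real.exp_add, ← Real.exp_add]
  refine mul_le_mul_of_nonneg_left (Real.exp_le_exp.2 ?_) hC
  have h1 : |t| + |s| - 2 ≤ |t - s| := by
    rw [abs_of_neg ht]
    rcases le_total 0 s with h0 | h0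
    · rw [abs_of_nonneg h0, abs_of_nonpos (by linarith)]; linarith
    · rw [abs_of_nonpos h0]
      have := neg_abs_le (t - s)
      linarith
  nlinarith

theorem lintegral_km_ne_top (ha : 0 < a) {x : ℝ × M} (hx : x.1 < 0) :
    ∫⁻ y in Hs M 0, K.km 0 x y ∂mu σ ≠ ⊤ := by
  set ε := min 1 (-x.1) with hε
  have hε0 : 0 < ε := lt_min one_pos (by linarith)
  refine ne_top_of_le_ne_top (lintegral_exp_Hs (σ := σ) ha (K.C0 * ε ^ (-(2 * a)))) ?_
  refine setLIntegral_mono' (measurableSet_Hs 0) fun y hy => ?_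
  have hy' : y.1 < 0 := hy
  have hneg : x.1 + y.1 - 0 < 0 := by linarith
  refine (K.hi ε hε0 (min_le_left _ _) _ _ _ ?_).trans ?_
  · rw [abs_of_neg hneg]
    linarith [min_le_right 1 (-x.1)]
  · apply ENNReal.ofReal_le_ofReal
    refine mul_le_mul_of_nonneg_left (Real.exp_le_exp.2 ?_)
      (mul_nonneg K.C0_pos.le (Real.rpow_nonneg hε0.le _))
    rw [abs_of_neg hneg]
    nlinarith

/-- Near the boundary the Green kernel has small mass. -/
theorem lintegral_G_le (ha : 0 < a) {l : ℝ} {x : ℝ × M} (hx : x ∈ Ly M l) :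
    ∫⁻ y in Hs M 0, K.G x y ∂mu σ ≤ ∫⁻ y, K.kn l x y ∂mu σ := by
  have hx0 : x.1 < 0 := hx.2
  have hA := K.lintegral_km_ne_top ha hx0
  have h1 : ∫⁻ y in Hs M 0, K.kd 0 x y ∂mu σ =
      ∫⁻ y in Hs M 0, K.km 0 x y ∂mu σ + ∫⁻ y in Hs M 0, K.G x y ∂mu σ := by
    rw [← lintegral_add_left ((K.mk_km 0).right x)]
    exact setLIntegral_congr_fun (measurableSet_Hs 0) fun y hy => K.kd_eq hx0 hy
  have h2 : ∫⁻ y in Hs M (0 - (-(2 * x.1))), K.kd 0 x y ∂mu σ = ∫⁻ y in Hs M 0, K.km 0 x y ∂mu σ := by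
    rw [← setLIntegral_sh 0 (-(2 * x.1)) ((K.mk_kd 0).right x)]
    refine lintegral_congr fun y => ?_
    apply K.congr_abs
    simp only [sh_fst]
    rw [← abs_neg]; congr 1; ring
  have h3 : ∫⁻ y in Hs M 0, K.kd 0 x y ∂mu σ ≤
      ∫⁻ y in Hs M (0 - (-(2 * x.1))), K.kd 0 x y ∂mu σ + ∫⁻ y, K.kn l x y ∂mu σ := by
    rw [← lintegral_indicator (measurableSet_Hs _), ← lintegral_indicator (measurableSet_Hs _),
      ← lintegral_add_right _ ((K.mk_kn l).right x)]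
    refine lintegral_mono fun y => ?_
    by_cases hy : y ∈ Hs M 0
    · rw [indicator_of_mem hy]
      by_cases h : |x.1 - y.1| ≤ l
      · exact (K.kd_le_kn h).trans le_add_self
      · have hy' : y.1 < 0 := hy
        have h4 := hx.1
        have : y ∈ Hs M (0 - (-(2 * x.1))) := by
          simp only [mem_Hs]
          rw [not_le, lt_abs] at h
          rcases h with h | h <;> linarith
        rw [indicator_of_mem this]
        exact le_self_add
    · rw [indicator_of_notMem hy]; exact zero_le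
  rw [h1, h2] at h3
  exact (ENNReal.add_le_add_iff_left hA).1 h3

theorem lintegral_Ly_kn (l : ℝ) :
    ∫⁻ x in Ly M l, ∫⁻ y, K.kn l x y ∂mu σ ∂mu σ =
      ENNReal.ofReal l * ∫⁻ ω, ∫⁻ η, ∫⁻ d in Icc (-l) l, K.k d ω η ∂volume ∂σ ∂σ := by
  have h := lintegral_profile (σ := σ) (fun d ω η => (Icc (-l) l).indicator (fun d => K.k d ω η) d)
    (K.meas_kn' l) ((Ico (-l) 0).indicator 1) (measurable_one.indicator measurableSet_Ico)
  simp_rw [lintegral_indicator measurableSet_Icc] at h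
  rw [lintegral_indicator_one measurableSet_Ico, Real.volume_Ico, sub_neg_eq_add, zero_add] at h
  rw [← h, ← lintegral_indicator (measurableSet_Ly l)]
  refine lintegral_congr fun x => ?_
  by_cases hx : x ∈ Ly M l
  · rw [indicator_of_mem hx, indicator_of_mem (by exact hx), Pi.one_apply, one_mul]; rfl
  · rw [indicator_of_notMem hx, indicator_of_notMem (by exact hx), zero_mul]

theorem lintegral_rr (l : ℝ) (ρ : ℝ → ℝ≥0∞) (hρ : Measurable ρ) :
    ∫⁻ x, ρ x.1 * ∫⁻ y, K.rr l x y ∂mu σ ∂mu σ = (∫⁻ t, ρ t) *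
      ∫⁻ ω, ∫⁻ η, ∫⁻ d, (2 * K.k d ω η - (K.k (d + l) ω η + K.k (d - l) ω η)) ∂volume ∂σ ∂σ := by
  have hm : Measurable (fun z : ℝ × M × M =>
      2 * K.k z.1 z.2.1 z.2.2 - (K.k (z.1 + l) z.2.1 z.2.2 + K.k (z.1 - l) z.2.1 z.2.2)) :=
    (K.meas.const_mul 2).sub
      ((K.meas.comp (f := fun z : ℝ × M × M => (z.1 + l, z.2.1, z.2.2)) (by fun_prop)).add
       (K.meas.comp (f := fun z : ℝ × M × M => (z.1 - l, z.2.1, z.2.2)) (by fun_prop)))
  rw [← lintegral_profile (σ := σ)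
    (fun d ω η => 2 * K.k d ω η - (K.k (d + l) ω η + K.k (d - l) ω η)) hm ρ hρ]
  unfold rr kd
  simp only [add_zero, ← sub_eq_add_neg]

end CylKernel

end Crest.Agent.R77
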