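import Crest.Agent.R77.Pressure

/-!
# Row 77: the key inequality at `t = 0`
-/

set_option autoImplicit false

open MeasureTheory Set Filter Topology
open scoped ENNReal

namespace Crest.Agent.R77

theorem combine {aF2l aF2L bF1l bF1L aP2 bP1 τ1 τ2 τ1' τ2' I1p I2p I10 I20 J1m J2m J10 J20 σ1 σ2
    A1 A2 B1 B2 C1 C2 o1 o2 o3 o4 : ℝ≥0∞}
    (hA1 : aF2l + τ1' + I1p ≤ A1 + I10) (hA2 : bF1l + τ2' + I2p ≤ A2 + I20)
    (hS : I10 + I20 ≤ I1p + I2p + o1) (hτ1 : τ1 ≤ τ1' + o2) (hτ2 : τ2 ≤ τ2' + o2)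
    (hL1 : aF2L ≤ C1 + o3) (hL2 : bF1L ≤ C2 + o3)
    (hB1 : aP2 + C1 + J1m ≤ J10 + σ1 + B1) (hB2 : bP1 + C2 + J2m ≤ J20 + σ2 + B2)
    (hSZ : J10 + J20 ≤ J1m + J2m + o4) (hτ : σ1 + σ2 ≤ τ1 + τ2)
    (f1 : I1p ≠ ⊤) (f2 : I2p ≠ ⊤) (f3 : J1m ≠ ⊤) (f4 : J2m ≠ ⊤) (f5 : τ1 ≠ ⊤) (f6 : τ2 ≠ ⊤) :
    (aF2l + aF2L) + (bF1l + bF1L) + aP2 + bP1 ≤ A1 + A2 + B1 + B2 + (o1 + 2 * o2 + 2 * o3 + o4) := by
  have hfin : I1p + I2p + J1m + J2m + τ1 + τ2 ≠ ⊤ := by
    simp only [ne_eq, ENNReal.add_eq_top, not_or]; tauto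
  refine (ENNReal.add_le_add_iff_right hfin).1 ?_
  calc _ = aF2l + bF1l + aP2 + bP1 + I1p + I2p + J1m + J2m + (aF2L + bF1L + τ1 + τ2) := by ring
    _ ≤ aF2l + bF1l + aP2 + bP1 + I1p + I2p + J1m + J2m +
        ((C1 + o3) + (C2 + o3) + (τ1' + o2) + (τ2' + o2)) := by gcongr
    _ = (aF2l + τ1' + I1p) + (bF1l + τ2' + I2p) + (aP2 + C1 + J1m) + (bP1 + C2 + J2m) +
        (2 * o2 + 2 * o3) := by ring
    _ ≤ (A1 + I10) + (A2 + I20) + (J10 + σ1 + B1) + (J20 + σ2 + B2) + (2 * o2 + 2 * o3) := by gcongr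
    _ = A1 + A2 + B1 + B2 + (2 * o2 + 2 * o3) + ((I10 + I20) + (J10 + J20) + (σ1 + σ2)) := by ring
    _ ≤ A1 + A2 + B1 + B2 + (2 * o2 + 2 * o3) +
        ((I1p + I2p + o1) + (J1m + J2m + o4) + (τ1 + τ2)) := by gcongr
    _ = _ := by ring

theorem limit_real {x1 x2 y1 y2 s1 s2 r1 r2 C : ℝ} (hC : 0 ≤ C)
    (h : ∀ γ : ℝ, 0 < γ → ∀ᶠ l in 𝓝[>] (0 : ℝ), x1 + x2 + y1 + y2 ≤
      Real.exp (-(s1 * l)) * x1 + Real.exp (-(s2 * l)) * x2 + Real.exp (r1 * l) * y1 +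
        Real.exp (r2 * l) * y2 + C * (γ * l)) :
    s1 * x1 + s2 * x2 ≤ r1 * y1 + r2 * y2 := by
  set φ : ℝ → ℝ := fun l => Real.exp (-(s1 * l)) * x1 + Real.exp (-(s2 * l)) * x2 +
    Real.exp (r1 * l) * y1 + Real.exp (r2 * l) * y2 with hφ
  have hd : HasDerivAt φ (-s1 * x1 + -s2 * x2 + r1 * y1 + r2 * y2) 0 := by
    have h1 : ∀ c : ℝ, HasDerivAt (fun l : ℝ => Real.exp (c * l)) c 0 := fun c => by
      simpa using ((hasDerivAt_id (0 : ℝ)).const_mul c).exp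
    have e : φ = fun l => Real.exp (-s1 * l) * x1 + Real.exp (-s2 * l) * x2 +
        Real.exp (r1 * l) * y1 + Real.exp (r2 * l) * y2 := by
      ext l; simp [hφ]
    rw [e]
    exact ((((h1 _).mul_const x1).add ((h1 _).mul_const x2)).add ((h1 _).mul_const y1)).add
      ((h1 _).mul_const y2)
  have ht := hd.tendsto_slope_zero_right
  have key : ∀ γ : ℝ, 0 < γ → -(C * γ) ≤ -s1 * x1 + -s2 * x2 + r1 * y1 + r2 * y2 := by
    intro γ hγ
    refine ge_of_tendsto ht ?_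
    filter_upwards [h γ hγ, self_mem_nhdsWithin] with l hl hl0
    have hl0' : 0 < l := hl0
    have e0 : φ 0 = x1 + x2 + y1 + y2 := by simp [hφ]
    rw [zero_add, e0, smul_eq_mul, ← div_eq_inv_mul, le_div_iff₀ hl0']
    simp only [hφ]
    linarith
  have : 0 ≤ -s1 * x1 + -s2 * x2 + r1 * y1 + r2 * y2 := by
    refine le_of_forall_pos_le_add fun ε hε => ?_
    have h1 := key (ε / (C + 1)) (by positivity)
    have h2 : C * (ε / (C + 1)) ≤ ε := by
      rw [mul_div_assoc', div_le_iff₀ (by positivity)]; nlinarith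
    linarith
  linarith

variable {M : Type*} [MeasurableSpace M] {σ : Measure M} {a : ℝ}
variable [IsFiniteMeasure σ] {K : CylKernel M σ a}
variable {p q s α β s1 s2 Cb b : ℝ} {f V g U fz gz z z1 z2 : ℝ × M → ℝ≥0∞}

theorem toReal_ap {p : ℝ} (hp : 0 < p) : (ap p).toReal = 1 / (p + 1) :=
  ENNReal.toReal_ofReal (by positivity)

/-- The pressure comparison. -/
theorem pressure (ha : 0 < a) (S1 : Side K p s1 α Cb b f V g) (S2 : Side K q s2 β Cb b g U f)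
    (Z1 : ZSide K p s1 α f g fz z2 gz) (Z2 : ZSide K q s2 β g f gz z1 fz) :
    s1 * (1 / (p + 1) * (∫⁻ x in Hs M 0, f x * V x ∂mu σ).toReal) +
      s2 * (1 / (q + 1) * (∫⁻ x in Hs M 0, g x * U x ∂mu σ).toReal) ≤
    2 * |s1| * (1 / (p + 1) * (∫⁻ x in Hs M 0, fz x * z2 x ∂mu σ).toReal) +
      2 * |s2| * (1 / (q + 1) * (∫⁻ x in Hs M 0, gz x * z1 x ∂mu σ).toReal) := by
  set c := ENNReal.ofReal Cb with hc
  set Ct : ℝ≥0∞ := 2 * (c * W0 Cb b) + 4 * (c * c) + 2 * (c * σ univ) with hCt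
  have hc' : c ≠ ⊤ := ENNReal.ofReal_ne_top
  have hW := W0_ne_top (Cb := Cb) S1.hb
  have hσ : σ univ ≠ ⊤ := measure_ne_top _ _
  have hCt' : Ct ≠ ⊤ := by rw [hCt]; finiteness
  refine limit_real (C := Ct.toReal) ENNReal.toReal_nonneg fun γ hγ => ?_
  have hγ' : ENNReal.ofReal γ ≠ 0 := by simpa using hγ
  filter_upwards [K.loc _ hγ', K.sec _ hγ', S1.uc _ hγ', S2.uc _ hγ', self_mem_nhdsWithin]
    with l h1 h2 h3 h4 hl
  have hl : 0 < l := hl
  have hrZ := D_rr_le (K := K) (fun x hx => (Z1.le_f x hx).trans (S1.bf x hx))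
    (fun x hx => (Z1.le_g x hx).trans (S1.bg' hx)) h2
  have hrU := D_rr_le (K := K) S1.bf (fun x hx => S1.bg' hx) h2
  have h := combine (S1.stepA hl) (S2.stepA hl)
    ((self_U S1 hl h1).trans (add_le_add_right (add_le_add_left hrU _) _))
    (S1.tension_shift hl h3) (S2.tension_shift hl h4)
    (S1.layer ha Z1.mfz Z1.mz Z1.hfz (fun x hx => Z1.V_le S1 hx) h1)
    (S2.layer ha Z2.mfz Z2.mz Z2.hfz (fun x hx => Z2.V_le S2 hx) h1)
    (stepB S1.hp Z1.mfz Z1.mz (measurable_ext S1.mg Z1.mgz) Z1.hfz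
      (fun x hx => Z1.z_eq S1.mg hx) (Z1.P_ne_top S1) hl)
    (stepB S2.hp Z2.mfz Z2.mz (measurable_ext S2.mg Z2.mgz) Z2.hfz
      (fun x hx => Z2.z_eq S2.mg hx) (Z2.P_ne_top S2) hl)
    ((self_Z Z1.mfz Z1.mgz l).trans (add_le_add_right hrZ _))
    (tension_le Z1 S1.mf S1.mg l) (S1.I_ne_top hl) (S2.I_ne_top hl) (Z1.J_ne_top S1 hl)
    (Z2.J_ne_top S2 hl) (S1.tension_ne_top hl) (S2.tension_ne_top hl)
  rw [← mul_add, ← mul_add, ← Hs_split hl.le, ← Hs_split hl.le, ← hc] at h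
  have e : c * W0 Cb b * (ENNReal.ofReal γ * ENNReal.ofReal l) +
      2 * (c * c) * (ENNReal.ofReal γ * ENNReal.ofReal l) +
      2 * (c * σ univ * (ENNReal.ofReal γ * ENNReal.ofReal l)) +
      2 * (c * c * (ENNReal.ofReal γ * ENNReal.ofReal l)) +
      c * W0 Cb b * (ENNReal.ofReal γ * ENNReal.ofReal l) =
      Ct * (ENNReal.ofReal γ * ENNReal.ofReal l) := by rw [hCt]; ring
  rw [e] at h
  have f1 := S1.F_ne_top
  have f2 := S2.F_ne_top
  have f3 := Z1.P_ne_top S1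
  have f4 := Z2.P_ne_top S2
  have f5 := ap_ne_top p
  have f6 := ap_ne_top q
  have h' := ENNReal.toReal_mono (by finiteness) h
  rw [ENNReal.toReal_add (by finiteness) (by finiteness),
    ENNReal.toReal_add (by finiteness) (by finiteness),
    ENNReal.toReal_add (by finiteness) (by finiteness),
    ENNReal.toReal_add (by finiteness) (by finiteness),
    ENNReal.toReal_add (by finiteness) (by finiteness),
    ENNReal.toReal_add (by finiteness) (by finiteness),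
    ENNReal.toReal_add (by finiteness) (by finiteness)] at h'
  simp only [ENNReal.toReal_mul, toReal_ap S1.hp, toReal_ap S2.hp,
    ENNReal.toReal_ofReal (Real.exp_pos _).le, ENNReal.toReal_ofReal hγ.le,
    ENNReal.toReal_ofReal hl.le] at h'
  refine h'.trans (le_of_eq ?_)
  ring

/-- The profile `e^{-a|t|}`. -/
noncomputable def ex (a t : ℝ) : ℝ≥0∞ := ENNReal.ofReal (Real.exp (-(a * |t|)))

@[fun_prop] theorem measurable_ex (a : ℝ) : Measurable (ex a) := by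
  unfold ex; fun_prop

/-- The weighted total source. -/
noncomputable def tot (σ : Measure M) (a : ℝ) (f : ℝ × M → ℝ≥0∞) : ℝ≥0∞ :=
  ∫⁻ x, ex a x.1 * f x ∂mu σ

/-- The Harnack constant. -/
noncomputable def cf (K : CylKernel M σ a) (ε : ℝ) : ℝ≥0∞ :=
  ENNReal.ofReal (K.C0 * ε ^ (-(2 * a)) * Real.exp (2 * a))

theorem far_km (ha : 0 < a) {ε : ℝ} (hε : 0 < ε) (hε1 : ε ≤ 1) (mg : Measurable g) {x : ℝ × M}
    (hx : x.1 < -ε) : T σ (K.km 0) (fun y => g y + g (rf y)) x ≤ cf K ε * ex a x.1 * tot σ a g := by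
  have m1 : Measurable (fun y : ℝ × M => ex a y.1 * g y) := by fun_prop
  have m2 : Measurable (fun y : ℝ × M => ex a (rf y).1 * g (rf y)) := m1.comp measurable_rf
  unfold tot
  rw [lintegral_split m1, ← lintegral_add_left m1, ← lintegral_const_mul _ (m1.fun_add m2)]
  refine setLIntegral_mono' (measurableSet_Hs 0) fun y hy => ?_
  have hy' : y.1 < 0 := hy
  have h := K.far ha hε hε1 (t := x.1) (s := -y.1) (by linarith) (by linarith)
    (by rw [abs_of_neg (by linarith)]; linarith) x.2 y.2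
  have e1 : K.km 0 x y = K.k (x.1 - -y.1) x.2 y.2 := by unfold CylKernel.km; congr 1; ring
  have e2 : ex a (rf y).1 = ex a y.1 := by unfold ex; rw [rf_fst, abs_neg]
  rw [abs_neg] at h
  rw [e1, e2]
  calc _ ≤ (cf K ε * (ex a x.1 * ex a y.1)) * (g y + g (rf y)) := mul_le_mul_left h _
    _ = _ := by ring

omit [IsFiniteMeasure σ] in
theorem far_Ly (ha : 0 < a) {ε : ℝ} (hε : 0 < ε) (hε1 : ε ≤ 1) (mg : Measurable g)
    (hle : ∀ y : ℝ × M, y.1 < 0 → gz y ≤ g y) {x : ℝ × M}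
    (hx : x.1 < -(2 * ε)) :
    ∫⁻ y in Ly M ε, K.G x y * gz y ∂mu σ ≤ cf K ε * ex a x.1 * tot σ a g := by
  have m1 : Measurable (fun y : ℝ × M => ex a y.1 * g y) := by fun_prop
  unfold tot
  rw [← lintegral_const_mul _ m1]
  refine le_trans ?_ (setLIntegral_le_lintegral (Ly M ε) _)
  refine setLIntegral_mono' (measurableSet_Ly ε) fun y hy => ?_
  have h1 := hy.1
  have h := K.far ha hε hε1 (t := x.1) (s := y.1) (by linarith) (by linarith)
    (by rw [abs_of_neg (by linarith)]; linarith) x.2 y.2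
  have e1 : K.kd 0 x y = K.k (x.1 - y.1) x.2 y.2 := by unfold CylKernel.kd; rw [add_zero]
  calc _ ≤ (cf K ε * (ex a x.1 * ex a y.1)) * g y :=
        mul_le_mul' ((K.G_le x y).trans (e1.le.trans h)) (hle y hy.2)
    _ = _ := by ring

omit [IsFiniteMeasure σ] in
/-- splitting an interaction into a boundary layer part and a far part -/
theorem near_far {φ W : ℝ × M → ℝ≥0∞} (mf : Measurable f) (mV : Measurable V) {c l : ℝ}
    {N : ℝ≥0∞} (hc : c ≤ 0) (h1 : ∀ x : ℝ × M, x.1 < c → φ x ≤ f x)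
    (h2 : ∀ x : ℝ × M, x.1 < c → W x ≤ V x)
    (h3 : ∀ x : ℝ × M, x.1 < -l → W x ≤ N * ex a x.1) :
    ∫⁻ x in Hs M c, φ x * W x ∂mu σ ≤ ∫⁻ x in Ly M l, f x * V x ∂mu σ + N * tot σ a f := by
  have m1 : Measurable (fun y : ℝ × M => ex a y.1 * f y) := by fun_prop
  unfold tot
  rw [← lintegral_const_mul _ m1, ← lintegral_indicator (measurableSet_Ly l),
    ← lintegral_add_right _ (m1.const_mul N)]
  refine le_trans ?_ (setLIntegral_le_lintegral (Hs M c) _)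
  refine setLIntegral_mono' (measurableSet_Hs c) fun x hx => ?_
  have hx' : x.1 < c := hx
  by_cases h : x.1 < -l
  · calc _ ≤ f x * (N * ex a x.1) := mul_le_mul' (h1 x hx) (h3 x h)
      _ = N * (ex a x.1 * f x) := by ring
      _ ≤ _ := le_add_self
  · rw [indicator_of_mem (show x ∈ Ly M l from ⟨not_lt.1 h, by linarith⟩)]
    exact (mul_le_mul' (h1 x hx) (h2 x hx)).trans le_self_add

theorem ZSide.PE_le (Z : ZSide K p s α f g fz z gz) (S : Side K p s α Cb b f V g) (ha : 0 < a)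
    {ε : ℝ} (hε : 0 < ε) (hε1 : ε ≤ 1) :
    ∫⁻ x in Hs M (-ε), fz x * z x ∂mu σ ≤
      ∫⁻ x in Hs M (-ε), fz x * ∫⁻ y in Hs M (-ε), K.G x y * gz y ∂mu σ ∂mu σ +
        (∫⁻ x in Ly M (2 * ε), f x * V x ∂mu σ + 2 * cf K ε * tot σ a g * tot σ a f) := by
  set W : ℝ × M → ℝ≥0∞ := fun x => T σ (K.km 0) (fun y => g y + g (rf y)) x +
    ∫⁻ y in Ly M ε, K.G x y * gz y ∂mu σ with hW
  have hz : ∀ x, z x = ∫⁻ y in Hs M (-ε), K.G x y * gz y ∂mu σ + W x := by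
    intro x
    rw [Z.hz, hW]
    conv_lhs => rw [T, T, Hs_split hε.le (fun y => K.G x y * gz y)]
    simp only [T]
    ring
  have mI : Measurable fun x => ∫⁻ y in Hs M (-ε), K.G x y * gz y ∂mu σ :=
    Measurable.lintegral_prod_right' (f := fun w : (ℝ × M) × (ℝ × M) => K.G w.1 w.2 * gz w.2)
      (K.mk_G.mul (Z.mgz.comp measurable_snd))
  have h := near_far (σ := σ) (a := a) (φ := fz) (W := W) S.mf S.mV (c := -ε) (l := 2 * ε)
    (N := 2 * cf K ε * tot σ a g) (by linarith) (fun x hx => Z.le_f x (by linarith))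
    (fun x hx => le_trans (by rw [hz x]; exact le_add_self) (Z.z_le S (by linarith)))
    (fun x hx => by
      calc W x ≤ cf K ε * ex a x.1 * tot σ a g + cf K ε * ex a x.1 * tot σ a g :=
            add_le_add (far_km ha hε hε1 S.mg (by linarith)) (far_Ly ha hε hε1 S.mg Z.le_g hx)
        _ = _ := by ring)
  refine le_trans (le_of_eq ?_) (add_le_add_right h _)
  rw [← lintegral_add_left (Z.mfz.fun_mul mI)]
  refine lintegral_congr fun x => ?_
  rw [hz x, mul_add]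

omit [MeasurableSpace M] in
theorem Ly_mono {l l' : ℝ} (h : l ≤ l') : Ly M l ⊆ Ly M l' := fun _ hx =>
  ⟨by linarith [hx.1], hx.2⟩

theorem Side.F_le (S : Side K p s α Cb b f V g) (ha : 0 < a) {ε : ℝ} (hε : 0 < ε) (hε1 : ε ≤ 1) :
    ∫⁻ x in Hs M 0, f x * V x ∂mu σ ≤ ∫⁻ x in Hs M 0, f x * T σ (K.kd 0) g x ∂mu σ +
      (∫⁻ x in Ly M (2 * ε), f x * V x ∂mu σ + cf K ε * tot σ a g * tot σ a f) := by
  have h := near_far (σ := σ) (a := a) (φ := f) (W := T σ (K.km 0) (fun y => g (rf y))) S.mf S.mV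
    (c := 0) (l := 2 * ε) (N := cf K ε * tot σ a g) le_rfl (fun x _ => le_rfl)
    (fun x _ => by rw [S.V_eq]; exact le_add_self)
    (fun x hx => by
      calc _ ≤ T σ (K.km 0) (fun y => g y + g (rf y)) x :=
            T_mono fun y _ => mul_le_mul_right le_add_self _
        _ ≤ cf K ε * ex a x.1 * tot σ a g := far_km ha hε hε1 S.mg (by linarith)
        _ = _ := by ring)
  refine le_trans (le_of_eq ?_) (add_le_add_right h _)
  rw [← lintegral_add_left (S.mf.fun_mul (measurable_T (K.mk_kd 0) S.mg))]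
  refine lintegral_congr fun x => ?_
  rw [S.V_eq x, mul_add]

theorem Side.le_F (S : Side K p s α Cb b f V g) (mf : Measurable f) :
    ∫⁻ x in Hs M 0, g x * T σ (K.kd 0) f x ∂mu σ ≤ ∫⁻ x in Hs M 0, f x * V x ∂mu σ := by
  have e : ∫⁻ x in Hs M 0, g x * T σ (K.kd 0) f x ∂mu σ =
      ∫⁻ x in Hs M 0, f x * T σ (K.kd 0) g x ∂mu σ := by
    rw [D_eq_swap (K.mk_kd 0) S.mg mf, D_eq (K.mk_kd 0) _ S.mg]
    congr 1
    ext x y
    rw [K.kd0_swap x y]; ring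
  rw [e]
  refine lintegral_mono fun x => mul_le_mul_right ?_ _
  rw [S.V_eq]; exact le_self_add

theorem key_arith {a b s1 s2 F1 F2 P1 P2 E1 E2 L1 L2 μ m : ℝ} (ha : 0 < a) (hb : 0 < b)
    (hab : a + b < 1) (hμ0 : 0 ≤ μ) (hL1 : 0 ≤ L1) (hL2 : 0 ≤ L2) (hm : 0 ≤ m)
    (hP1 : 0 ≤ P1) (hP2 : 0 ≤ P2)
    (hpr : s1 * (a * F2) + s2 * (b * F1) ≤ 2 * |s1| * (a * P2) + 2 * |s2| * (b * P1))
    (hen : μ ≤ a * E2 + b * E1) (hE2 : E2 ≤ μ + (L2 + 2 * m)) (hE1 : E1 ≤ μ + (L1 + 2 * m))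
    (h2 : P2 ≤ E2 + L2) (h1 : P1 ≤ E1 + L1)
    (hF2 : F2 ≤ F1 + (L2 + m)) (hF1 : F1 ≤ F2 + (L1 + m)) :
    (s1 * a + s2 * b) * (F2 + F1) ≤
      (|s1| + |s2|) * (4 * (2 / (1 - (a + b)) + 2) + 1) * (L2 + L1 + m) := by
  set X := L2 + L1 + m with hX
  have hX0 : 0 ≤ X := by positivity
  set θ := 1 - (a + b) with hθ
  have hθ0 : 0 < θ := by linarith
  have hμ : μ ≤ 2 / θ * X := by
    rw [div_mul_eq_mul_div, le_div_iff₀ hθ0]
    have h3 : a * E2 ≤ a * (μ + (L2 + 2 * m)) := mul_le_mul_of_nonneg_left hE2 ha.le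
    have h4 : b * E1 ≤ b * (μ + (L1 + 2 * m)) := mul_le_mul_of_nonneg_left hE1 hb.le
    have h5 : a * (L2 + 2 * m) ≤ a * (2 * X) := mul_le_mul_of_nonneg_left (by linarith) ha.le
    have h6 : b * (L1 + 2 * m) ≤ b * (2 * X) := mul_le_mul_of_nonneg_left (by linarith) hb.le
    have h7 : (a + b) * (2 * X) ≤ 1 * (2 * X) := mul_le_mul_of_nonneg_right hab.le (by linarith)
    nlinarith
  set Cθ := 2 / θ + 2 with hC
  have hP2' : a * P2 ≤ Cθ * X := by
    have : a * P2 ≤ 1 * P2 := mul_le_mul_of_nonneg_right (by linarith) hP2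
    rw [hC]; nlinarith
  have hP1' : b * P1 ≤ Cθ * X := by
    have : b * P1 ≤ 1 * P1 := mul_le_mul_of_nonneg_right (by linarith) hP1
    rw [hC]; nlinarith
  have hs1 := abs_nonneg s1
  have hs2 := abs_nonneg s2
  have hd : |F2 - F1| ≤ X := abs_le.2 ⟨by linarith, by linarith⟩
  have hc : |s1 * a - s2 * b| ≤ |s1| + |s2| := by
    refine (abs_sub _ _).trans ?_
    rw [abs_mul, abs_mul, abs_of_pos ha, abs_of_pos hb]
    nlinarith
  have h8 : -((|s1| + |s2|) * X) ≤ (s1 * a - s2 * b) * (F2 - F1) := by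
    refine le_trans ?_ (neg_abs_le _)
    rw [abs_mul, neg_le_neg_iff]
    exact mul_le_mul hc hd (abs_nonneg _) (by linarith)
  have h9 : 2 * |s1| * (a * P2) ≤ 2 * |s1| * (Cθ * X) := mul_le_mul_of_nonneg_left hP2' (by linarith)
  have h10 : 2 * |s2| * (b * P1) ≤ 2 * |s2| * (Cθ * X) := mul_le_mul_of_nonneg_left hP1' (by linarith)
  nlinarith

/-- The key inequality: the energy below `t = 0` is controlled by a thin layer and a far term. -/
theorem key (ha : 0 < a) (S1 : Side K p s1 α Cb b f V g) (S2 : Side K q s2 β Cb b g U f)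
    (hpq : 1 < p * q) (hf : tot σ a f ≠ ⊤) (hg : tot σ a g ≠ ⊤) {ε : ℝ} (hε : 0 < ε)
    (hε1 : ε ≤ 1) :
    (s1 * (1 / (p + 1)) + s2 * (1 / (q + 1))) *
      ((∫⁻ x in Hs M 0, f x * V x ∂mu σ).toReal + (∫⁻ x in Hs M 0, g x * U x ∂mu σ).toReal) ≤
    (|s1| + |s2|) * (4 * (2 / (1 - (1 / (p + 1) + 1 / (q + 1))) + 2) + 1) *
      ((∫⁻ x in Ly M (2 * ε), f x * V x ∂mu σ).toReal +
        (∫⁻ x in Ly M (2 * ε), g x * U x ∂mu σ).toReal +
        K.C0 * ε ^ (-(2 * a)) * Real.exp (2 * a) * ((tot σ a f).toReal * (tot σ a g).toReal)) := by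
  obtain ⟨fz, gz, z1, z2, Z1, Z2, hen⟩ := exists_Z S1 S2
  have hp := S1.hp
  have hq := S2.hp
  have hsub : ∀ {c : ℝ}, c ≤ 0 → Hs M c ⊆ Hs M 0 := fun hc x hx => by
    simp only [mem_Hs] at hx ⊢; linarith
  have hsub' : ∀ {l : ℝ}, Ly M l ⊆ Hs M 0 := by intro l x hx; exact hx.2
  have f1 := S1.F_ne_top
  have f2 := S2.F_ne_top
  have f3 := Z1.P_ne_top S1
  have f4 := Z2.P_ne_top S2
  have f5 : ∫⁻ x in Ly M (2 * ε), f x * V x ∂mu σ ≠ ⊤ :=
    ne_top_of_le_ne_top f1 (lintegral_mono_set hsub')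
  have f6 : ∫⁻ x in Ly M (2 * ε), g x * U x ∂mu σ ≠ ⊤ :=
    ne_top_of_le_ne_top f2 (lintegral_mono_set hsub')
  have f7 : ∫⁻ x in Hs M (-ε), fz x * z2 x ∂mu σ ≠ ⊤ :=
    ne_top_of_le_ne_top f3 (lintegral_mono_set (hsub (by linarith)))
  have f8 : ∫⁻ x in Hs M (-ε), gz x * z1 x ∂mu σ ≠ ⊤ :=
    ne_top_of_le_ne_top f4 (lintegral_mono_set (hsub (by linarith)))
  have f9 := ap_ne_top p
  have f10 := ap_ne_top q
  have f11 : cf K ε ≠ ⊤ := ENNReal.ofReal_ne_top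
  have hcf : (cf K ε).toReal = K.C0 * ε ^ (-(2 * a)) * Real.exp (2 * a) :=
    ENNReal.toReal_ofReal (mul_nonneg (mul_nonneg K.C0_pos.le (Real.rpow_nonneg hε.le _))
      (Real.exp_pos _).le)
  have hsym : ∫⁻ x in Hs M (-ε), gz x * ∫⁻ y in Hs M (-ε), K.G x y * fz y ∂mu σ ∂mu σ =
      ∫⁻ x in Hs M (-ε), fz x * ∫⁻ y in Hs M (-ε), K.G x y * gz y ∂mu σ ∂mu σ := by
    simp_rw [← lintegral_const_mul _ ((K.mk_G.right _).fun_mul Z1.mfz),
      ← lintegral_const_mul _ ((K.mk_G.right _).fun_mul Z1.mgz)]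
    rw [lintegral_lintegral_swap (mk_prod K.mk_G Z1.mgz Z1.mfz).aemeasurable]
    refine lintegral_congr fun x => lintegral_congr fun y => ?_
    rw [K.G_swap x y]; ring
  have hen' := hen ε hε.le
  set μE := ∫⁻ x in Hs M (-ε), fz x * ∫⁻ y in Hs M (-ε), K.G x y * gz y ∂mu σ ∂mu σ with hμE
  have f12 : μE ≠ ⊤ := ne_top_of_le_ne_top (by finiteness) hen'
  have hE2 := Z1.PE_le S1 ha hε hε1
  have hE1 := Z2.PE_le S2 ha hε hε1
  rw [hsym] at hE1
  rw [← hμE] at hE2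
  have hP2 : ∫⁻ x in Hs M 0, fz x * z2 x ∂mu σ ≤ ∫⁻ x in Hs M (-ε), fz x * z2 x ∂mu σ +
      ∫⁻ x in Ly M (2 * ε), f x * V x ∂mu σ := by
    rw [Hs_split hε.le]
    exact add_le_add_right ((Z1.P_le S1 (measurableSet_Ly ε) hsub').trans
      (lintegral_mono_set (Ly_mono (by linarith)))) _
  have hP1 : ∫⁻ x in Hs M 0, gz x * z1 x ∂mu σ ≤ ∫⁻ x in Hs M (-ε), gz x * z1 x ∂mu σ +
      ∫⁻ x in Ly M (2 * ε), g x * U x ∂mu σ := by
    rw [Hs_split hε.le]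
    exact add_le_add_right ((Z2.P_le S2 (measurableSet_Ly ε) hsub').trans
      (lintegral_mono_set (Ly_mono (by linarith)))) _
  have hF2 := (S1.F_le ha hε hε1).trans (add_le_add_left (S2.le_F S2.mf) _)
  have hF1 := (S2.F_le ha hε hε1).trans (add_le_add_left (S1.le_F S1.mf) _)
  have g1 := ENNReal.toReal_mono (by finiteness) hen'
  have g2 := ENNReal.toReal_mono (by finiteness) hE2
  have g3 := ENNReal.toReal_mono (by finiteness) hE1
  have g4 := ENNReal.toReal_mono (by finiteness) hP2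
  have g5 := ENNReal.toReal_mono (by finiteness) hP1
  have g6 := ENNReal.toReal_mono (by finiteness) hF2
  have g7 := ENNReal.toReal_mono (by finiteness) hF1
  rw [ENNReal.toReal_add (by finiteness) (by finiteness)] at g1 g2 g3 g4 g5 g6 g7
  rw [ENNReal.toReal_add (by finiteness) (by finiteness)] at g2 g3 g6 g7
  simp only [ENNReal.toReal_mul, toReal_ap hp, toReal_ap hq, hcf, ENNReal.toReal_ofNat]
    at g1 g2 g3 g6 g7
  refine key_arith (μ := μE.toReal) (by positivity) (by positivity) ?_ ENNReal.toReal_nonneg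
    ENNReal.toReal_nonneg ENNReal.toReal_nonneg ?_ ENNReal.toReal_nonneg ENNReal.toReal_nonneg
    (pressure ha S1 S2 Z1 Z2) g1 (g2.trans (le_of_eq (by ring))) (g3.trans (le_of_eq (by ring)))
    g4 g5 (g6.trans (le_of_eq (by ring))) (g7.trans (le_of_eq (by ring)))
  · rw [div_add_div _ _ (by positivity) (by positivity), div_lt_one (by positivity)]
    nlinarith
  · have := K.C0_pos
    positivity

end Crest.Agent.R77
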