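import Crest.Agent.R77.Key

/-!
# Row 77: the abstract non-existence theorem on the cylinder
-/

set_option autoImplicit false

open MeasureTheory Set Filter Topology
open scoped ENNReal

namespace Crest.Agent.R77

theorem iter_false {F m : ℝ → ℝ} {a c C : ℝ} (ha : 0 < a) (hc : 0 < c) (hC : 0 < C)
    (hF : Monotone F) (hF0 : 0 < F 0) (hnn : ∀ t, 0 ≤ F t) (hm : Tendsto m atTop (𝓝 0))
    (h : ∀ t ε, 0 < ε → ε ≤ 1 → c * F t ≤ F t - F (t - 2 * ε) + C * ε ^ (-(2 * a)) * m t) :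
    False := by
  set c' := min c (1 / 2) with hc'
  have hc0 : 0 < c' := lt_min hc (by norm_num)
  have hc1 : c' ≤ 1 / 2 := min_le_right _ _
  have hc2 : c' ≤ c := min_le_left _ _
  set r := (1 - c' / 2) / (1 - c') with hr
  have hr1 : 1 < r := by
    rw [hr, one_lt_div (by linarith)]; linarith
  have hrr : (1 - c') * r = 1 - c' / 2 := by
    rw [hr]; field_simp [show (1 - c') ≠ 0 by linarith]
  set ρ := r ^ (-(1 / (2 * a))) with hρ
  have hρ0 : 0 < ρ := Real.rpow_pos_of_pos (by linarith) _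
  have hρ1 : ρ < 1 := Real.rpow_lt_one_of_one_lt_of_neg hr1 (by
    have : 0 < 1 / (2 * a) := by positivity
    linarith)
  have hρr : ∀ k : ℕ, (ρ ^ k) ^ (-(2 * a)) = r ^ k := by
    intro k
    have e : ρ ^ (-(2 * a)) = r := by
      rw [hρ, ← Real.rpow_mul (by linarith), show -(1 / (2 * a)) * -(2 * a) = 1 by field_simp,
        Real.rpow_one]
    rw [← Real.rpow_natCast, ← Real.rpow_mul hρ0.le, mul_comm, Real.rpow_mul hρ0.le, e,
      Real.rpow_natCast]
  have hev : ∀ᶠ t in atTop, m t < c' / 2 * F 0 / C :=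
    hm.eventually (gt_mem_nhds (by positivity))
  obtain ⟨T0, hT0⟩ := eventually_atTop.1 hev
  set T := max T0 0 with hT
  set t : ℕ → ℝ := fun k => T + 2 * (1 - ρ ^ k) / (1 - ρ) with ht
  have hts : ∀ k, t (k + 1) - 2 * ρ ^ k = t k := by
    intro k
    simp only [ht]
    field_simp [show (1 - ρ) ≠ 0 by linarith]
    ring
  have hρk : ∀ k : ℕ, ρ ^ k ≤ 1 := fun k => pow_le_one₀ hρ0.le hρ1.le
  have ht0 : ∀ k, T ≤ t k := by
    intro k
    have : 0 ≤ 2 * (1 - ρ ^ k) / (1 - ρ) := div_nonneg (by linarith [hρk k]) (by linarith)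
    simp only [ht]; linarith
  have ht1 : ∀ k, t k ≤ T + 2 / (1 - ρ) := by
    intro k
    have : 2 * (1 - ρ ^ k) / (1 - ρ) ≤ 2 / (1 - ρ) :=
      div_le_div_of_nonneg_right (by have := pow_pos hρ0 k; linarith) (by linarith)
    simp only [ht]; linarith
  have hind : ∀ k : ℕ, r ^ k * F 0 ≤ F (t k) := by
    intro k
    induction k with
    | zero =>
      rw [pow_zero, one_mul]
      exact hF ((le_max_right _ _).trans (ht0 0))
    | succ k ih =>
      have h1 := h (t (k + 1)) (ρ ^ k) (pow_pos hρ0 k) (hρk k)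
      rw [hts, hρr] at h1
      have h2 := hT0 (t (k + 1)) ((le_max_left _ _).trans (ht0 _))
      rw [lt_div_iff₀ hC] at h2
      have hrk : 0 < r ^ k := pow_pos (by linarith) k
      have h3 : C * r ^ k * m (t (k + 1)) ≤ r ^ k * (c' / 2 * F 0) := by nlinarith
      have h4 : c' * F (t (k + 1)) ≤ c * F (t (k + 1)) := mul_le_mul_of_nonneg_right hc2 (hnn _)
      have h5 : (1 - c') * (r ^ (k + 1) * F 0) ≤ (1 - c') * F (t (k + 1)) := by
        have : (1 - c') * (r ^ (k + 1) * F 0) = (1 - c' / 2) * (r ^ k * F 0) := by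
          rw [← hrr]; ring
        rw [this]; nlinarith
      exact le_of_mul_le_mul_left h5 (by linarith)
  have htend : Tendsto (fun k : ℕ => r ^ k * F 0) atTop atTop :=
    (tendsto_pow_atTop_atTop_of_one_lt hr1).atTop_mul_const hF0
  obtain ⟨k, hk⟩ := (htend.eventually_gt_atTop (F (T + 2 / (1 - ρ)))).exists
  exact absurd ((hind k).trans (hF (ht1 k))) (not_le.2 hk)

theorem exp_false {A C e : ℝ} (hA : 0 < A) (he : 0 < e) (h : ∀ t, 0 ≤ t → A * Real.exp (e * t) ≤ C) :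
    False := by
  have h1 : Tendsto (fun t : ℝ => A * Real.exp (e * t)) atTop atTop :=
    (Real.tendsto_exp_atTop.comp (tendsto_id.const_mul_atTop he)).const_mul_atTop hA
  obtain ⟨t, ht, ht0⟩ := ((h1.eventually_gt_atTop C).and (eventually_ge_atTop 0)).exists
  exact absurd (h t ht0) (not_le.2 ht)

/-- Composing the two lower bounds. -/
theorem two_step {x y A B s1 s2 p q t : ℝ} (hx : 0 < x) (hA : 0 < A) (hB : 0 < B) (hp : 0 < p)
    (h1 : A * Real.exp (s1 * t) * y ^ p ≤ x) (h2 : B * Real.exp (s2 * t) * x ^ q ≤ y) :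
    A * B ^ p * Real.exp ((s1 + p * s2) * t) * x ^ (p * q) ≤ x := by
  refine le_trans (le_of_eq ?_) ((mul_le_mul_of_nonneg_left
    (Real.rpow_le_rpow (by positivity) h2 hp.le) (by positivity)).trans h1)
  rw [Real.mul_rpow (by positivity) (by positivity), Real.mul_rpow hB.le (by positivity),
    ← Real.exp_mul, ← Real.rpow_mul hx.le, add_mul, Real.exp_add, mul_comm q p]
  rw [show s2 * t * p = p * s2 * t by ring]
  ring

variable {M : Type*} [MeasurableSpace M] {σ : Measure M} {a : ℝ}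

/-- One equation of the system on the whole cylinder. -/
structure Glob (K : CylKernel M σ a) (p s α : ℝ) (f V g : ℝ × M → ℝ≥0∞) : Prop where
  hp : 0 < p
  hα : 0 < α
  mf : Measurable f
  mV : Measurable V
  mg : Measurable g
  hf : ∀ x, f x = wt α s x.1 * V x ^ p
  hV : ∀ x, V x = ∫⁻ y, K.k (x.1 - y.1) x.2 y.2 * g y ∂mu σ
  up : ∀ T, ∃ C, 0 ≤ C ∧ ∀ x : ℝ × M, x.1 ≤ T → V x ≤ wt C a x.1
  lo : ∃ c, 0 < c ∧ ∀ x : ℝ × M, x.1 ≤ 0 → wt c a x.1 ≤ V x
  uc : ∀ T0 T1 : ℝ, ∀ γ : ℝ≥0∞, γ ≠ 0 → ∀ᶠ l in 𝓝[>] (0 : ℝ), ∀ x : ℝ × M, T0 ≤ x.1 → x.1 ≤ T1 →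
    f x ≤ f (sh l x) + γ

/-- The weighted total source seen from `t`. -/
noncomputable def totAt (σ : Measure M) (a : ℝ) (f : ℝ × M → ℝ≥0∞) (t : ℝ) : ℝ≥0∞ :=
  ∫⁻ x, ex a (x.1 - t) * f x ∂mu σ

theorem wt_rpow {C e p t : ℝ} (hC : 0 ≤ C) (hp : 0 ≤ p) : wt C e t ^ p = wt (C ^ p) (p * e) t := by
  unfold wt
  rw [ENNReal.ofReal_rpow_of_nonneg (by positivity) hp, Real.mul_rpow hC (by positivity),
    ← Real.exp_mul]
  congr 3; ring

theorem wt_mul {C C' e e' t : ℝ} (hC : 0 ≤ C) : wt C e t * wt C' e' t = wt (C * C') (e + e') t := by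
  unfold wt
  rw [← ENNReal.ofReal_mul (by positivity), add_mul, Real.exp_add]
  congr 1; ring

theorem wt_shift (C e t t0 : ℝ) : wt C e (t - -t0) = wt (C * Real.exp (e * t0)) e t := by
  unfold wt
  rw [sub_neg_eq_add, mul_add, Real.exp_add]
  congr 1; ring

theorem wt_le_wt {C C' e e' t : ℝ} (hC : 0 ≤ C) (hCC : C ≤ C') (he : e' ≤ e) (ht : t < 0) :
    wt C e t ≤ wt C' e' t :=
  ENNReal.ofReal_le_ofReal (mul_le_mul hCC (Real.exp_le_exp.2 (by nlinarith)) (Real.exp_pos _).le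
    (hC.trans hCC))

omit [MeasurableSpace M] in
theorem ex_tri (ha : 0 < a) (s t u : ℝ) : ex a (s - t) * ex a (u - t) ≤ ex a (u - s) := by
  unfold ex
  rw [← ENNReal.ofReal_mul (Real.exp_pos _).le, ← Real.exp_add]
  refine ENNReal.ofReal_le_ofReal (Real.exp_le_exp.2 ?_)
  have h : |u - s| ≤ |s - t| + |u - t| := by
    rw [abs_sub_comm s t, add_comm]; exact abs_sub_le _ _ _
  nlinarith

theorem totAt_tri (ha : 0 < a) {f : ℝ × M → ℝ≥0∞} (s t : ℝ) :
    ex a (s - t) * totAt σ a f t ≤ totAt σ a f s := by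
  unfold totAt
  rw [← lintegral_const_mul' (ex a (s - t)) _ ENNReal.ofReal_ne_top]
  refine lintegral_mono fun x => ?_
  rw [← mul_assoc]
  exact mul_le_mul_left (ex_tri ha s t x.1) _

variable [IsFiniteMeasure σ] {K : CylKernel M σ a}

theorem tot_shift {f : ℝ × M → ℝ≥0∞} (hf : Measurable f) (t : ℝ) :
    tot σ a (fun x => f (sh (-t) x)) = totAt σ a f t := by
  unfold tot totAt
  rw [← lintegral_sh (-t) (φ := fun x => ex a (x.1 - t) * f x) (by fun_prop)]
  simp

theorem box_le {φ : ℝ × M → ℝ≥0∞} {c : ℝ≥0∞} {t0 t1 : ℝ}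
    (h : ∀ x : ℝ × M, t0 ≤ x.1 → x.1 < t1 → c ≤ φ x) :
    c * (ENNReal.ofReal (t1 - t0) * σ univ) ≤ ∫⁻ x in Hs M t1, φ x ∂mu σ := by
  have hm : MeasurableSet (Ico t0 t1 ×ˢ (univ : Set M)) := measurableSet_Ico.prod MeasurableSet.univ
  have e : mu σ (Ico t0 t1 ×ˢ (univ : Set M)) = ENNReal.ofReal (t1 - t0) * σ univ := by
    rw [Measure.prod_prod]; simp
  rw [← e, ← setLIntegral_const]
  exact (setLIntegral_mono' hm fun x hx => h x hx.1.1 hx.1.2).trans
    (lintegral_mono_set fun x hx => hx.1.2)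

theorem box_le' {φ : ℝ × M → ℝ≥0∞} {c : ℝ≥0∞} {t0 t1 : ℝ}
    (h : ∀ x : ℝ × M, t0 ≤ x.1 → x.1 < t1 → c ≤ φ x) :
    c * (ENNReal.ofReal (t1 - t0) * σ univ) ≤ ∫⁻ x, φ x ∂mu σ :=
  (box_le h).trans (setLIntegral_le_lintegral _ _)

namespace Glob

variable {p q s α β s1 s2 : ℝ} {f V g U : ℝ × M → ℝ≥0∞}

omit [IsFiniteMeasure σ] in
theorem lowV (G : Glob K p s α f V g) (x : ℝ × M) :
    ENNReal.ofReal K.c0 * totAt σ a g x.1 ≤ V x := by
  rw [G.hV]
  unfold totAt
  rw [← lintegral_const_mul' _ _ ENNReal.ofReal_ne_top]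
  refine lintegral_mono fun y => ?_
  rw [← mul_assoc]
  refine mul_le_mul_left (le_trans (le_of_eq ?_) (K.lo _ _ _)) _
  unfold ex
  rw [← ENNReal.ofReal_mul K.c0_pos.le, abs_sub_comm]

omit [IsFiniteMeasure σ] in
theorem upf (G : Glob K p s α f V g) (T : ℝ) :
    ∃ C, 0 ≤ C ∧ ∀ x : ℝ × M, x.1 ≤ T → f x ≤ wt C (s + p * a) x.1 := by
  obtain ⟨C, hC, h⟩ := G.up T
  refine ⟨α * C ^ p, mul_nonneg G.hα.le (Real.rpow_nonneg hC _), fun x hx => ?_⟩
  rw [G.hf, ← wt_mul G.hα.le, ← wt_rpow hC G.hp.le]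
  exact mul_le_mul_right (ENNReal.rpow_le_rpow (h x hx) G.hp.le) _

omit [IsFiniteMeasure σ] in
theorem lof (G : Glob K p s α f V g) :
    ∃ c, 0 < c ∧ ∀ x : ℝ × M, x.1 ≤ 0 → wt c (s + p * a) x.1 ≤ f x := by
  obtain ⟨c, hc, h⟩ := G.lo
  refine ⟨α * c ^ p, mul_pos G.hα (Real.rpow_pos_of_pos hc _), fun x hx => ?_⟩
  rw [G.hf, ← wt_mul G.hα.le, ← wt_rpow hc.le G.hp.le]
  exact mul_le_mul_right (ENNReal.rpow_le_rpow (h x hx) G.hp.le) _

omit [IsFiniteMeasure σ] in
theorem tot_ne_top (G : Glob K p s α f V g) (hσ : σ ≠ 0) (t : ℝ) : totAt σ a g t ≠ ⊤ := by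
  obtain ⟨ω⟩ : Nonempty M := haveI : NeZero σ := ⟨hσ⟩; Measure.nonempty_of_neZero σ
  obtain ⟨C, -, h⟩ := G.up t
  have h1 := (G.lowV (t, ω)).trans (h (t, ω) le_rfl)
  intro h2
  rw [h2, ENNReal.mul_top (by simpa using K.c0_pos)] at h1
  exact wt_ne_top _ _ _ (top_le_iff.1 h1)

/-- The source decays faster than the fundamental solution. -/
theorem decay (G1 : Glob K p s α f V g) (G2 : Glob K q s2 β g U f) (hσ : σ ≠ 0) (ha : 0 < a) :
    a < s + p * a := by
  by_contra hcon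
  push Not at hcon
  obtain ⟨ω⟩ : Nonempty M := haveI : NeZero σ := ⟨hσ⟩; Measure.nonempty_of_neZero σ
  obtain ⟨C, hC, h⟩ := G2.up 0
  obtain ⟨c, hc, h'⟩ := G1.lof
  have hS : 0 < (σ univ).toReal :=
    ENNReal.toReal_pos (by simpa using hσ) (measure_ne_top _ _)
  have hc0 := K.c0_pos
  set t := -(C / (K.c0 * c * (σ univ).toReal) + 1) with ht
  have ht0 : t < 0 := by
    have : 0 ≤ C / (K.c0 * c * (σ univ).toReal) := by positivity
    linarith
  have h1 := (G2.lowV (t, ω)).trans (h (t, ω) ht0.le)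
  have h2 : wt c a t * (ENNReal.ofReal (0 - t) * σ univ) ≤ totAt σ a f t := by
    refine box_le' fun x hx1 hx2 => le_trans ?_ (mul_le_mul_right (h' x hx2.le) _)
    unfold ex wt
    rw [← ENNReal.ofReal_mul (Real.exp_pos _).le, mul_left_comm, ← Real.exp_add]
    refine ENNReal.ofReal_le_ofReal (mul_le_mul_of_nonneg_left (Real.exp_le_exp.2 ?_) hc.le)
    rw [abs_of_nonneg (by linarith)]
    nlinarith
  have h3 := (mul_le_mul_right h2 _).trans h1
  have h4 := ENNReal.toReal_mono (wt_ne_top _ _ _) h3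
  simp only [wt, ENNReal.toReal_mul] at h4
  rw [ENNReal.toReal_ofReal hc0.le, ENNReal.toReal_ofReal (by positivity),
    ENNReal.toReal_ofReal (by linarith), ENNReal.toReal_ofReal (by positivity)] at h4
  have h5 : K.c0 * c * (σ univ).toReal * (0 - t) = C + K.c0 * c * (σ univ).toReal := by
    rw [ht]; field_simp; ring
  have h6 : 0 < K.c0 * c * (σ univ).toReal := by positivity
  have h7 := Real.exp_pos (a * t)
  have h8 : K.c0 * (c * Real.exp (a * t) * ((0 - t) * (σ univ).toReal)) =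
      (C + K.c0 * c * (σ univ).toReal) * Real.exp (a * t) := by rw [← h5]; ring
  rw [h8] at h4
  nlinarith

theorem tot_pos (G : Glob K p s α f V g) (hσ : σ ≠ 0) (ha : 0 < a) (t : ℝ) : totAt σ a f t ≠ 0 := by
  obtain ⟨c, hc, h'⟩ := G.lof
  have h2 : ex a 1 * wt c (-|s + p * a|) 1 * (ENNReal.ofReal (0 - -1) * σ univ) ≤ totAt σ a f 0 := by
    refine box_le' fun x hx1 hx2 => le_trans ?_ (mul_le_mul_right (h' x hx2.le) _)
    refine mul_le_mul' ?_ (wt_mono hc.le ?_)
    · refine ENNReal.ofReal_le_ofReal (Real.exp_le_exp.2 ?_)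
      rw [sub_zero, abs_of_neg hx2, abs_one]; nlinarith
    · have := neg_abs_le (s + p * a)
      have := le_abs_self (s + p * a)
      nlinarith
  have h3 := (mul_le_mul_right h2 _).trans (totAt_tri ha t 0)
  refine (lt_of_lt_of_le ?_ h3).ne'
  have e1 : ∀ u, ex a u ≠ 0 := fun u => by simp [ex, Real.exp_pos]
  have e2 : wt c (-|s + p * a|) 1 ≠ 0 := by simp [wt, hc, Real.exp_pos]
  have e3 : σ univ ≠ 0 := by simpa using hσ
  refine pos_iff_ne_zero.2 (mul_ne_zero (e1 _) (mul_ne_zero (mul_ne_zero (e1 _) e2)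
    (mul_ne_zero (by simp) e3)))

theorem tot_low (G : Glob K p s α f V g) (hσ : σ ≠ 0) (ha : 0 < a)
    (hf : ∀ t, totAt σ a f t ≠ ⊤) :
    ∃ A, 0 < A ∧ ∀ t, A * Real.exp (s * t) * (totAt σ a g t).toReal ^ p ≤ (totAt σ a f t).toReal := by
  have hS : 0 < (σ univ).toReal :=
    ENNReal.toReal_pos (by simpa using hσ) (measure_ne_top _ _)
  have hc0 := K.c0_pos
  have hα := G.hα
  refine ⟨Real.exp (-a) * (α * Real.exp (-|s|)) * (K.c0 * Real.exp (-a)) ^ p * (σ univ).toReal,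
    by positivity, fun t => ?_⟩
  have hex : ∀ x : ℝ × M, t - 1 ≤ x.1 → x.1 < t → ex a 1 ≤ ex a (x.1 - t) := fun x hx1 hx2 => by
    refine ENNReal.ofReal_le_ofReal (Real.exp_le_exp.2 ?_)
    rw [abs_of_neg (by linarith : x.1 - t < 0), abs_one]; nlinarith
  have h2 : ex a 1 * (wt (α * Real.exp (-|s|)) s t *
      (ENNReal.ofReal K.c0 * (ex a 1 * totAt σ a g t)) ^ p) *
      (ENNReal.ofReal (t - (t - 1)) * σ univ) ≤ totAt σ a f t := by
    refine box_le' fun x hx1 hx2 => mul_le_mul' (hex x hx1 hx2) ?_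
    rw [G.hf]
    refine mul_le_mul' ?_ (ENNReal.rpow_le_rpow (le_trans ?_ (G.lowV x)) G.hp.le)
    · unfold wt
      rw [mul_assoc, ← Real.exp_add]
      refine ENNReal.ofReal_le_ofReal (mul_le_mul_of_nonneg_left (Real.exp_le_exp.2 ?_) hα.le)
      have := neg_abs_le s
      have := le_abs_self s
      nlinarith
    · exact mul_le_mul_right ((mul_le_mul_left (hex x hx1 hx2) _).trans (totAt_tri ha _ _)) _
  have h4 := ENNReal.toReal_mono (hf t) h2
  simp only [wt, ex, ENNReal.toReal_mul, ← ENNReal.toReal_rpow, abs_one, mul_one,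
    sub_sub_cancel, ENNReal.ofReal_one, one_mul] at h4
  rw [ENNReal.toReal_ofReal hc0.le, ENNReal.toReal_ofReal (by positivity),
    ENNReal.toReal_ofReal (by positivity), ← mul_assoc K.c0,
    Real.mul_rpow (by positivity) ENNReal.toReal_nonneg] at h4
  refine le_trans (le_of_eq ?_) h4
  ring

theorem side (G1 : Glob K p s α f V g) (t : ℝ) {b Cb : ℝ} (hb : 0 < b) (hCb : 0 ≤ Cb)
    (bf : ∀ x : ℝ × M, x.1 < 0 → f (sh (-t) x) ≤ wt Cb b x.1)
    (bV : ∀ x : ℝ × M, x.1 < 0 → V (sh (-t) x) ≤ wt Cb b x.1)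
    (bg : ∀ x : ℝ × M, x.1 < 0 → g (sh (-t) x) ≤ wt Cb b x.1) :
    Side K p s (α * Real.exp (s * t)) Cb b (fun x => f (sh (-t) x)) (fun x => V (sh (-t) x))
      (fun x => g (sh (-t) x)) where
  hp := G1.hp
  hα := mul_nonneg G1.hα.le (Real.exp_pos _).le
  hC := hCb
  hb := hb
  mf := G1.mf.comp (measurable_sh _)
  mV := G1.mV.comp (measurable_sh _)
  mg := G1.mg.comp (measurable_sh _)
  hf x := by rw [G1.hf, sh_fst, wt_shift]
  hV x := by
    have hm : Measurable (fun y : ℝ × M => K.k ((sh (-t) x).1 - y.1) (sh (-t) x).2 y.2 * g y) :=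
      (K.meas.comp (f := fun y : ℝ × M => ((sh (-t) x).1 - y.1, (sh (-t) x).2, y.2))
        (by fun_prop)).fun_mul G1.mg
    rw [G1.hV, ← lintegral_sh (-t) hm]
    simp
  bf := bf
  bV := bV
  bg := bg
  uc γ hγ := by
    have h1 : Tendsto (fun u : ℝ => wt Cb b u) atBot (𝓝 0) := by
      have : Tendsto (fun u : ℝ => Cb * Real.exp (b * u)) atBot (𝓝 (Cb * 0)) :=
        (Real.tendsto_exp_atBot.comp (tendsto_id.const_mul_atBot hb)).const_mul Cb
      have := ENNReal.tendsto_ofReal this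
      simpa [wt] using this
    obtain ⟨T0, hT0⟩ := eventually_atBot.1 (h1.eventually (ge_mem_nhds (pos_iff_ne_zero.2 hγ)))
    filter_upwards [G1.uc (T0 + t) t γ hγ] with l hl x hx
    by_cases h : x.1 ≤ T0
    · exact ((bf x hx).trans (hT0 _ h)).trans le_add_self
    · have := hl (sh (-t) x) (by simp; linarith) (by simp; linarith)
      convert this using 3
      simp only [sh]
      congr 1; ring

end Glob

omit [MeasurableSpace M] [IsFiniteMeasure σ] in
theorem shift_bound {φ : ℝ × M → ℝ≥0∞} {C e t b Cb : ℝ} (hC : 0 ≤ C)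
    (h : ∀ x : ℝ × M, x.1 ≤ t → φ x ≤ wt C e x.1) (hb : b ≤ e) (hCb : C * Real.exp (e * t) ≤ Cb) :
    ∀ x : ℝ × M, x.1 < 0 → φ (sh (-t) x) ≤ wt Cb b x.1 := fun x hx => by
  refine (h _ (by simp; linarith)).trans ?_
  rw [sh_fst, wt_shift]
  exact wt_le_wt (by positivity) hCb hb hx

/-- The abstract non-existence theorem. -/
theorem cyl_main {p q α β s1 s2 : ℝ} {f V g U : ℝ × M → ℝ≥0∞} (hσ : σ ≠ 0) (ha : 0 < a)
    (G1 : Glob K p s1 α f V g) (G2 : Glob K q s2 β g U f)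
    (hκ : 0 < s1 * (1 / (p + 1)) + s2 * (1 / (q + 1))) : False := by
  have hp := G1.hp
  have hq := G2.hp
  have d1 := G1.decay G2 hσ ha
  have d2 := G2.decay G1 hσ ha
  have tf := G2.tot_ne_top hσ
  have tg := G1.tot_ne_top hσ
  obtain ⟨A, hA, hA'⟩ := G1.tot_low hσ ha tf
  obtain ⟨B, hB, hB'⟩ := G2.tot_low hσ ha tg
  have hx : ∀ t, 0 < (totAt σ a f t).toReal := fun t => ENNReal.toReal_pos (G1.tot_pos hσ ha t) (tf t)
  have hy : ∀ t, 0 < (totAt σ a g t).toReal := fun t => ENNReal.toReal_pos (G2.tot_pos hσ ha t) (tg t)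
  set x : ℝ → ℝ := fun t => (totAt σ a f t).toReal with hxd
  set y : ℝ → ℝ := fun t => (totAt σ a g t).toReal with hyd
  have tx : ∀ t, A * B ^ p * Real.exp ((s1 + p * s2) * t) * x t ^ (p * q) ≤ x t := fun t =>
    two_step (hx t) hA hB hp (hA' t) (hB' t)
  have ty : ∀ t, B * A ^ q * Real.exp ((s2 + q * s1) * t) * y t ^ (q * p) ≤ y t := fun t =>
    two_step (hy t) hB hA hq (hB' t) (hA' t)
  rcases le_or_gt (p * q) 1 with hpq | hpq
  · -- sublinear case
    refine exp_false (A := A * B ^ p) (e := s1 + p * s2 - a * (1 - p * q))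
      (C := x 0 ^ (1 - p * q)) (by positivity) (by nlinarith) fun t ht => ?_
    have h1 : x t ≤ Real.exp (a * t) * x 0 := by
      have h := ENNReal.toReal_mono (tf 0) (totAt_tri (σ := σ) (f := f) ha 0 t)
      rw [ENNReal.toReal_mul, ex, ENNReal.toReal_ofReal (Real.exp_pos _).le, zero_sub, abs_neg,
        abs_of_nonneg ht, Real.exp_neg, ← div_eq_inv_mul, div_le_iff₀' (Real.exp_pos _)] at h
      exact h
    have h2 : x t ^ (1 - p * q) ≤ Real.exp (a * (1 - p * q) * t) * x 0 ^ (1 - p * q) := by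
      refine (Real.rpow_le_rpow (hx t).le h1 (by linarith)).trans (le_of_eq ?_)
      rw [Real.mul_rpow (Real.exp_pos _).le (hx 0).le, ← Real.exp_mul]
      congr 2; ring
    have h3 : A * B ^ p * Real.exp ((s1 + p * s2) * t) ≤ x t ^ (1 - p * q) := by
      rw [Real.rpow_sub (hx t), Real.rpow_one, le_div_iff₀ (Real.rpow_pos_of_pos (hx t) _)]
      exact tx t
    rw [sub_mul, Real.exp_sub, mul_div_assoc', div_le_iff₀' (Real.exp_pos _)]
    exact h3.trans h2
  · -- superlinear case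
    have hm : Tendsto (fun t => x t * y t) atTop (𝓝 0) := by
      set D := A * B ^ p * (B * A ^ q) with hD
      have hD0 : 0 < D := by positivity
      set e := (q + 1) * s1 + (p + 1) * s2 with he
      have he0 : 0 < e := by
        have : e = (p + 1) * (q + 1) * (s1 * (1 / (p + 1)) + s2 * (1 / (q + 1))) := by
          rw [he]; field_simp
        rw [this]; positivity
      have hb : ∀ t, (x t * y t) ^ (p * q - 1) ≤ D⁻¹ * Real.exp (-(e * t)) := fun t => by
        have hxy := mul_pos (hx t) (hy t)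
        rw [Real.rpow_sub hxy, Real.rpow_one, div_le_iff₀ hxy, Real.exp_neg, ← mul_inv,
          ← div_eq_inv_mul, le_div_iff₀ (by positivity), Real.mul_rpow (hx t).le (hy t).le]
        have h := mul_le_mul (tx t) (ty t) (by have := hy t; positivity) (hx t).le
        refine le_trans (le_of_eq ?_) h
        rw [hD, he, mul_comm q p, show ((q + 1) * s1 + (p + 1) * s2) * t =
          (s1 + p * s2) * t + (s2 + q * s1) * t by ring, Real.exp_add]
        ring
      have h1 : Tendsto (fun t : ℝ => D⁻¹ * Real.exp (-(e * t))) atTop (𝓝 (D⁻¹ * 0)) :=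
        (Real.tendsto_exp_neg_atTop_nhds_zero.comp (tendsto_id.const_mul_atTop he0)).const_mul _
      rw [mul_zero] at h1
      have h2 : Tendsto (fun t => (x t * y t) ^ (p * q - 1)) atTop (𝓝 0) :=
        squeeze_zero (fun t => Real.rpow_nonneg (mul_pos (hx t) (hy t)).le _) hb h1
      have h3 := h2.rpow_const (p := (p * q - 1)⁻¹) (Or.inr (inv_nonneg.2 (by linarith)))
      rw [Real.zero_rpow (inv_ne_zero (by linarith))] at h3
      refine h3.congr fun t => ?_
      exact Real.rpow_rpow_inv (mul_pos (hx t) (hy t)).le (by linarith)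
    have hS : ∀ t, ∃ Cb b, Side K p s1 (α * Real.exp (s1 * t)) Cb b (fun x => f (sh (-t) x))
        (fun x => V (sh (-t) x)) (fun x => g (sh (-t) x)) ∧
        Side K q s2 (β * Real.exp (s2 * t)) Cb b (fun x => g (sh (-t) x))
        (fun x => U (sh (-t) x)) (fun x => f (sh (-t) x)) := fun t => by
      obtain ⟨C1, hC1, h1⟩ := G1.up t
      obtain ⟨C2, hC2, h2⟩ := G2.up t
      obtain ⟨C3, hC3, h3⟩ := G1.upf t
      obtain ⟨C4, hC4, h4⟩ := G2.upf t
      have p1 : 0 ≤ C1 * Real.exp (a * t) := by positivity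
      have p2 : 0 ≤ C2 * Real.exp (a * t) := by positivity
      have p3 : 0 ≤ C3 * Real.exp ((s1 + p * a) * t) := by positivity
      have p4 : 0 ≤ C4 * Real.exp ((s2 + q * a) * t) := by positivity
      set Cb := C1 * Real.exp (a * t) + C2 * Real.exp (a * t) + C3 * Real.exp ((s1 + p * a) * t) +
        C4 * Real.exp ((s2 + q * a) * t) with hCb
      have b1 := shift_bound (Cb := Cb) hC1 h1 le_rfl (by linarith)
      have b2 := shift_bound (Cb := Cb) hC2 h2 le_rfl (by linarith)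
      have b3 := shift_bound (Cb := Cb) hC3 h3 d1.le (by linarith)
      have b4 := shift_bound (Cb := Cb) hC4 h4 d2.le (by linarith)
      exact ⟨Cb, a, G1.side t ha (by linarith) b3 b1 b4,
        G2.side t ha (by linarith) b4 b2 b3⟩
    have m1 : Measurable (fun x => f x * V x) := G1.mf.fun_mul G1.mV
    have m2 : Measurable (fun x => g x * U x) := G2.mf.fun_mul G2.mV
    have fin1 : ∀ t, ∫⁻ x in Hs M t, f x * V x ∂mu σ ≠ ⊤ := fun t => by
      obtain ⟨Cb, b, S1, -⟩ := hS t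
      have := S1.F_ne_top
      rwa [setLIntegral_sh 0 (-t) m1, sub_neg_eq_add, zero_add] at this
    have fin2 : ∀ t, ∫⁻ x in Hs M t, g x * U x ∂mu σ ≠ ⊤ := fun t => by
      obtain ⟨Cb, b, -, S2⟩ := hS t
      have := S2.F_ne_top
      rwa [setLIntegral_sh 0 (-t) m2, sub_neg_eq_add, zero_add] at this
    have hsub : ∀ {c c' : ℝ}, c ≤ c' → Hs M c ⊆ Hs M c' := fun hc x hx => by
      simp only [mem_Hs] at hx ⊢; linarith
    have hLy : ∀ {φ : ℝ × M → ℝ≥0∞}, Measurable φ → (∀ t, ∫⁻ x in Hs M t, φ x ∂mu σ ≠ ⊤) →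
        ∀ t l, 0 ≤ l → (∫⁻ x in Ly M l, φ (sh (-t) x) ∂mu σ).toReal =
          (∫⁻ x in Hs M t, φ x ∂mu σ).toReal - (∫⁻ x in Hs M (t - l), φ x ∂mu σ).toReal := by
      intro φ hφ hfin t l hl
      have h := Hs_split (σ := σ) hl (fun x => φ (sh (-t) x))
      rw [setLIntegral_sh 0 (-t) hφ, setLIntegral_sh (-l) (-t) hφ, sub_neg_eq_add, zero_add,
        show -l - -t = t - l by ring] at h
      have h2 : ∫⁻ x in Ly M l, φ (sh (-t) x) ∂mu σ ≠ ⊤ :=
        ne_top_of_le_ne_top (hfin t) (by rw [h]; exact le_add_self)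
      rw [h, ENNReal.toReal_add (hfin _) h2]
      ring
    set C1 := (|s1| + |s2|) * (4 * (2 / (1 - (1 / (p + 1) + 1 / (q + 1))) + 2) + 1) with hC1
    have hθ : 0 < 1 - (1 / (p + 1) + 1 / (q + 1)) := by
      rw [sub_pos, div_add_div _ _ (by positivity) (by positivity), div_lt_one (by positivity)]
      nlinarith
    have hs : 0 < |s1| + |s2| := by
      by_contra hcon
      have e1 : s1 = 0 := abs_eq_zero.1 (by linarith [abs_nonneg s1, abs_nonneg s2])
      have e2 : s2 = 0 := abs_eq_zero.1 (by linarith [abs_nonneg s1, abs_nonneg s2])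
      simp [e1, e2] at hκ
    have hC10 : 0 < C1 := by positivity
    refine iter_false (F := fun t => (∫⁻ x in Hs M t, f x * V x ∂mu σ).toReal +
        (∫⁻ x in Hs M t, g x * U x ∂mu σ).toReal) (C := K.C0 * Real.exp (2 * a)) ha
      (div_pos hκ hC10) (mul_pos K.C0_pos (Real.exp_pos _)) ?_ ?_ (fun t => by positivity) hm ?_
    · intro t t' htt
      exact add_le_add (ENNReal.toReal_mono (fin1 _) (lintegral_mono_set (hsub htt)))
        (ENNReal.toReal_mono (fin2 _) (lintegral_mono_set (hsub htt)))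
    · refine add_pos_of_pos_of_nonneg (ENNReal.toReal_pos ?_ (fin1 0)) ENNReal.toReal_nonneg
      obtain ⟨c, hc, h⟩ := G1.lo
      obtain ⟨c', hc', h'⟩ := G1.lof
      have h2 : wt c' (-(s1 + p * a)) 1 * wt c (-a) 1 * (ENNReal.ofReal (0 - -1) * σ univ) ≤
          ∫⁻ x in Hs M 0, f x * V x ∂mu σ := by
        refine box_le fun x hx1 hx2 => mul_le_mul' (le_trans (wt_mono hc'.le ?_) (h' x hx2.le))
          (le_trans (wt_mono hc.le ?_) (h x hx2.le))
        · nlinarith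
        · nlinarith
      refine (lt_of_lt_of_le ?_ h2).ne'
      have e1 : wt c' (-(s1 + p * a)) 1 ≠ 0 := by simp [wt, hc', Real.exp_pos]
      have e2 : wt c (-a) 1 ≠ 0 := by simp [wt, hc, Real.exp_pos]
      have e3 : σ univ ≠ 0 := by simpa using hσ
      exact pos_iff_ne_zero.2 (mul_ne_zero (mul_ne_zero e1 e2) (mul_ne_zero (by simp) e3))
    · intro t ε hε hε1
      obtain ⟨Cb, b, S1, S2⟩ := hS t
      have h := key ha S1 S2 hpq (by rw [tot_shift G1.mf]; exact tf t)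
        (by rw [tot_shift G2.mf]; exact tg t) hε hε1
      rw [setLIntegral_sh 0 (-t) m1, setLIntegral_sh 0 (-t) m2, sub_neg_eq_add, zero_add,
        hLy m1 fin1 t _ (by linarith), hLy m2 fin2 t _ (by linarith), tot_shift G1.mf,
        tot_shift G2.mf, ← hC1] at h
      rw [div_mul_eq_mul_div, div_le_iff₀' hC10]
      refine h.trans (le_of_eq ?_)
      simp only [hxd, hyd]
      ring

end Crest.Agent.R77
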