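import Crest.Agent.R77.Steps

/-!
# Row 77: the minimal solution in the half cylinder and the pressure comparison
-/

set_option autoImplicit false

open MeasureTheory Set Filter Topology
open scoped ENNReal

namespace Crest.Agent.R77

variable {M : Type*} [MeasurableSpace M] {σ : Measure M} {a : ℝ}

/-- One equation of the reflected minimal problem. -/
structure ZSide (K : CylKernel M σ a) (p s α : ℝ) (f g fz z gz : ℝ × M → ℝ≥0∞) : Prop where
  mfz : Measurable fz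
  mz : Measurable z
  mgz : Measurable gz
  hfz : ∀ x : ℝ × M, x.1 < 0 → fz x = wt α |s| x.1 * z x ^ p
  hz : ∀ x : ℝ × M, z x = T σ (K.km 0) (fun y => g y + g (rf y)) x + T σ K.G gz x
  le_f : ∀ x : ℝ × M, x.1 < 0 → fz x ≤ f x
  le_fr : ∀ x : ℝ × M, x.1 < 0 → fz x ≤ f (rf x)
  le_g : ∀ x : ℝ × M, x.1 < 0 → gz x ≤ g x
  le_gr : ∀ x : ℝ × M, x.1 < 0 → gz x ≤ g (rf x)

variable [IsFiniteMeasure σ] {K : CylKernel M σ a}
variable {p q s α β s1 s2 Cb b : ℝ} {f V g U fz gz z z1 z2 : ℝ × M → ℝ≥0∞}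

theorem Side.V_green (S : Side K p s α Cb b f V g) {x : ℝ × M} (hx : x.1 < 0) :
    T σ (K.km 0) (fun y => g y + g (rf y)) x + T σ K.G g x = V x := by
  rw [S.V_eq, T_add (K.mk_km 0) S.mg, T_add_ker (K.mk_km 0) S.mg x (fun y hy => K.kd_eq hx hy)]
  ring

theorem Side.V_rf_green (S : Side K p s α Cb b f V g) {x : ℝ × M} (hx : x.1 < 0) :
    T σ (K.km 0) (fun y => g y + g (rf y)) x + T σ K.G (fun y => g (rf y)) x = V (rf x) := by
  have mgr : Measurable (fun y => g (rf y)) := S.mg.comp measurable_rf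
  rw [S.V_rf_eq, T_add (K.mk_km 0) S.mg, T_add_ker (K.mk_km 0) mgr x (fun y hy => K.kd_eq hx hy)]
  ring

theorem Side.super (S : Side K p s α Cb b f V g) {x : ℝ × M} (hx : x.1 < 0) :
    wt α |s| x.1 * (T σ (K.km 0) (fun y => g y + g (rf y)) x + T σ K.G g x) ^ p ≤ f x := by
  rw [S.V_green hx, S.hf]
  refine mul_le_mul_left (wt_mono S.hα ?_) _
  nlinarith [le_abs_self s]

theorem Side.super_rf (S : Side K p s α Cb b f V g) {x : ℝ × M} (hx : x.1 < 0) :
    wt α |s| x.1 * (T σ (K.km 0) (fun y => g y + g (rf y)) x +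
      T σ K.G (fun y => g (rf y)) x) ^ p ≤ f (rf x) := by
  rw [S.V_rf_green hx, S.hf]
  refine mul_le_mul_left (wt_mono S.hα ?_) _
  rw [rf_fst]
  nlinarith [neg_abs_le s]

theorem exists_Z (S1 : Side K p s1 α Cb b f V g) (S2 : Side K q s2 β Cb b g U f) :
    ∃ fz gz z1 z2 : ℝ × M → ℝ≥0∞, ZSide K p s1 α f g fz z2 gz ∧ ZSide K q s2 β g f gz z1 fz ∧
      ∀ ε : ℝ, 0 ≤ ε →
        ∫⁻ x in Hs M (-ε), fz x * ∫⁻ y in Hs M (-ε), K.G x y * gz y ∂mu σ ∂mu σ ≤
          ap p * ∫⁻ x in Hs M (-ε), fz x * z2 x ∂mu σ +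
          ap q * ∫⁻ x in Hs M (-ε), gz x * z1 x ∂mu σ := by
  obtain ⟨fz, gz, z1, z2, mfz, mgz, mz1, mz2, hz1, hz2, hfz, hgz, hmin, hen⟩ :=
    exists_minimal ((mu σ).restrict (Hs M 0)) K.G K.mk_G (fun x y => K.G_swap y x)
      (T σ (K.km 0) (fun y => f y + f (rf y))) (T σ (K.km 0) (fun y => g y + g (rf y)))
      (fun x => wt α |s1| x.1) (fun x => wt β |s2| x.1)
      (measurable_T (K.mk_km 0) (S1.mf.add (S1.mf.comp measurable_rf)))
      (measurable_T (K.mk_km 0) (S1.mg.add (S1.mg.comp measurable_rf)))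
      (by fun_prop) (by fun_prop) p q S1.hp S2.hp
  have hS : ∀ᵐ y ∂(mu σ).restrict (Hs M 0), y ∈ Hs M 0 := ae_restrict_mem (measurableSet_Hs 0)
  obtain ⟨h1, h2⟩ := hmin (Hs M 0) hS f g (fun x hx => S1.super hx) (fun x hx => S2.super hx)
  obtain ⟨h3, h4⟩ := hmin (Hs M 0) hS (fun x => f (rf x)) (fun x => g (rf x))
    (fun x hx => S1.super_rf hx) (fun x hx => S2.super_rf hx)
  refine ⟨fz, gz, z1, z2, ⟨mfz, mz2, mgz, fun x _ => hfz x, hz2, h1, h3, h2, h4⟩,
    ⟨mgz, mz1, mfz, fun x _ => hgz x, hz1, h2, h4, h1, h3⟩, fun ε hε => ?_⟩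
  have h := hen (Hs M (-ε)) (measurableSet_Hs _)
  have e : Hs M (-ε) ∩ Hs M 0 = Hs M (-ε) := by
    apply inter_eq_left.2
    intro x hx
    simp only [mem_Hs] at hx ⊢
    linarith
  rw [Measure.restrict_restrict (measurableSet_Hs _), e] at h
  exact h

/-- The outer source of the minimal solution. -/
noncomputable def ext (g gz : ℝ × M → ℝ≥0∞) (y : ℝ × M) : ℝ≥0∞ :=
  gz y + (g y - gz y) + (g (rf y) - gz y)

theorem measurable_ext (hg : Measurable g) (hgz : Measurable gz) : Measurable (ext g gz) :=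
  (hgz.add (hg.sub hgz)).add ((hg.comp measurable_rf).sub hgz)

namespace ZSide

theorem z_le (Z : ZSide K p s α f g fz z gz) (S : Side K p s α Cb b f V g) {x : ℝ × M}
    (hx : x.1 < 0) : z x ≤ V x := by
  rw [Z.hz, ← S.V_green hx]
  exact add_le_add_right (T_mono fun y hy => mul_le_mul_right (Z.le_g y hy) _) _

theorem V_le (Z : ZSide K p s α f g fz z gz) (S : Side K p s α Cb b f V g) {x : ℝ × M}
    (hx : x.1 < 0) : V x ≤ z x + T σ K.G g x := by
  rw [Z.hz, ← S.V_green hx]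
  exact add_le_add_left le_self_add _

omit [IsFiniteMeasure σ] in
theorem z_eq (Z : ZSide K p s α f g fz z gz) (mg : Measurable g) {x : ℝ × M} (hx : x.1 < 0) :
    z x = T σ (K.kd 0) gz x + T σ (K.km 0) (ext g gz) x := by
  have e : T σ (K.km 0) (fun y => g y + g (rf y)) x =
      T σ (K.km 0) (fun y => ext g gz y + gz y) x := by
    refine T_congr x fun y hy => ?_
    unfold ext
    conv_lhs => rw [← add_tsub_cancel_of_le (Z.le_g y hy), ← add_tsub_cancel_of_le (Z.le_gr y hy)]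
    ring
  rw [Z.hz, e, T_add (K.mk_km 0) (measurable_ext mg Z.mgz),
    T_add_ker (K.mk_km 0) Z.mgz x (fun y hy => K.kd_eq hx hy)]
  ring

theorem P_le (Z : ZSide K p s α f g fz z gz) (S : Side K p s α Cb b f V g) {A : Set (ℝ × M)}
    (hA : MeasurableSet A) (h : A ⊆ Hs M 0) :
    ∫⁻ x in A, fz x * z x ∂mu σ ≤ ∫⁻ x in A, f x * V x ∂mu σ :=
  setLIntegral_mono' hA fun x hx => mul_le_mul' (Z.le_f x (h hx)) (Z.z_le S (h hx))

theorem P_ne_top (Z : ZSide K p s α f g fz z gz) (S : Side K p s α Cb b f V g) :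
    ∫⁻ x in Hs M 0, fz x * z x ∂mu σ ≠ ⊤ :=
  ne_top_of_le_ne_top S.F_ne_top (Z.P_le S (measurableSet_Hs 0) le_rfl)

theorem J_ne_top (Z : ZSide K p s α f g fz z gz) (S : Side K p s α Cb b f V g) {l : ℝ}
    (hl : 0 < l) : ∫⁻ x in Hs M 0, fz x * T σ (K.kd (-l)) gz x ∂mu σ ≠ ⊤ := by
  have h : ∫⁻ x in Hs M 0, fz x * T σ (K.kd (-l)) gz x ∂mu σ ≤
      ∫⁻ x in Hs M 0, ENNReal.ofReal Cb * wt Cb b x.1 ∂mu σ := by
    refine setLIntegral_mono' (measurableSet_Hs 0) fun x hx => ?_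
    have hx0 : x.1 < 0 := hx
    have hx' : (sh l x).1 < 0 := by simp; linarith
    rw [mul_comm]
    refine mul_le_mul' ?_ ((Z.le_f x hx).trans (S.bf x hx))
    rw [← zero_sub l, ← K.T_kd_sh]
    refine le_trans ?_ (S.bV' hx')
    rw [S.V_eq]
    exact (T_mono fun y hy => mul_le_mul_right (Z.le_g y hy) _).trans le_self_add
  refine ne_top_of_le_ne_top ?_ h
  rw [lintegral_const_mul' _ _ ENNReal.ofReal_ne_top]
  exact ENNReal.mul_ne_top ENNReal.ofReal_ne_top (lintegral_wt_ne_top S.hb Cb)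

end ZSide

theorem Side.I_ne_top (S : Side K p s α Cb b f V g) {l : ℝ} (hl : 0 < l) :
    ∫⁻ x in Hs M (-l), f x * T σ (K.kd l) g x ∂mu σ ≠ ⊤ := by
  rw [← zero_sub l, ← setLIntegral_sh 0 l (S.mf.fun_mul (measurable_T (K.mk_kd l) S.mg))]
  simp_rw [K.T_kd_sh, sub_self]
  have h : ∫⁻ x in Hs M 0, f (sh l x) * T σ (K.kd 0) g x ∂mu σ ≤
      ∫⁻ x in Hs M 0, ENNReal.ofReal Cb * wt Cb b x.1 ∂mu σ := by
    refine setLIntegral_mono' (measurableSet_Hs 0) fun x hx => ?_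
    have hx0 : x.1 < 0 := hx
    have hx' : (sh l x).1 < 0 := by simp; linarith
    refine mul_le_mul' (S.bf' hx') (le_trans ?_ (S.bV x hx))
    rw [S.V_eq]
    exact le_self_add
  refine ne_top_of_le_ne_top ?_ h
  rw [lintegral_const_mul' _ _ ENNReal.ofReal_ne_top]
  exact ENNReal.mul_ne_top ENNReal.ofReal_ne_top (lintegral_wt_ne_top S.hb Cb)

theorem mk_prod {j : ℝ × M → ℝ × M → ℝ≥0∞} (hj : MK j) {φ ψ : ℝ × M → ℝ≥0∞} (hφ : Measurable φ)
    (hψ : Measurable ψ) : MK (fun x y => φ x * (j x y * ψ y)) :=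
  (hφ.comp measurable_fst).mul (hj.mul (hψ.comp measurable_snd))

theorem D_eq_swap {j : ℝ × M → ℝ × M → ℝ≥0∞} (hj : MK j) {φ ψ : ℝ × M → ℝ≥0∞}
    (hφ : Measurable φ) (hψ : Measurable ψ) :
    ∫⁻ x in Hs M 0, φ x * T σ j ψ x ∂mu σ = D σ (fun x y => φ y * (j y x * ψ x)) := by
  rw [D_eq hj φ hψ, D_swap (mk_prod hj hφ hψ)]

/-- The minimal solution is attracted less than the solution. -/
theorem tension_le (Z1 : ZSide K p s1 α f g fz z2 gz) (mf : Measurable f) (mg : Measurable g)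
    (l : ℝ) :
    ∫⁻ x in Hs M 0, fz x * T σ (K.kap l) (ext g gz) x ∂mu σ +
      ∫⁻ x in Hs M 0, gz x * T σ (K.kap l) (ext f fz) x ∂mu σ ≤
    ∫⁻ x in Hs M 0, f x * T σ (K.kap l) (fun y => g (rf y)) x ∂mu σ +
      ∫⁻ x in Hs M 0, g x * T σ (K.kap l) (fun y => f (rf y)) x ∂mu σ := by
  have mgr : Measurable (fun y => g (rf y)) := mg.comp measurable_rf
  have mfr : Measurable (fun y => f (rf y)) := mf.comp measurable_rf
  rw [D_eq (K.mk_kap l) _ (measurable_ext mg Z1.mgz),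
    D_eq_swap (K.mk_kap l) Z1.mgz (measurable_ext mf Z1.mfz), D_eq (K.mk_kap l) _ mgr,
    D_eq_swap (K.mk_kap l) mg mfr,
    ← D_add (mk_prod (K.mk_kap l) Z1.mfz (measurable_ext mg Z1.mgz)),
    ← D_add (mk_prod (K.mk_kap l) mf mgr)]
  refine D_mono fun x y hx hy => ?_
  unfold ext
  rw [K.kap_swap l x y]
  have h1 := add_tsub_cancel_of_le (Z1.le_f x hx)
  have h2 := add_tsub_cancel_of_le (Z1.le_fr x hx)
  have h3 := add_tsub_cancel_of_le (Z1.le_g y hy)
  have h4 := add_tsub_cancel_of_le (Z1.le_gr y hy)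
  generalize f x - fz x = A at *
  generalize f (rf x) - fz x = A' at *
  generalize g y - gz y = B at *
  generalize g (rf y) - gz y = B' at *
  rw [← h1, ← h2, ← h3, ← h4]
  calc _ ≤ fz x * (K.kap l x y * (gz y + B + B')) + gz y * (K.kap l x y * (fz x + A + A')) +
        K.kap l x y * (A * B' + B * A') := le_self_add
    _ = _ := by ring

/-- total weight -/
noncomputable def W0 (Cb b : ℝ) : ℝ≥0∞ := ∫⁻ t, (Iio (0 : ℝ)).indicator (wt Cb b) t

theorem W0_ne_top {Cb b : ℝ} (hb : 0 < b) : W0 Cb b ≠ ⊤ := by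
  unfold W0
  rw [lintegral_indicator measurableSet_Iio]
  have h : IntegrableOn (fun t : ℝ => Cb * Real.exp (b * t)) (Iio 0) :=
    ((integrableOn_exp_mul_Iic hb 0).mono_set Iio_subset_Iic_self).const_mul Cb
  exact h.lintegral_lt_top.ne

theorem D_rr_le {φ ψ : ℝ × M → ℝ≥0∞} (hφ : ∀ x : ℝ × M, x.1 < 0 → φ x ≤ wt Cb b x.1)
    (hψ : ∀ x : ℝ × M, x.1 < 0 → ψ x ≤ ENNReal.ofReal Cb) {l : ℝ} {γ : ℝ≥0∞}
    (hγ : ∫⁻ ω, ∫⁻ η, ∫⁻ d, (2 * K.k d ω η - (K.k (d + l) ω η + K.k (d - l) ω η)) ∂volume ∂σ ∂σ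
      ≤ γ) : D σ (fun x y => φ x * (K.rr l x y * ψ y)) ≤ ENNReal.ofReal Cb * W0 Cb b * γ := by
  have hρ : Measurable ((Iio (0 : ℝ)).indicator (wt Cb b)) :=
    (measurable_wt Cb b).indicator measurableSet_Iio
  calc _ ≤ ∫⁻ x in Hs M 0, ENNReal.ofReal Cb * ((Iio (0 : ℝ)).indicator (wt Cb b) x.1 *
        ∫⁻ y, K.rr l x y ∂mu σ) ∂mu σ := by
        refine setLIntegral_mono' (measurableSet_Hs 0) fun x hx => ?_
        rw [indicator_of_mem (by exact hx), ← mul_assoc,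
          ← lintegral_const_mul _ ((K.mk_rr l).right x)]
        refine le_trans ?_ (setLIntegral_le_lintegral (Hs M 0) _)
        refine setLIntegral_mono' (measurableSet_Hs 0) fun y hy => ?_
        calc φ x * (K.rr l x y * ψ y) ≤ wt Cb b x.1 * (K.rr l x y * ENNReal.ofReal Cb) :=
              mul_le_mul' (hφ x hx) (mul_le_mul_right (hψ y hy) _)
          _ = _ := by ring
    _ ≤ _ := setLIntegral_le_lintegral _ _
    _ = _ := lintegral_const_mul' _ _ ENNReal.ofReal_ne_top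
    _ ≤ _ := by
        rw [K.lintegral_rr l _ hρ, mul_assoc]
        unfold W0
        gcongr

theorem self_Z (mfz : Measurable fz) (mgz : Measurable gz) (l : ℝ) :
    ∫⁻ x in Hs M 0, fz x * T σ (K.kd 0) gz x ∂mu σ +
      ∫⁻ x in Hs M 0, gz x * T σ (K.kd 0) fz x ∂mu σ ≤
    ∫⁻ x in Hs M 0, fz x * T σ (K.kd (-l)) gz x ∂mu σ +
      ∫⁻ x in Hs M 0, gz x * T σ (K.kd (-l)) fz x ∂mu σ +
      D σ (fun x y => fz x * (K.rr l x y * gz y)) := by
  rw [D_eq (K.mk_kd 0) _ mgz, D_eq_swap (K.mk_kd 0) mgz mfz, D_eq (K.mk_kd (-l)) _ mgz,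
    D_eq_swap (K.mk_kd (-l)) mgz mfz, ← D_add (mk_prod (K.mk_kd 0) mfz mgz), add_assoc,
    add_comm _ (D σ (fun x y => fz x * (K.rr l x y * gz y))),
    ← D_add (mk_prod (K.mk_rr l) mfz mgz), ← D_add (mk_prod (K.mk_kd (-l)) mfz mgz)]
  refine D_mono fun x y _ _ => ?_
  rw [K.kd0_swap x y, K.kd_swap (-l) x y, neg_neg]
  calc _ = fz x * gz y * (K.kd 0 x y + K.kd 0 x y) := by ring
    _ ≤ fz x * gz y * (K.kd l x y + K.kd (-l) x y + K.rr l x y) :=
        mul_le_mul_right (K.two_kd_le l x y) _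
    _ = _ := by ring

theorem D_Ly_kn (l : ℝ) {γ : ℝ≥0∞}
    (hγ : ∫⁻ ω, ∫⁻ η, ∫⁻ d in Icc (-l) l, K.k d ω η ∂volume ∂σ ∂σ ≤ γ) :
    D σ (fun x y => (Ly M l).indicator 1 x * K.kn l x y) ≤ γ * ENNReal.ofReal l := by
  calc _ ≤ ∫⁻ x in Hs M 0, (Ly M l).indicator (fun x => ∫⁻ y, K.kn l x y ∂mu σ) x ∂mu σ := by
        refine lintegral_mono fun x => ?_
        by_cases hx : x ∈ Ly M l
        · simp only [indicator_of_mem hx, Pi.one_apply, one_mul]
          exact setLIntegral_le_lintegral _ _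
        · simp [indicator_of_notMem hx]
    _ ≤ _ := setLIntegral_le_lintegral _ _
    _ = _ := lintegral_indicator (measurableSet_Ly l) _
    _ ≤ _ := by
        rw [K.lintegral_Ly_kn, mul_comm]
        gcongr

omit [IsFiniteMeasure σ] in
theorem setLIntegral_Hs_eq {l : ℝ} (hl : 0 ≤ l) (φ ψ : ℝ × M → ℝ≥0∞) :
    ∫⁻ x in Hs M (-l), φ x * ψ x ∂mu σ =
      ∫⁻ x in Hs M 0, (Hs M (-l)).indicator φ x * ψ x ∂mu σ := by
  have e : (fun x => (Hs M (-l)).indicator φ x * ψ x) =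
      (Hs M (-l)).indicator (fun x => φ x * ψ x) := by
    ext x; by_cases hx : x ∈ Hs M (-l) <;> simp [indicator, hx]
  have e2 : Hs M (-l) ∩ Hs M 0 = Hs M (-l) := by
    apply inter_eq_left.2
    intro x hx
    simp only [mem_Hs] at hx ⊢
    linarith
  rw [e, lintegral_indicator (measurableSet_Hs _), Measure.restrict_restrict (measurableSet_Hs _), e2]

theorem self_U (S : Side K p s α Cb b f V g) {l : ℝ} (hl : 0 < l) {γ : ℝ≥0∞}
    (hγ : ∫⁻ ω, ∫⁻ η, ∫⁻ d in Icc (-l) l, K.k d ω η ∂volume ∂σ ∂σ ≤ γ) :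
    ∫⁻ x in Hs M (-l), f x * T σ (K.kd 0) g x ∂mu σ +
      ∫⁻ x in Hs M (-l), g x * T σ (K.kd 0) f x ∂mu σ ≤
    ∫⁻ x in Hs M (-l), f x * T σ (K.kd l) g x ∂mu σ +
      ∫⁻ x in Hs M (-l), g x * T σ (K.kd l) f x ∂mu σ +
      (D σ (fun x y => f x * (K.rr l x y * g y)) +
        2 * (ENNReal.ofReal Cb * ENNReal.ofReal Cb) * (γ * ENNReal.ofReal l)) := by
  have mfi : Measurable ((Hs M (-l)).indicator f) := S.mf.indicator (measurableSet_Hs _)
  have mgi : Measurable ((Hs M (-l)).indicator g) := S.mg.indicator (measurableSet_Hs _)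
  have mL : Measurable ((Ly M l).indicator (1 : ℝ × M → ℝ≥0∞)) :=
    measurable_one.indicator (measurableSet_Ly l)
  have mLk : MK (fun x y => (Ly M l).indicator 1 x * K.kn l x y) :=
    (mL.comp measurable_fst).mul (K.mk_kn l)
  set c := ENNReal.ofReal Cb * ENNReal.ofReal Cb with hc
  have hc' : c ≠ ⊤ := ENNReal.mul_ne_top ENNReal.ofReal_ne_top ENNReal.ofReal_ne_top
  have hD : D σ (fun x y => c * ((Ly M l).indicator 1 x * K.kn l x y +
      (Ly M l).indicator 1 y * K.kn l y x)) ≤ 2 * c * (γ * ENNReal.ofReal l) := by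
    have e : D σ (fun x y => c * ((Ly M l).indicator 1 x * K.kn l x y +
        (Ly M l).indicator 1 y * K.kn l y x)) = c * D σ (fun x y => (Ly M l).indicator 1 x * K.kn l x y +
        (Ly M l).indicator 1 y * K.kn l y x) := by
      unfold D
      rw [← lintegral_const_mul' _ _ hc']
      exact lintegral_congr fun x => lintegral_const_mul' _ _ hc'
    rw [e, D_add mLk, ← D_swap mLk]
    calc _ ≤ c * (γ * ENNReal.ofReal l + γ * ENNReal.ofReal l) := by
          gcongr <;> exact D_Ly_kn l hγ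
      _ = _ := by ring
  refine le_trans ?_ (add_le_add_right (add_le_add_right hD _) _)
  have msw : MK (fun x y => (Hs M (-l)).indicator g y * (K.kd l y x * f x)) :=
    Measurable.comp (mk_prod (K.mk_kd l) mgi S.mf) measurable_swap
  rw [setLIntegral_Hs_eq hl.le, setLIntegral_Hs_eq hl.le, setLIntegral_Hs_eq hl.le,
    setLIntegral_Hs_eq hl.le, D_eq (K.mk_kd 0) _ S.mg, D_eq_swap (K.mk_kd 0) mgi S.mf,
    D_eq (K.mk_kd l) _ S.mg, D_eq_swap (K.mk_kd l) mgi S.mf,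
    ← D_add (mk_prod (K.mk_kd 0) mfi S.mg), ← D_add (mk_prod (K.mk_rr l) S.mf S.mg), add_assoc,
    add_comm (D σ (fun x y => (Hs M (-l)).indicator g y * (K.kd l y x * f x))), ← add_assoc,
    ← D_add (mk_prod (K.mk_kd l) mfi S.mg), add_comm,
    ← D_add msw]
  refine D_mono fun x y hx hy => ?_
  rw [K.kd0_swap x y, K.kd_swap l x y, K.kn_swap l x y]
  have hfg : f x * g y ≤ c := mul_le_mul' (S.bf' hx) (S.bg' hy)
  by_cases h1 : x ∈ Hs M (-l) <;> by_cases h2 : y ∈ Hs M (-l)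
  · rw [indicator_of_mem h1, indicator_of_mem h2]
    calc _ = f x * g y * (K.kd 0 x y + K.kd 0 x y) := by ring
      _ ≤ f x * g y * (K.kd l x y + K.kd (-l) x y + K.rr l x y) :=
          mul_le_mul_right (K.two_kd_le l x y) _
      _ ≤ f x * g y * (K.kd l x y + K.kd (-l) x y + K.rr l x y) +
          c * ((Ly M l).indicator 1 x * K.kn l x y + (Ly M l).indicator 1 y * K.kn l x y) :=
          le_self_add
      _ = _ := by ring
  · have hyL : y ∈ Ly M l := ⟨not_lt.1 h2, hy⟩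
    rw [indicator_of_mem h1, indicator_of_notMem h2, indicator_of_mem hyL]
    have h1' : x.1 < -l := h1
    have hk : K.kd 0 x y ≤ K.kd l x y + K.kn l x y := by
      by_cases h : |x.1 - y.1| ≤ l
      · exact (K.kd_le_kn h).trans le_add_self
      · refine le_trans (K.anti _ _ _ _ ?_) le_self_add
        have h3 := hyL.1
        rw [not_le, abs_of_neg (by linarith)] at h
        rw [add_zero, abs_of_neg (by linarith), abs_of_neg (by linarith)]
        linarith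
    calc _ = f x * g y * K.kd 0 x y := by ring
      _ ≤ f x * g y * (K.kd l x y + K.kn l x y) := mul_le_mul_right hk _
      _ = f x * g y * K.kd l x y + f x * g y * K.kn l x y := by ring
      _ ≤ f x * g y * K.kd l x y + c * K.kn l x y := by gcongr
      _ ≤ f x * g y * K.kd l x y + c * K.kn l x y + (f x * (K.rr l x y * g y) +
          c * ((Ly M l).indicator 1 x * K.kn l x y)) := le_self_add
      _ = _ := by simp only [Pi.one_apply]; ring
  · have hxL : x ∈ Ly M l := ⟨not_lt.1 h1, hx⟩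
    rw [indicator_of_notMem h1, indicator_of_mem h2, indicator_of_mem hxL]
    have h2' : y.1 < -l := h2
    have hk : K.kd 0 x y ≤ K.kd (-l) x y + K.kn l x y := by
      by_cases h : |x.1 - y.1| ≤ l
      · exact (K.kd_le_kn h).trans le_add_self
      · refine le_trans (K.anti _ _ _ _ ?_) le_self_add
        have h3 := hxL.1
        rw [not_le, abs_of_pos (by linarith)] at h
        rw [add_zero, abs_of_pos (by linarith), abs_of_pos (by linarith)]
        linarith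
    calc _ = f x * g y * K.kd 0 x y := by ring
      _ ≤ f x * g y * (K.kd (-l) x y + K.kn l x y) := mul_le_mul_right hk _
      _ = f x * g y * K.kd (-l) x y + f x * g y * K.kn l x y := by ring
      _ ≤ f x * g y * K.kd (-l) x y + c * K.kn l x y := by gcongr
      _ ≤ f x * g y * K.kd (-l) x y + c * K.kn l x y + (f x * (K.rr l x y * g y) +
          c * ((Ly M l).indicator 1 y * K.kn l x y)) := le_self_add
      _ = _ := by simp only [Pi.one_apply]; ring
  · rw [indicator_of_notMem h1, indicator_of_notMem h2]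
    simp

end Crest.Agent.R77
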