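import Mathlib

/-!
# Row 77: the minimal solution of a cooperative integral system and its energy inequality
-/

set_option autoImplicit false

open MeasureTheory Set Filter Topology
open scoped ENNReal

namespace Crest.Agent.R77

/-- Young's inequality in the form used throughout: `x^p y ≤ y^(p+1)/(p+1) + p x^(p+1)/(p+1)`. -/
theorem young (p : ℝ) (hp : 0 < p) (x y : ℝ≥0∞) :
    x ^ p * y ≤ ENNReal.ofReal (1 / (p + 1)) * y ^ (p + 1) +
      ENNReal.ofReal (p / (p + 1)) * x ^ (p + 1) := by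
  have hp1 : 0 < p + 1 := by linarith
  have hpq : (p + 1).HolderConjugate ((p + 1) / p) := by
    rw [Real.holderConjugate_iff]
    refine ⟨by linarith, ?_⟩
    field_simp
    ring
  have := ENNReal.young_inequality y (x ^ p) hpq
  rw [← ENNReal.rpow_mul, mul_div_cancel₀ _ hp.ne'] at this
  rw [mul_comm]
  refine this.trans (le_of_eq ?_)
  rw [ENNReal.div_eq_inv_mul, ENNReal.div_eq_inv_mul, ← ENNReal.ofReal_inv_of_pos hp1,
    ← ENNReal.ofReal_inv_of_pos (div_pos hp1 hp), inv_div, one_div]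

lemma zcon_rpow_succ {p : ℝ} (hp : 0 < p) (x : ℝ≥0∞) : x ^ (p + 1) = x ^ p * x := by
  rw [ENNReal.rpow_add_of_nonneg _ _ hp.le zero_le_one, ENNReal.rpow_one]

lemma zcon_convex {p : ℝ} (hp : 0 < p) (v D : ℝ≥0∞) :
    v ^ p * D + ENNReal.ofReal (1 / (p + 1)) * v ^ (p + 1) ≤
      ENNReal.ofReal (1 / (p + 1)) * (v + D) ^ (p + 1) := by
  have hp1 : 0 < p + 1 := by linarith
  have hc : ENNReal.ofReal (1 / (p + 1)) ≠ 0 := by
    rw [Ne, ENNReal.ofReal_eq_zero, not_le]; positivity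
  by_cases hv : v ^ (p + 1) = ⊤
  · have : (v + D) ^ (p + 1) = ⊤ :=
      top_unique (hv ▸ ENNReal.rpow_le_rpow le_self_add hp1.le)
    rw [this, ENNReal.mul_top hc]
    exact le_top
  · have h := young p hp v (v + D)
    have hfin : ENNReal.ofReal (p / (p + 1)) * v ^ (p + 1) ≠ ⊤ :=
      ENNReal.mul_ne_top ENNReal.ofReal_ne_top hv
    refine (ENNReal.add_le_add_iff_right hfin).1 (le_trans (le_of_eq ?_) h)
    have h1 : ENNReal.ofReal (1 / (p + 1)) + ENNReal.ofReal (p / (p + 1)) = 1 := by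
      rw [← ENNReal.ofReal_add (by positivity) (by positivity), ← add_div, add_comm,
        div_self hp1.ne', ENNReal.ofReal_one]
    rw [add_assoc, ← add_mul, h1, one_mul, mul_add, ← zcon_rpow_succ hp, add_comm]

lemma zcon_iSup_mul {a b : ℕ → ℝ≥0∞} (ha : Monotone a) (hb : Monotone b) :
    (⨆ k, a k) * (⨆ k, b k) = ⨆ k, a k * b k := by
  apply le_antisymm
  · rw [ENNReal.iSup_mul]
    refine iSup_le fun i => ?_
    rw [ENNReal.mul_iSup]
    refine iSup_le fun j => le_iSup_of_le (max i j) ?_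
    exact mul_le_mul' (ha (le_max_left _ _)) (hb (le_max_right _ _))
  · exact iSup_le fun k => mul_le_mul' (le_iSup a k) (le_iSup b k)

lemma zcon_iSup_rpow {a : ℕ → ℝ≥0∞} {p : ℝ} (hp : 0 < p) : (⨆ k, a k) ^ p = ⨆ k, a k ^ p :=
  Monotone.map_iSup_of_continuousAt (f := fun x : ℝ≥0∞ => x ^ p)
    ENNReal.continuous_rpow_const.continuousAt (fun _ _ h => ENNReal.rpow_le_rpow h hp.le)
    (by simp [ENNReal.zero_rpow_of_pos hp])

section op
variable {Y : Type*} [MeasurableSpace Y]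

/-- the integral operator -/
noncomputable def zT (ν : Measure Y) (G : Y → Y → ℝ≥0∞) (f : Y → ℝ≥0∞) (x : Y) : ℝ≥0∞ :=
  ∫⁻ y, G x y * f y ∂ν

variable {ν : Measure Y} {G : Y → Y → ℝ≥0∞}

lemma zT_meas [SFinite ν] (hG : Measurable (fun z : Y × Y => G z.1 z.2)) {f : Y → ℝ≥0∞}
    (hf : Measurable f) : Measurable (zT ν G f) :=
  Measurable.lintegral_prod_right (f := fun x y => G x y * f y) (hG.mul (hf.comp measurable_snd))

lemma zT_mono {f g : Y → ℝ≥0∞} (h : ∀ x, f x ≤ g x) (x : Y) : zT ν G f x ≤ zT ν G g x :=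
  lintegral_mono fun y => mul_le_mul' le_rfl (h y)

lemma zT_add (hG : Measurable (fun z : Y × Y => G z.1 z.2)) {f : Y → ℝ≥0∞} (hf : Measurable f)
    (g : Y → ℝ≥0∞) (x : Y) : zT ν G (fun y => f y + g y) x = zT ν G f x + zT ν G g x := by
  unfold zT
  simp only [mul_add]
  exact lintegral_add_left ((hG.comp (measurable_const.prodMk measurable_id)).mul hf) _

lemma zT_iSup (hG : Measurable (fun z : Y × Y => G z.1 z.2)) {f : ℕ → Y → ℝ≥0∞}
    (hf : ∀ k, Measurable (f k)) (hm : Monotone f) (x : Y) :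
    zT ν G (fun y => ⨆ k, f k y) x = ⨆ k, zT ν G (f k) x := by
  unfold zT
  simp only [ENNReal.mul_iSup]
  exact lintegral_iSup (fun k => (hG.comp (measurable_const.prodMk measurable_id)).mul (hf k))
    fun i j hij y => mul_le_mul' le_rfl (hm hij y)

lemma zT_symm [SFinite ν] (hG : Measurable (fun z : Y × Y => G z.1 z.2)) (hGs : ∀ x y, G x y = G y x)
    {f g : Y → ℝ≥0∞} (hf : Measurable f) (hg : Measurable g) :
    ∫⁻ x, f x * zT ν G g x ∂ν = ∫⁻ x, g x * zT ν G f x ∂ν := by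
  have e : ∀ {f g : Y → ℝ≥0∞}, Measurable g → ∀ x,
      f x * zT ν G g x = ∫⁻ y, f x * (G x y * g y) ∂ν := by
    intro f g hg x
    unfold zT
    exact (lintegral_const_mul _ ((hG.comp (measurable_const.prodMk measurable_id)).mul hg)).symm
  simp only [e hg, e hf]
  rw [lintegral_lintegral_swap]
  · refine lintegral_congr fun x => lintegral_congr fun y => ?_
    rw [hGs y x]; ring
  · exact ((hf.comp measurable_fst).mul (hG.mul (hg.comp measurable_snd))).aemeasurable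

lemma zT_restrict_le (E : Set Y) (f : Y → ℝ≥0∞) (x : Y) : zT (ν.restrict E) G f x ≤ zT ν G f x :=
  lintegral_mono' Measure.restrict_le_self le_rfl

/-- the monotone iteration -/
noncomputable def zIt (ν : Measure Y) (G : Y → Y → ℝ≥0∞) (h1 h2 w1 w2 : Y → ℝ≥0∞) (p q : ℝ) :
    ℕ → (Y → ℝ≥0∞) × (Y → ℝ≥0∞)
  | 0 => (0, 0)
  | k + 1 => (fun x => w1 x * (h2 x + zT ν G (zIt ν G h1 h2 w1 w2 p q k).2 x) ^ p,
      fun x => w2 x * (h1 x + zT ν G (zIt ν G h1 h2 w1 w2 p q k).1 x) ^ q)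

end op

/-- Minimal solution of `z1 = h1 + G fz`, `z2 = h2 + G gz`, `fz = w1 z2^p`, `gz = w2 z1^q`.

Recipe.  Iterate `f₀ = g₀ = 0`, `u_k = h1 + G f_k`, `v_k = h2 + G g_k`, `f_{k+1} = w1 v_k^p`,
`g_{k+1} = w2 u_k^q`.  The sequences increase; take suprema (`lintegral_iSup`, continuity of
`x ↦ x^p` on `ℝ≥0∞`: `ENNReal.continuous_rpow_const` + `Monotone.map_iSup_of_continuousAt`,
`ENNReal.mul_iSup`).  Minimality: induction on `k`.
Energy: fix `E`; if one of the two integrals on the right is `⊤` there is nothing to prove.  Let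
`B_k = ∫_E f_k ∫_E G g_k`, `Φ_k = (p+1)⁻¹ ∫_E w1 v_k^(p+1)`, `Ψ_k = (q+1)⁻¹ ∫_E w2 u_k^(q+1)` (finite).
Writing `f_{k+1} = f_k + df`, `g_{k+1} = g_k + dg` (truncated differences), symmetry of `G` (Tonelli) gives
`B_{k+1} ≤ B_k + ∫_E f_{k+1} (G dg) + ∫_E g_k (G df)`, with `v_{k+1} = v_k + G dg`, `u_{k+1} = u_k + G df`,
`g_k ≤ g_{k+1} = w2 u_k^q`; `young` gives `v^p D + v^(p+1)/(p+1) ≤ (v+D)^(p+1)/(p+1)` (cancel the finite
`p v^(p+1)/(p+1)`; if `v^(p+1) = ⊤` the right side is `⊤`).  Hence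
`B_{k+1} + Φ_k + Ψ_k ≤ B_k + Φ_{k+1} + Ψ_{k+1}` and by induction `B_k ≤ Φ_k + Ψ_k`; let `k → ∞`
(monotone convergence twice), and use `w1 z2^(p+1) = fz z2`. -/
theorem exists_minimal {Y : Type*} [MeasurableSpace Y] (ν : Measure Y) [SFinite ν]
    (G : Y → Y → ℝ≥0∞) (hG : Measurable (fun z : Y × Y => G z.1 z.2)) (hGs : ∀ x y, G x y = G y x)
    (h1 h2 w1 w2 : Y → ℝ≥0∞) (hh1 : Measurable h1) (hh2 : Measurable h2)
    (hw1 : Measurable w1) (hw2 : Measurable w2) (p q : ℝ) (hp : 0 < p) (hq : 0 < q) :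
    ∃ fz gz z1 z2 : Y → ℝ≥0∞, Measurable fz ∧ Measurable gz ∧ Measurable z1 ∧ Measurable z2 ∧
      (∀ x, z1 x = h1 x + ∫⁻ y, G x y * fz y ∂ν) ∧ (∀ x, z2 x = h2 x + ∫⁻ y, G x y * gz y ∂ν) ∧
      (∀ x, fz x = w1 x * z2 x ^ p) ∧ (∀ x, gz x = w2 x * z1 x ^ q) ∧
      (∀ (S : Set Y), (∀ᵐ y ∂ν, y ∈ S) → ∀ f g : Y → ℝ≥0∞,
        (∀ x ∈ S, w1 x * (h2 x + ∫⁻ y, G x y * g y ∂ν) ^ p ≤ f x) →
        (∀ x ∈ S, w2 x * (h1 x + ∫⁻ y, G x y * f y ∂ν) ^ q ≤ g x) →
        (∀ x ∈ S, fz x ≤ f x) ∧ (∀ x ∈ S, gz x ≤ g x)) ∧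
      (∀ E : Set Y, MeasurableSet E →
        ∫⁻ x in E, fz x * ∫⁻ y in E, G x y * gz y ∂ν ∂ν ≤
          ENNReal.ofReal (1 / (p + 1)) * ∫⁻ x in E, fz x * z2 x ∂ν +
          ENNReal.ofReal (1 / (q + 1)) * ∫⁻ x in E, gz x * z1 x ∂ν) := by
  set f : ℕ → Y → ℝ≥0∞ := fun k => (zIt ν G h1 h2 w1 w2 p q k).1 with hf
  set g : ℕ → Y → ℝ≥0∞ := fun k => (zIt ν G h1 h2 w1 w2 p q k).2 with hg
  have f0 : f 0 = 0 := rfl
  have g0 : g 0 = 0 := rfl
  have fs : ∀ k x, f (k + 1) x = w1 x * (h2 x + zT ν G (g k) x) ^ p := fun _ _ => rfl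
  have gs : ∀ k x, g (k + 1) x = w2 x * (h1 x + zT ν G (f k) x) ^ q := fun _ _ => rfl
  clear_value f g
  have hmeas : ∀ k, Measurable (f k) ∧ Measurable (g k) := by
    intro k
    induction k with
    | zero => rw [f0, g0]; exact ⟨measurable_zero, measurable_zero⟩
    | succ k ih =>
      rw [funext (fs k), funext (gs k)]
      exact ⟨hw1.mul ((hh2.add (zT_meas hG ih.2)).pow_const p),
        hw2.mul ((hh1.add (zT_meas hG ih.1)).pow_const q)⟩
  have hfm := fun k => (hmeas k).1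
  have hgm := fun k => (hmeas k).2
  have hstep : ∀ k, (∀ x, f k x ≤ f (k + 1) x) ∧ (∀ x, g k x ≤ g (k + 1) x) := by
    intro k
    induction k with
    | zero => rw [f0, g0]; exact ⟨fun _ => zero_le, fun _ => zero_le⟩
    | succ k ih =>
      refine ⟨fun x => ?_, fun x => ?_⟩
      · rw [fs, fs]
        exact mul_le_mul' le_rfl (ENNReal.rpow_le_rpow (add_le_add le_rfl (zT_mono ih.2 x)) hp.le)
      · rw [gs, gs]
        exact mul_le_mul' le_rfl (ENNReal.rpow_le_rpow (add_le_add le_rfl (zT_mono ih.1 x)) hq.le)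
  have hfmono : Monotone f := monotone_nat_of_le_succ fun k => (hstep k).1
  have hgmono : Monotone g := monotone_nat_of_le_succ fun k => (hstep k).2
  set fz : Y → ℝ≥0∞ := fun x => ⨆ k, f k x with hfz
  set gz : Y → ℝ≥0∞ := fun x => ⨆ k, g k x with hgz
  have hfzm : Measurable fz := Measurable.iSup hfm
  have hgzm : Measurable gz := Measurable.iSup hgm
  have fle : ∀ k x, f k x ≤ fz x := fun k x => le_iSup (fun k => f k x) k
  have gle : ∀ k x, g k x ≤ gz x := fun k x => le_iSup (fun k => g k x) k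
  have efz : ∀ x, fz x = w1 x * (h2 x + zT ν G gz x) ^ p := by
    intro x
    rw [hgz, zT_iSup hG hgm hgmono, ENNReal.add_iSup, zcon_iSup_rpow hp, ENNReal.mul_iSup]
    simp only [← fs]
    exact (Monotone.iSup_nat_add (f := fun k => f k x) (fun i j h => hfmono h x) 1).symm
  have egz : ∀ x, gz x = w2 x * (h1 x + zT ν G fz x) ^ q := by
    intro x
    rw [hfz, zT_iSup hG hfm hfmono, ENNReal.add_iSup, zcon_iSup_rpow hq, ENNReal.mul_iSup]
    simp only [← gs]
    exact (Monotone.iSup_nat_add (f := fun k => g k x) (fun i j h => hgmono h x) 1).symm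
  refine ⟨fz, gz, fun x => h1 x + zT ν G fz x, fun x => h2 x + zT ν G gz x, hfzm, hgzm,
    hh1.add (zT_meas hG hfzm), hh2.add (zT_meas hG hgzm), fun _ => rfl, fun _ => rfl, efz, egz,
    ?_, ?_⟩
  · intro S hS F H hF hH
    have : ∀ k, (∀ x ∈ S, f k x ≤ F x) ∧ (∀ x ∈ S, g k x ≤ H x) := by
      intro k
      induction k with
      | zero => rw [f0, g0]; exact ⟨fun _ _ => zero_le, fun _ _ => zero_le⟩
      | succ k ih =>
        refine ⟨fun x hx => le_trans ?_ (hF x hx), fun x hx => le_trans ?_ (hH x hx)⟩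
        · rw [fs]
          refine mul_le_mul' le_rfl (ENNReal.rpow_le_rpow (add_le_add le_rfl ?_) hp.le)
          exact lintegral_mono_ae (hS.mono fun y hy => mul_le_mul' le_rfl (ih.2 y hy))
        · rw [gs]
          refine mul_le_mul' le_rfl (ENNReal.rpow_le_rpow (add_le_add le_rfl ?_) hq.le)
          exact lintegral_mono_ae (hS.mono fun y hy => mul_le_mul' le_rfl (ih.1 y hy))
    exact ⟨fun x hx => iSup_le fun k => (this k).1 x hx, fun x hx => iSup_le fun k => (this k).2 x hx⟩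
  · intro E _
    set μ := ν.restrict E with hμ
    set cp := ENNReal.ofReal (1 / (p + 1)) with hcp
    set cq := ENNReal.ofReal (1 / (q + 1)) with hcq
    change ∫⁻ x, fz x * zT μ G gz x ∂μ ≤ cp * ∫⁻ x, fz x * (h2 x + zT ν G gz x) ∂μ
      + cq * ∫⁻ x, gz x * (h1 x + zT ν G fz x) ∂μ
    set R := cp * ∫⁻ x, fz x * (h2 x + zT ν G gz x) ∂μ
      + cq * ∫⁻ x, gz x * (h1 x + zT ν G fz x) ∂μ with hR
    by_cases hRt : R = ⊤
    · rw [hRt]; exact le_top
    set Φ : ℕ → ℝ≥0∞ := fun k => ∫⁻ x, w1 x * (cp * (h2 x + zT ν G (g k) x) ^ (p + 1)) ∂μ with hΦ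
    set Ψ : ℕ → ℝ≥0∞ := fun k => ∫⁻ x, w2 x * (cq * (h1 x + zT ν G (f k) x) ^ (q + 1)) ∂μ with hΨ
    have hle : ∀ k, Φ k + Ψ k ≤ R := by
      intro k
      rw [hR, ← lintegral_const_mul' _ _ ENNReal.ofReal_ne_top,
        ← lintegral_const_mul' _ _ ENNReal.ofReal_ne_top]
      refine add_le_add (lintegral_mono fun x => ?_) (lintegral_mono fun x => ?_)
      · rw [efz x, mul_assoc, ← zcon_rpow_succ hp, mul_left_comm]
        exact mul_le_mul' le_rfl (mul_le_mul' le_rfl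
          (ENNReal.rpow_le_rpow (add_le_add le_rfl (zT_mono (gle k) x)) (by linarith)))
      · rw [egz x, mul_assoc, ← zcon_rpow_succ hq, mul_left_comm]
        exact mul_le_mul' le_rfl (mul_le_mul' le_rfl
          (ENNReal.rpow_le_rpow (add_le_add le_rfl (zT_mono (fle k) x)) (by linarith)))
    have hB : ∀ k, ∫⁻ x, f k x * zT μ G (g k) x ∂μ ≤ Φ k + Ψ k := by
      intro k
      induction k with
      | zero => simp [f0]
      | succ k ih =>
        set df : Y → ℝ≥0∞ := fun x => f (k + 1) x - f k x with hdf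
        set dg : Y → ℝ≥0∞ := fun x => g (k + 1) x - g k x with hdg
        have mdf : Measurable df := (hfm _).sub (hfm _)
        have mdg : Measurable dg := (hgm _).sub (hgm _)
        have ef : f (k + 1) = fun x => f k x + df x :=
          funext fun x => (add_tsub_cancel_of_le ((hstep k).1 x)).symm
        have eg : g (k + 1) = fun x => g k x + dg x :=
          funext fun x => (add_tsub_cancel_of_le ((hstep k).2 x)).symm
        have e1 : ∫⁻ x, f (k + 1) x * zT μ G (g (k + 1)) x ∂μ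
            = ∫⁻ x, f k x * zT μ G (g k) x ∂μ + ∫⁻ x, g k x * zT μ G df x ∂μ
              + ∫⁻ x, f (k + 1) x * zT μ G dg x ∂μ := by
          rw [zT_symm hG hGs (hgm k) mdf, ← lintegral_add_left ((hfm k).fun_mul (zT_meas hG (hgm k))),
            ← lintegral_add_right _ ((hfm _).fun_mul (zT_meas hG mdg))]
          refine lintegral_congr fun x => ?_
          rw [eg, zT_add hG (hgm k), mul_add, ← add_mul, ← congrFun ef x]
        have e2 : ∫⁻ x, f (k + 1) x * zT μ G dg x ∂μ + Φ k ≤ Φ (k + 1) := by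
          simp only [hΦ]
          rw [← lintegral_add_left ((hfm _).fun_mul (zT_meas hG mdg))]
          refine lintegral_mono fun x => ?_
          rw [fs, eg, zT_add hG (hgm k), mul_assoc, ← mul_add, ← add_assoc]
          refine mul_le_mul' le_rfl (le_trans ?_ (zcon_convex hp _ _))
          exact add_le_add (mul_le_mul' le_rfl (zT_restrict_le E dg x)) le_rfl
        have e3 : ∫⁻ x, g k x * zT μ G df x ∂μ + Ψ k ≤ Ψ (k + 1) := by
          simp only [hΨ]
          rw [← lintegral_add_left ((hgm _).fun_mul (zT_meas hG mdf))]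
          refine lintegral_mono fun x => ?_
          refine le_trans (add_le_add (mul_le_mul' ((hstep k).2 x) le_rfl) le_rfl) ?_
          rw [gs, ef, zT_add hG (hfm k), mul_assoc, ← mul_add, ← add_assoc]
          refine mul_le_mul' le_rfl (le_trans ?_ (zcon_convex hq _ _))
          exact add_le_add (mul_le_mul' le_rfl (zT_restrict_le E df x)) le_rfl
        have hfin : Φ k + Ψ k ≠ ⊤ := ne_top_of_le_ne_top hRt (hle k)
        refine (ENNReal.add_le_add_iff_right hfin).1 ?_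
        rw [e1]
        calc _ = ∫⁻ x, f k x * zT μ G (g k) x ∂μ + ((∫⁻ x, f (k + 1) x * zT μ G dg x ∂μ + Φ k)
              + (∫⁻ x, g k x * zT μ G df x ∂μ + Ψ k)) := by ring
          _ ≤ (Φ k + Ψ k) + (Φ (k + 1) + Ψ (k + 1)) := add_le_add ih (add_le_add e2 e3)
          _ = _ := add_comm _ _
    have elim : ∀ x, fz x * zT μ G gz x = ⨆ k, f k x * zT μ G (g k) x := by
      intro x
      rw [hgz, zT_iSup hG hgm hgmono]
      exact zcon_iSup_mul (fun i j h => hfmono h x) (fun i j h => zT_mono (hgmono h) x)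
    simp only [elim]
    rw [lintegral_iSup (fun k => (hfm k).fun_mul (zT_meas hG (hgm k)))
      (fun i j h x => mul_le_mul' (hfmono h x) (zT_mono (hgmono h) x))]
    exact iSup_le fun k => (hB k).trans (hle k)

end Crest.Agent.R77
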