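import Crest.Agent.R77.Kern
import Crest.Agent.R77.Zcon

/-!
# Row 77: the one-sided shift inequalities
-/

set_option autoImplicit false

open MeasureTheory Set Filter Topology
open scoped ENNReal

namespace Crest.Agent.R77

variable {M : Type*} [MeasurableSpace M] {σ : Measure M} {a : ℝ}

/-- `1/(p+1)`. -/
noncomputable def ap (p : ℝ) : ℝ≥0∞ := ENNReal.ofReal (1 / (p + 1))

/-- `p/(p+1)`. -/
noncomputable def aq (p : ℝ) : ℝ≥0∞ := ENNReal.ofReal (p / (p + 1))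

theorem ap_ne_top (p : ℝ) : ap p ≠ ⊤ := ENNReal.ofReal_ne_top
theorem aq_ne_top (p : ℝ) : aq p ≠ ⊤ := ENNReal.ofReal_ne_top

theorem ap_add_aq {p : ℝ} (hp : 0 < p) : ap p + aq p = 1 := by
  unfold ap aq
  rw [← ENNReal.ofReal_add (by positivity) (by positivity), ← add_div, add_comm 1 p,
    div_self (by positivity), ENNReal.ofReal_one]

theorem split_ap {p : ℝ} (hp : 0 < p) (x : ℝ≥0∞) : x = ap p * x + aq p * x := by
  rw [← add_mul, ap_add_aq hp, one_mul]

theorem young_w {p : ℝ} (hp : 0 < p) (w x y : ℝ≥0∞) :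
    w * x ^ p * y ≤ ap p * (w * y ^ p * y) + aq p * (w * x ^ p * x) := by
  have h := mul_le_mul_right (young p hp x y) w
  rw [ENNReal.rpow_add_of_nonneg _ _ hp.le zero_le_one, ENNReal.rpow_add_of_nonneg _ _ hp.le zero_le_one,
    ENNReal.rpow_one, ENNReal.rpow_one] at h
  calc w * x ^ p * y = w * (x ^ p * y) := by ring
    _ ≤ _ := h
    _ = _ := by unfold ap aq; ring

/-- exponential weight -/
noncomputable def wt (α s t : ℝ) : ℝ≥0∞ := ENNReal.ofReal (α * Real.exp (s * t))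

@[fun_prop] theorem measurable_wt (α s : ℝ) : Measurable (wt α s) := by
  unfold wt; fun_prop

theorem wt_ne_top (α s t : ℝ) : wt α s t ≠ ⊤ := ENNReal.ofReal_ne_top

theorem wt_add (α s t l : ℝ) : wt α s (t + l) = ENNReal.ofReal (Real.exp (s * l)) * wt α s t := by
  unfold wt
  rw [← ENNReal.ofReal_mul (Real.exp_pos _).le, mul_add, Real.exp_add]
  congr 1; ring

theorem wt_mono {α s t s' t' : ℝ} (hα : 0 ≤ α) (h : s * t ≤ s' * t') : wt α s t ≤ wt α s' t' :=
  ENNReal.ofReal_le_ofReal (mul_le_mul_of_nonneg_left (Real.exp_le_exp.2 h) hα)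

theorem wt_le {C b t : ℝ} (hC : 0 ≤ C) (hb : 0 ≤ b) (ht : t < 0) : wt C b t ≤ ENNReal.ofReal C := by
  apply ENNReal.ofReal_le_ofReal
  have : Real.exp (b * t) ≤ 1 := Real.exp_le_one_iff.2 (by nlinarith)
  nlinarith

/-- One of the two equations of the system, with the bounds on the half cylinder `t < 0`. -/
structure Side (K : CylKernel M σ a) (p s α Cb b : ℝ) (f V g : ℝ × M → ℝ≥0∞) : Prop where
  hp : 0 < p
  hα : 0 ≤ α
  hC : 0 ≤ Cb
  hb : 0 < b
  mf : Measurable f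
  mV : Measurable V
  mg : Measurable g
  hf : ∀ x, f x = wt α s x.1 * V x ^ p
  hV : ∀ x, V x = ∫⁻ y, K.k (x.1 - y.1) x.2 y.2 * g y ∂mu σ
  bf : ∀ x : ℝ × M, x.1 < 0 → f x ≤ wt Cb b x.1
  bV : ∀ x : ℝ × M, x.1 < 0 → V x ≤ wt Cb b x.1
  bg : ∀ x : ℝ × M, x.1 < 0 → g x ≤ wt Cb b x.1
  uc : ∀ γ : ℝ≥0∞, γ ≠ 0 → ∀ᶠ l in 𝓝[>] (0 : ℝ), ∀ x : ℝ × M, x.1 < 0 → f x ≤ f (sh l x) + γ

variable [IsFiniteMeasure σ] {K : CylKernel M σ a}

theorem lintegral_wt_ne_top {b : ℝ} (hb : 0 < b) (C : ℝ) :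
    ∫⁻ x in Hs M 0, wt C b x.1 ∂mu σ ≠ ⊤ := lintegral_exp_Hs hb C

namespace Side

variable {p s α Cb b : ℝ} {f V g : ℝ × M → ℝ≥0∞}

omit [IsFiniteMeasure σ] in
theorem bf' (S : Side K p s α Cb b f V g) {x : ℝ × M} (hx : x.1 < 0) : f x ≤ ENNReal.ofReal Cb :=
  (S.bf x hx).trans (wt_le S.hC S.hb.le hx)

omit [IsFiniteMeasure σ] in
theorem bV' (S : Side K p s α Cb b f V g) {x : ℝ × M} (hx : x.1 < 0) : V x ≤ ENNReal.ofReal Cb :=
  (S.bV x hx).trans (wt_le S.hC S.hb.le hx)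

omit [IsFiniteMeasure σ] in
theorem bg' (S : Side K p s α Cb b f V g) {x : ℝ × M} (hx : x.1 < 0) : g x ≤ ENNReal.ofReal Cb :=
  (S.bg x hx).trans (wt_le S.hC S.hb.le hx)

theorem F_ne_top (S : Side K p s α Cb b f V g) : ∫⁻ x in Hs M 0, f x * V x ∂mu σ ≠ ⊤ := by
  have h : ∫⁻ x in Hs M 0, f x * V x ∂mu σ ≤
      ∫⁻ x in Hs M 0, ENNReal.ofReal Cb * wt Cb b x.1 ∂mu σ :=
    setLIntegral_mono' (measurableSet_Hs 0) fun x hx => mul_le_mul' (S.bf' hx) (S.bV x hx)
  refine ne_top_of_le_ne_top ?_ h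
  rw [lintegral_const_mul' _ _ ENNReal.ofReal_ne_top]
  exact ENNReal.mul_ne_top ENNReal.ofReal_ne_top (lintegral_wt_ne_top S.hb Cb)

theorem V_eq (S : Side K p s α Cb b f V g) (x : ℝ × M) :
    V x = T σ (K.kd 0) g x + T σ (K.km 0) (fun y => g (rf y)) x := by
  rw [S.hV, K.pot_split S.mg]

theorem V_rf_eq (S : Side K p s α Cb b f V g) (x : ℝ × M) :
    V (rf x) = T σ (K.km 0) g x + T σ (K.kd 0) (fun y => g (rf y)) x := by
  rw [S.hV, K.pot_split_rf S.mg]

/-- Lower bound for the pressure of the solution (finite shift). -/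
theorem stepA (S : Side K p s α Cb b f V g) {l : ℝ} (hl : 0 < l) :
    ap p * ∫⁻ x in Hs M (-l), f x * V x ∂mu σ +
      ∫⁻ x in Hs M 0, f (sh l x) * T σ (K.kap l) (fun y => g (rf y)) x ∂mu σ +
      ∫⁻ x in Hs M (-l), f x * T σ (K.kd l) g x ∂mu σ ≤
    ap p * ENNReal.ofReal (Real.exp (-(s * l))) * ∫⁻ x in Hs M 0, f x * V x ∂mu σ +
      ∫⁻ x in Hs M (-l), f x * T σ (K.kd 0) g x ∂mu σ := by
  have mgr : Measurable (fun y => g (rf y)) := S.mg.comp measurable_rf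
  have mfs : Measurable (fun x => f (sh l x)) := S.mf.comp (measurable_sh l)
  have mVs : Measurable (fun x => V (sh l x)) := S.mV.comp (measurable_sh l)
  have mT := fun l' => measurable_T (σ := σ) (K.mk_kd l') S.mg
  have hfin : ∫⁻ x in Hs M (-l), f x * V x ∂mu σ ≠ ⊤ := by
    refine ne_top_of_le_ne_top S.F_ne_top ?_
    rw [Hs_split hl.le]; exact le_self_add
  have e1 : ∫⁻ x in Hs M 0, f (sh l x) * V (sh l x) ∂mu σ = ∫⁻ x in Hs M (-l), f x * V x ∂mu σ := by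
    rw [setLIntegral_sh 0 l (S.mf.fun_mul S.mV), zero_sub]
  have e2 : ∫⁻ x in Hs M 0, f (sh l x) * T σ (K.kd 0) g x ∂mu σ =
      ∫⁻ x in Hs M (-l), f x * T σ (K.kd l) g x ∂mu σ := by
    rw [← zero_sub l, ← setLIntegral_sh 0 l (S.mf.fun_mul (mT l))]
    simp_rw [K.T_kd_sh, sub_self]
  have e3 : ∫⁻ x in Hs M 0, f (sh l x) * T σ (K.kd (-l)) g x ∂mu σ =
      ∫⁻ x in Hs M (-l), f x * T σ (K.kd 0) g x ∂mu σ := by
    rw [← zero_sub l, ← setLIntegral_sh 0 l (S.mf.fun_mul (mT 0))]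
    simp_rw [K.T_kd_sh]
  have id1 : ∫⁻ x in Hs M 0, f (sh l x) * V x ∂mu σ +
      ∫⁻ x in Hs M 0, f (sh l x) * T σ (K.kd (-l)) g x ∂mu σ =
      ∫⁻ x in Hs M 0, f (sh l x) * V (sh l x) ∂mu σ +
      ∫⁻ x in Hs M 0, f (sh l x) * T σ (K.kd 0) g x ∂mu σ +
      ∫⁻ x in Hs M 0, f (sh l x) * T σ (K.kap l) (fun y => g (rf y)) x ∂mu σ := by
    rw [← lintegral_add_left (mfs.fun_mul S.mV),
      ← lintegral_add_left (mfs.fun_mul mVs),
      ← lintegral_add_right _ (mfs.fun_mul (measurable_T (K.mk_kap l) mgr))]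
    refine setLIntegral_congr_fun (measurableSet_Hs 0) fun x hx => ?_
    simp only [← mul_add]
    rw [K.shift_id hl.le mgr (fun x _ => S.V_eq x) hx]
  have yo : ∫⁻ x in Hs M 0, f (sh l x) * V x ∂mu σ ≤
      ap p * ENNReal.ofReal (Real.exp (-(s * l))) * ∫⁻ x in Hs M 0, f x * V x ∂mu σ +
      aq p * ∫⁻ x in Hs M 0, f (sh l x) * V (sh l x) ∂mu σ := by
    rw [← lintegral_const_mul _ (S.mf.fun_mul S.mV),
      ← lintegral_const_mul _ (mfs.fun_mul mVs),
      ← lintegral_add_left ((S.mf.fun_mul S.mV).const_mul _)]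
    refine lintegral_mono fun x => ?_
    have hw : wt α s (sh l x).1 = ENNReal.ofReal (Real.exp (-(s * l))) * wt α s x.1 := by
      rw [sh_fst, sub_eq_add_neg, wt_add, mul_neg]
    have h := young_w S.hp (wt α s (sh l x).1) (V (sh l x)) (V x)
    rw [← S.hf] at h
    refine h.trans (le_of_eq ?_)
    rw [hw, S.hf x]
    ring
  rw [e1, e2, e3] at id1
  rw [e1] at yo
  refine (ENNReal.add_le_add_iff_right (ENNReal.mul_ne_top (aq_ne_top p) hfin)).1 ?_
  calc _ = (ap p * ∫⁻ x in Hs M (-l), f x * V x ∂mu σ + aq p * ∫⁻ x in Hs M (-l), f x * V x ∂mu σ) +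
        ∫⁻ x in Hs M (-l), f x * T σ (K.kd l) g x ∂mu σ +
        ∫⁻ x in Hs M 0, f (sh l x) * T σ (K.kap l) (fun y => g (rf y)) x ∂mu σ := by ring
    _ = _ := by rw [← split_ap S.hp, ← id1]
    _ ≤ _ := add_le_add_left yo _
    _ = _ := by ring

/-- Total mass of the tension kernel against the outer sources. -/
theorem kap_mass (S : Side K p s α Cb b f V g) {l : ℝ} (hl : 0 < l) :
    ∫⁻ x in Hs M 0, T σ (K.kap l) (fun y => g (rf y)) x ∂mu σ ≤
      ENNReal.ofReal Cb * σ univ * ENNReal.ofReal l := by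
  have mgr : Measurable (fun y => g (rf y)) := S.mg.comp measurable_rf
  have mT := measurable_T (σ := σ) (K.mk_km 0) mgr
  have hle : ∀ x : ℝ × M, T σ (K.km 0) (fun y => g (rf y)) x ≤ V x := fun x => by
    rw [S.V_eq x]; exact le_add_self
  have h1 : ∫⁻ x in Hs M 0, T σ (K.km 0) (fun y => g (rf y)) x ∂mu σ =
      ∫⁻ x in Hs M (-l), T σ (K.km 0) (fun y => g (rf y)) x ∂mu σ +
      ∫⁻ x in Hs M 0, T σ (K.kap l) (fun y => g (rf y)) x ∂mu σ := by
    have mTs : Measurable (fun x => T σ (K.km 0) (fun y => g (rf y)) (sh l x)) :=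
      mT.comp (measurable_sh l)
    rw [← zero_sub l, ← setLIntegral_sh 0 l mT, ← lintegral_add_left mTs]
    refine setLIntegral_congr_fun (measurableSet_Hs 0) fun x hx => ?_
    rw [K.T_km_sh, T_add_ker (K.mk_km l) mgr x (fun y hy => K.km_eq hl.le hx hy)]
  have hfin : ∫⁻ x in Hs M (-l), T σ (K.km 0) (fun y => g (rf y)) x ∂mu σ ≠ ⊤ := by
    refine ne_top_of_le_ne_top (lintegral_wt_ne_top (σ := σ) S.hb Cb) ?_
    rw [Hs_split hl.le]
    refine le_trans ?_ le_self_add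
    refine setLIntegral_mono' (measurableSet_Hs _) fun x hx => (hle x).trans (S.bV x ?_)
    have : x.1 < -l := hx
    linarith
  rw [Hs_split hl.le] at h1
  rw [← (ENNReal.add_right_inj hfin).1 h1]
  calc _ ≤ ∫⁻ _ in Ly M l, ENNReal.ofReal Cb ∂mu σ :=
        setLIntegral_mono' (measurableSet_Ly l) fun x hx => (hle x).trans (S.bV' hx.2)
    _ = _ := by rw [setLIntegral_const, measure_Ly]; ring

theorem tension_ne_top (S : Side K p s α Cb b f V g) {l : ℝ} (hl : 0 < l) :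
    ∫⁻ x in Hs M 0, f x * T σ (K.kap l) (fun y => g (rf y)) x ∂mu σ ≠ ⊤ := by
  have h : ∫⁻ x in Hs M 0, f x * T σ (K.kap l) (fun y => g (rf y)) x ∂mu σ ≤
      ∫⁻ x in Hs M 0, ENNReal.ofReal Cb * T σ (K.kap l) (fun y => g (rf y)) x ∂mu σ :=
    setLIntegral_mono' (measurableSet_Hs 0) fun x hx => mul_le_mul_left (S.bf' hx) _
  refine ne_top_of_le_ne_top ?_ h
  rw [lintegral_const_mul' _ _ ENNReal.ofReal_ne_top]
  refine ENNReal.mul_ne_top ENNReal.ofReal_ne_top (ne_top_of_le_ne_top ?_ (S.kap_mass hl))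
  exact ENNReal.mul_ne_top (ENNReal.mul_ne_top ENNReal.ofReal_ne_top (measure_ne_top _ _))
    ENNReal.ofReal_ne_top

theorem tension_shift (S : Side K p s α Cb b f V g) {l : ℝ} (hl : 0 < l) {γ : ℝ≥0∞}
    (hγ : ∀ x : ℝ × M, x.1 < 0 → f x ≤ f (sh l x) + γ) :
    ∫⁻ x in Hs M 0, f x * T σ (K.kap l) (fun y => g (rf y)) x ∂mu σ ≤
      ∫⁻ x in Hs M 0, f (sh l x) * T σ (K.kap l) (fun y => g (rf y)) x ∂mu σ +
        ENNReal.ofReal Cb * σ univ * (γ * ENNReal.ofReal l) := by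
  have mgr : Measurable (fun y => g (rf y)) := S.mg.comp measurable_rf
  have mT := measurable_T (σ := σ) (K.mk_kap l) mgr
  calc _ ≤ ∫⁻ x in Hs M 0, (f (sh l x) * T σ (K.kap l) (fun y => g (rf y)) x +
        γ * T σ (K.kap l) (fun y => g (rf y)) x) ∂mu σ := by
        refine setLIntegral_mono' (measurableSet_Hs 0) fun x hx => ?_
        rw [← add_mul]
        exact mul_le_mul_left (hγ x hx) _
    _ = _ := lintegral_add_right _ (mT.const_mul γ)
    _ ≤ _ := by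
        rw [lintegral_const_mul _ mT]
        refine add_le_add_right ((mul_le_mul_right (S.kap_mass hl) γ).trans (le_of_eq ?_)) _
        ring

/-- In the boundary layer the energy of the solution is almost that of the minimal solution. -/
theorem layer (S : Side K p s α Cb b f V g) (ha : 0 < a) {fz z : ℝ × M → ℝ≥0∞}
    (mfz : Measurable fz) (mz : Measurable z)
    (hfz : ∀ x : ℝ × M, x.1 < 0 → fz x = wt α |s| x.1 * z x ^ p)
    (hz : ∀ x : ℝ × M, x.1 < 0 → V x ≤ z x + T σ K.G g x) {l : ℝ} {γ : ℝ≥0∞}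
    (hγ : ∫⁻ ω, ∫⁻ η, ∫⁻ d in Icc (-l) l, K.k d ω η ∂volume ∂σ ∂σ ≤ γ) :
    ap p * ∫⁻ x in Ly M l, f x * V x ∂mu σ ≤
      ap p * ENNReal.ofReal (Real.exp (2 * |s| * l)) * ∫⁻ x in Ly M l, fz x * z x ∂mu σ +
        ENNReal.ofReal Cb * ENNReal.ofReal Cb * (γ * ENNReal.ofReal l) := by
  have mk : Measurable fun x => ∫⁻ y, K.kn l x y ∂mu σ :=
    Measurable.lintegral_prod_right' (K.mk_kn l)
  calc _ = ∫⁻ x in Ly M l, ap p * (f x * V x) ∂mu σ :=
        (lintegral_const_mul _ (S.mf.fun_mul S.mV)).symm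
    _ ≤ ∫⁻ x in Ly M l, (ap p * ENNReal.ofReal (Real.exp (2 * |s| * l)) * (fz x * z x) +
          ENNReal.ofReal Cb * ENNReal.ofReal Cb * ∫⁻ y, K.kn l x y ∂mu σ) ∂mu σ := by
        refine setLIntegral_mono' (measurableSet_Ly l) fun x hx => ?_
        have hx0 := hx.2
        have hfin : aq p * (f x * V x) ≠ ⊤ := ENNReal.mul_ne_top (aq_ne_top p)
          (ne_top_of_le_ne_top (ENNReal.mul_ne_top ENNReal.ofReal_ne_top ENNReal.ofReal_ne_top)
            (mul_le_mul' (S.bf' hx0) (S.bV' hx0)))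
        have hG : T σ K.G g x ≤ ENNReal.ofReal Cb * ∫⁻ y, K.kn l x y ∂mu σ := by
          calc T σ K.G g x ≤ ∫⁻ y in Hs M 0, ENNReal.ofReal Cb * K.G x y ∂mu σ :=
                setLIntegral_mono' (measurableSet_Hs 0) fun y hy => by
                  rw [mul_comm]; exact mul_le_mul_left (S.bg' hy) _
            _ = ENNReal.ofReal Cb * ∫⁻ y in Hs M 0, K.G x y ∂mu σ :=
                lintegral_const_mul' _ _ ENNReal.ofReal_ne_top
            _ ≤ _ := mul_le_mul_right (K.lintegral_G_le ha hx) _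
        have hw : wt α s x.1 ≤ ENNReal.ofReal (Real.exp (2 * |s| * l)) * wt α |s| x.1 := by
          have e : 2 * |s| * l = |s| * (2 * l) := by ring
          rw [e, ← wt_add]
          refine wt_mono S.hα ?_
          have h1 := hx.1
          have h2 := neg_abs_le s
          have h3 := abs_nonneg s
          nlinarith
        have hy := young_w S.hp (wt α s x.1) (V x) (z x)
        rw [← S.hf] at hy
        refine (ENNReal.add_le_add_iff_right hfin).1 ?_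
        calc ap p * (f x * V x) + aq p * (f x * V x) = f x * V x := (split_ap S.hp _).symm
          _ ≤ f x * (z x + T σ K.G g x) := mul_le_mul_right (hz x hx0) _
          _ = f x * z x + f x * T σ K.G g x := mul_add _ _ _
          _ ≤ (ap p * (wt α s x.1 * z x ^ p * z x) + aq p * (f x * V x)) +
              ENNReal.ofReal Cb * (ENNReal.ofReal Cb * ∫⁻ y, K.kn l x y ∂mu σ) :=
              add_le_add hy (mul_le_mul' (S.bf' hx0) hG)
          _ ≤ (ap p * ((ENNReal.ofReal (Real.exp (2 * |s| * l)) * wt α |s| x.1) * z x ^ p * z x) +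
              aq p * (f x * V x)) +
              ENNReal.ofReal Cb * (ENNReal.ofReal Cb * ∫⁻ y, K.kn l x y ∂mu σ) := by gcongr
          _ = _ := by rw [hfz x hx0]; ring
    _ = _ := lintegral_add_left ((mfz.fun_mul mz).const_mul _) _
    _ ≤ _ := by
        rw [lintegral_const_mul _ (mfz.fun_mul mz), lintegral_const_mul _ mk, K.lintegral_Ly_kn]
        rw [mul_comm γ]
        gcongr

end Side

/-- Upper bound for the pressure of the minimal solution (finite shift). -/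
theorem stepB {p s α : ℝ} (hp : 0 < p) {fz gz z ge : ℝ × M → ℝ≥0∞}
    (mfz : Measurable fz) (mz : Measurable z) (mge : Measurable ge)
    (hfz : ∀ x : ℝ × M, x.1 < 0 → fz x = wt α |s| x.1 * z x ^ p)
    (hz : ∀ x : ℝ × M, x.1 < 0 → z x = T σ (K.kd 0) gz x + T σ (K.km 0) ge x)
    (hfin : ∫⁻ x in Hs M 0, fz x * z x ∂mu σ ≠ ⊤) {l : ℝ} (hl : 0 < l) :
    ap p * ∫⁻ x in Hs M 0, fz x * z x ∂mu σ +
      ap p * ENNReal.ofReal (Real.exp (2 * |s| * l)) * ∫⁻ x in Ly M l, fz x * z x ∂mu σ +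
      ∫⁻ x in Hs M 0, fz x * T σ (K.kd (-l)) gz x ∂mu σ ≤
    ∫⁻ x in Hs M 0, fz x * T σ (K.kd 0) gz x ∂mu σ +
      ∫⁻ x in Hs M 0, fz x * T σ (K.kap l) ge x ∂mu σ +
      ap p * ENNReal.ofReal (Real.exp (2 * |s| * l)) * ∫⁻ x in Hs M 0, fz x * z x ∂mu σ := by
  have mzs : Measurable (fun x => z (sh l x)) := mz.comp (measurable_sh l)
  have mfs : Measurable (fun x => fz (sh l x)) := mfz.comp (measurable_sh l)
  have id1 : ∫⁻ x in Hs M 0, fz x * z x ∂mu σ +
      ∫⁻ x in Hs M 0, fz x * T σ (K.kd (-l)) gz x ∂mu σ =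
      ∫⁻ x in Hs M 0, fz x * z (sh l x) ∂mu σ +
      ∫⁻ x in Hs M 0, fz x * T σ (K.kd 0) gz x ∂mu σ +
      ∫⁻ x in Hs M 0, fz x * T σ (K.kap l) ge x ∂mu σ := by
    rw [← lintegral_add_left (mfz.fun_mul mz), ← lintegral_add_left (mfz.fun_mul mzs),
      ← lintegral_add_right _ (mfz.fun_mul (measurable_T (K.mk_kap l) mge))]
    refine setLIntegral_congr_fun (measurableSet_Hs 0) fun x hx => ?_
    simp only [← mul_add]
    rw [K.shift_id hl.le mge hz hx]
  have yo : ∫⁻ x in Hs M 0, fz x * z (sh l x) ∂mu σ ≤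
      ap p * ENNReal.ofReal (Real.exp (2 * |s| * l)) * ∫⁻ x in Hs M (-l), fz x * z x ∂mu σ +
      aq p * ∫⁻ x in Hs M 0, fz x * z x ∂mu σ := by
    rw [← zero_sub l, ← setLIntegral_sh 0 l (mfz.fun_mul mz),
      ← lintegral_const_mul _ (mfz.fun_mul mz),
      ← lintegral_const_mul _ (mfs.fun_mul mzs),
      ← lintegral_add_right _ ((mfz.fun_mul mz).const_mul _)]
    refine setLIntegral_mono' (measurableSet_Hs 0) fun x hx => ?_
    have hx0 : x.1 < 0 := hx
    have hw : wt α |s| x.1 ≤ ENNReal.ofReal (Real.exp (2 * |s| * l)) * wt α |s| (sh l x).1 := by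
      have e : wt α |s| x.1 = ENNReal.ofReal (Real.exp (|s| * l)) * wt α |s| (sh l x).1 := by
        rw [← wt_add, sh_fst, sub_add_cancel]
      rw [e]
      refine mul_le_mul_left (ENNReal.ofReal_le_ofReal (Real.exp_le_exp.2 ?_)) _
      have := abs_nonneg s
      nlinarith
    have h := young_w hp (wt α |s| x.1) (z x) (z (sh l x))
    rw [← hfz x hx0] at h
    refine h.trans ?_
    rw [hfz (sh l x) (by simp; linarith)]
    calc _ ≤ ap p * ((ENNReal.ofReal (Real.exp (2 * |s| * l)) * wt α |s| (sh l x).1) *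
          z (sh l x) ^ p * z (sh l x)) + aq p * (fz x * z x) := by gcongr
      _ = _ := by ring
  refine (ENNReal.add_le_add_iff_right (ENNReal.mul_ne_top (aq_ne_top p) hfin)).1 ?_
  calc _ = (ap p * ∫⁻ x in Hs M 0, fz x * z x ∂mu σ + aq p * ∫⁻ x in Hs M 0, fz x * z x ∂mu σ) +
        ∫⁻ x in Hs M 0, fz x * T σ (K.kd (-l)) gz x ∂mu σ +
        ap p * ENNReal.ofReal (Real.exp (2 * |s| * l)) * ∫⁻ x in Ly M l, fz x * z x ∂mu σ := by ring
    _ = _ := by rw [← split_ap hp, id1]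
    _ ≤ (ap p * ENNReal.ofReal (Real.exp (2 * |s| * l)) * ∫⁻ x in Hs M (-l), fz x * z x ∂mu σ +
        aq p * ∫⁻ x in Hs M 0, fz x * z x ∂mu σ) +
        ∫⁻ x in Hs M 0, fz x * T σ (K.kd 0) gz x ∂mu σ +
        ∫⁻ x in Hs M 0, fz x * T σ (K.kap l) ge x ∂mu σ +
        ap p * ENNReal.ofReal (Real.exp (2 * |s| * l)) * ∫⁻ x in Ly M l, fz x * z x ∂mu σ := by
        gcongr
    _ = _ := by
        conv_rhs => rw [Hs_split hl.le (fun x => fz x * z x)]
        conv_lhs => rw [Hs_split hl.le (fun x => fz x * z x)]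
        ring

end Crest.Agent.R77
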