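import Mathlib

/-!
# Row 77: weak formulation of `-Δ u = f` across the origin, for radial test functions
-/

set_option autoImplicit false

open MeasureTheory Set Filter Topology Laplacian InnerProductSpace
open scoped ENNReal

namespace Crest.Agent.R77

section aux

variable {E : Type*} [NormedAddCommGroup E] [InnerProductSpace ℝ E]

/-- two continuous directional derivatives -/
structure WkT2 (v : E) (φ φ1 φ2 : E → ℝ) : Prop where
  c0 : Continuous φ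
  c1 : Continuous φ1
  c2 : Continuous φ2
  d1 : ∀ y, HasLineDerivAt ℝ φ (φ1 y) y v
  d2 : ∀ y, HasLineDerivAt ℝ φ1 (φ2 y) y v

theorem wk_mul {v y : E} {φ χ : E → ℝ} {a b : ℝ} (h : HasLineDerivAt ℝ φ a y v)
    (h' : HasLineDerivAt ℝ χ b y v) :
    HasLineDerivAt ℝ (fun y => φ y * χ y) (a * χ y + φ y * b) y v := by
  have := HasDerivAt.mul h h'
  simp only [zero_smul, add_zero] at this
  exact this

theorem WkT2.mul {v : E} {φ φ1 φ2 χ χ1 χ2 : E → ℝ} (h : WkT2 v φ φ1 φ2) (h' : WkT2 v χ χ1 χ2) :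
    WkT2 v (fun y => φ y * χ y) (fun y => φ1 y * χ y + φ y * χ1 y)
      (fun y => φ2 y * χ y + 2 * (φ1 y * χ1 y) + φ y * χ2 y) where
  c0 := h.c0.mul h'.c0
  c1 := (h.c1.mul h'.c0).add (h.c0.mul h'.c1)
  c2 := ((h.c2.mul h'.c0).add (continuous_const.mul (h.c1.mul h'.c1))).add (h.c0.mul h'.c2)
  d1 y := wk_mul (h.d1 y) (h'.d1 y)
  d2 y := by
    have : HasLineDerivAt ℝ (fun y => φ1 y * χ y + φ y * χ1 y) _ y v :=
      HasDerivAt.add (wk_mul (h.d2 y) (h'.d1 y)) (wk_mul (h.d1 y) (h'.d2 y))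
    convert this using 1
    ring

theorem WkT2.sub {v : E} {φ φ1 φ2 χ χ1 χ2 : E → ℝ} (h : WkT2 v φ φ1 φ2) (h' : WkT2 v χ χ1 χ2) :
    WkT2 v (fun y => φ y - χ y) (fun y => φ1 y - χ1 y) (fun y => φ2 y - χ2 y) where
  c0 := h.c0.sub h'.c0
  c1 := h.c1.sub h'.c1
  c2 := h.c2.sub h'.c2
  d1 y := HasDerivAt.sub (h.d1 y) (h'.d1 y)
  d2 y := HasDerivAt.sub (h.d2 y) (h'.d2 y)

theorem wk_inner (v x0 y : E) : HasLineDerivAt ℝ (fun y => ⟪y - x0, v⟫_ℝ) (‖v‖ ^ 2) y v := by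
  have h : HasFDerivAt (fun y => ⟪v, y - x0⟫_ℝ) (innerSL ℝ v) y := by
    have := ((innerSL ℝ v).hasFDerivAt (x := y)).sub_const ⟪v, x0⟫_ℝ
    simpa [inner_sub_right] using this
  have := h.hasLineDerivAt v
  simp only [innerSL_apply_apply, real_inner_self_eq_norm_sq] at this
  simpa only [real_inner_comm] using this

theorem wk_comp (v x0 y : E) {ψ : ℝ → ℝ} {a : ℝ} (h : HasDerivAt ψ a (‖y - x0‖ ^ 2)) :
    HasLineDerivAt ℝ (fun y => ψ (‖y - x0‖ ^ 2)) (2 * ⟪y - x0, v⟫_ℝ * a) y v := by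
  have h1 : HasFDerivAt (fun y => ‖y - x0‖ ^ 2) _ y := ((hasFDerivAt_id y).sub_const x0).norm_sq
  have h2 : HasLineDerivAt ℝ (fun y => ψ (‖y - x0‖ ^ 2)) _ y v :=
    (h.comp_hasFDerivAt y h1).hasLineDerivAt v
  convert h2 using 1
  simp [inner_sub_left]
  ring

theorem wk_rad (v x0 : E) {ψ ψ1 ψ2 : ℝ → ℝ} (h1 : ∀ w, 0 ≤ w → HasDerivAt ψ (ψ1 w) w)
    (h2 : ∀ w, 0 ≤ w → HasDerivAt ψ1 (ψ2 w) w) (h3 : ContinuousOn ψ2 (Ici 0)) :
    WkT2 v (fun y => ψ (‖y - x0‖ ^ 2)) (fun y => 2 * ⟪y - x0, v⟫_ℝ * ψ1 (‖y - x0‖ ^ 2))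
      (fun y => 2 * ‖v‖ ^ 2 * ψ1 (‖y - x0‖ ^ 2) + 4 * ⟪y - x0, v⟫_ℝ ^ 2 * ψ2 (‖y - x0‖ ^ 2)) := by
  have hc : Continuous fun y : E => ‖y - x0‖ ^ 2 := by fun_prop
  have c0 : Continuous fun y : E => ψ (‖y - x0‖ ^ 2) :=
    ContinuousOn.comp_continuous (s := Ici 0)
      (fun w hw => (h1 w hw).continuousAt.continuousWithinAt) hc fun y => mem_Ici.2 (sq_nonneg _)
  have c1 : Continuous fun y : E => ψ1 (‖y - x0‖ ^ 2) :=
    ContinuousOn.comp_continuous (s := Ici 0)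
      (fun w hw => (h2 w hw).continuousAt.continuousWithinAt) hc fun y => mem_Ici.2 (sq_nonneg _)
  have c2 : Continuous fun y : E => ψ2 (‖y - x0‖ ^ 2) :=
    h3.comp_continuous hc fun y => mem_Ici.2 (sq_nonneg _)
  have ci : Continuous fun y : E => ⟪y - x0, v⟫_ℝ := by fun_prop
  refine ⟨c0, (continuous_const.mul ci).mul c1,
    (continuous_const.mul c1).add ((continuous_const.mul (ci.pow 2)).mul c2),
    fun y => wk_comp v x0 y (h1 _ (sq_nonneg _)), fun y => ?_⟩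
  have hi : HasLineDerivAt ℝ (fun y => 2 * ⟪y - x0, v⟫_ℝ) (2 * ‖v‖ ^ 2) y v :=
    HasDerivAt.const_mul 2 (wk_inner v x0 y)
  have := wk_mul hi (wk_comp v x0 y (h2 _ (sq_nonneg _)))
  convert this using 1
  ring

variable [FiniteDimensional ℝ E] [MeasurableSpace E] [BorelSpace E]

theorem wk_int {K : Set E} (hK : IsCompact K) {g h : E → ℝ} (hg : ContinuousOn g K)
    (hh : Continuous h) (h0 : ∀ y ∉ K, h y = 0) : Integrable fun y => g y * h y := by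
  refine (integrableOn_iff_integrable_of_support_subset (s := K) fun y hy => ?_).1
    ((hg.mul hh.continuousOn).integrableOn_compact hK)
  by_contra hn
  exact hy (by simp [h0 y hn])

theorem wk_parts {v : E} {K : Set E} (hK : IsCompact K) {u u1 u2 φ φ1 φ2 : E → ℝ}
    (c0 : ContinuousOn u K) (c1 : ContinuousOn u1 K) (c2 : ContinuousOn u2 K)
    (d1 : ∀ y ∈ K, HasLineDerivAt ℝ u (u1 y) y v) (d2 : ∀ y ∈ K, HasLineDerivAt ℝ u1 (u2 y) y v)
    (h : WkT2 v φ φ1 φ2) (h0 : ∀ y ∉ K, φ y = 0 ∧ φ1 y = 0 ∧ φ2 y = 0) :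
    ∫ y, u y * φ2 y = ∫ y, u2 y * φ y := by
  have hs : ∀ {g : E → ℝ}, (∀ y ∉ K, g y = 0) → tsupport g ⊆ K := fun hg =>
    closure_minimal (fun y hy => by by_contra hn; exact hy (hg y hn)) hK.isClosed
  have e1 := integral_bilinear_hasLineDerivAt_right_eq_neg_left_of_integrable (μ := volume)
    (B := ContinuousLinearMap.mul ℝ ℝ) (f := u) (f' := u1) (g := φ1) (g' := φ2) (v := v)
    (wk_int hK c1 h.c1 fun y hy => (h0 y hy).2.1) (wk_int hK c0 h.c2 fun y hy => (h0 y hy).2.2)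
    (wk_int hK c0 h.c1 fun y hy => (h0 y hy).2.1)
    (fun y hy => d1 y (hs (fun y hy => (h0 y hy).2.1) hy)) fun y _ => h.d2 y
  have e2 := integral_bilinear_hasLineDerivAt_right_eq_neg_left_of_integrable (μ := volume)
    (B := ContinuousLinearMap.mul ℝ ℝ) (f := u1) (f' := u2) (g := φ) (g' := φ1) (v := v)
    (wk_int hK c2 h.c0 fun y hy => (h0 y hy).1) (wk_int hK c1 h.c1 fun y hy => (h0 y hy).2.1)
    (wk_int hK c1 h.c0 fun y hy => (h0 y hy).1)
    (fun y hy => d2 y (hs (fun y hy => (h0 y hy).1) hy)) fun y _ => h.d1 y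
  simp only [ContinuousLinearMap.mul_apply'] at e1 e2
  rw [e1, e2, neg_neg]

end aux

theorem wk_zero {g : ℝ → ℝ} {a c w : ℝ} {U : Set ℝ} (hU : IsOpen U) (hw : w ∈ U)
    (h : HasDerivAt g a w) (hc : ∀ x ∈ U, g x = c) : a = 0 :=
  h.unique ((hasDerivAt_const w c).congr_of_eventuallyEq
    (Filter.eventually_of_mem (hU.mem_nhds hw) hc))

theorem wk_cut : ∃ (S S1 S2 : ℝ → ℝ) (B : ℝ), (∀ w, HasDerivAt S (S1 w) w) ∧
    (∀ w, HasDerivAt S1 (S2 w) w) ∧ Continuous S2 ∧ (∀ w, 0 ≤ S w ∧ S w ≤ 1) ∧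
    (∀ w < 1, S w = 1 ∧ S1 w = 0 ∧ S2 w = 0) ∧ (∀ w > 2, S w = 0 ∧ S1 w = 0 ∧ S2 w = 0) ∧
    ∀ w ∈ Icc (0 : ℝ) 4, |S1 w| ≤ B ∧ |S2 w| ≤ B := by
  let S : ℝ → ℝ := fun w => Real.smoothTransition (2 - w)
  have hS : ContDiff ℝ 2 S :=
    (Real.smoothTransition.contDiff (n := 2)).comp (contDiff_const.sub contDiff_id)
  have hS1 : ContDiff ℝ 1 (deriv S) := hS.deriv'
  have d1 : ∀ w, HasDerivAt S (deriv S w) w := fun w =>
    (hS.differentiable (by norm_num) w).hasDerivAt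
  have d2 : ∀ w, HasDerivAt (deriv S) (deriv (deriv S) w) w := fun w =>
    (hS1.differentiable (by norm_num) w).hasDerivAt
  have c2 : Continuous (deriv (deriv S)) := hS1.continuous_deriv le_rfl
  obtain ⟨B1, hB1⟩ := isCompact_Icc.exists_bound_of_continuousOn
    (hS1.continuous.continuousOn (s := Icc (0 : ℝ) 4))
  obtain ⟨B2, hB2⟩ := isCompact_Icc.exists_bound_of_continuousOn
    (c2.continuousOn (s := Icc (0 : ℝ) 4))
  have a1 : ∀ w ∈ Iio (1 : ℝ), S w = 1 := fun w hw =>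
    Real.smoothTransition.one_of_one_le (by have : w < 1 := hw; linarith)
  have a2 : ∀ w ∈ Iio (1 : ℝ), deriv S w = 0 := fun w hw => wk_zero isOpen_Iio hw (d1 w) a1
  have b1 : ∀ w ∈ Ioi (2 : ℝ), S w = 0 := fun w hw =>
    Real.smoothTransition.zero_of_nonpos (by have : 2 < w := hw; linarith)
  have b2 : ∀ w ∈ Ioi (2 : ℝ), deriv S w = 0 := fun w hw => wk_zero isOpen_Ioi hw (d1 w) b1
  exact ⟨S, deriv S, deriv (deriv S), max B1 B2, d1, d2, c2,
    fun w => ⟨Real.smoothTransition.nonneg _, Real.smoothTransition.le_one _⟩,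
    fun w hw => ⟨a1 w hw, a2 w hw, wk_zero isOpen_Iio hw (d2 w) a2⟩,
    fun w hw => ⟨b1 w hw, b2 w hw, wk_zero isOpen_Ioi hw (d2 w) b2⟩,
    fun w hw => ⟨(hB1 w hw).trans (le_max_left _ _), (hB2 w hw).trans (le_max_right _ _)⟩⟩

/-- the cutoff functions near the origin -/
theorem wk_chi {E : Type*} [NormedAddCommGroup E] [InnerProductSpace ℝ E] :
    ∃ (χ : ℝ → E → ℝ) (B : ℝ), 0 ≤ B ∧ (∀ ε y, 0 ≤ χ ε y ∧ χ ε y ≤ 1) ∧
      ∀ ε, 0 < ε → ε ≤ 1 → ∀ v : E, ‖v‖ = 1 → ∃ χ1 χ2, WkT2 v (χ ε) χ1 χ2 ∧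
        (∀ y, ‖y‖ < ε → χ ε y = 1 ∧ χ1 y = 0 ∧ χ2 y = 0) ∧
        (∀ y, 2 * ε < ‖y‖ → χ ε y = 0 ∧ χ1 y = 0 ∧ χ2 y = 0) ∧
        ∀ y, ‖y‖ ≤ 2 * ε → |χ1 y| ≤ B / ε ^ 2 ∧ |χ2 y| ≤ B / ε ^ 2 := by
  obtain ⟨S, S1, S2, B, d1, d2, c2, h01, hlo, hhi, hB⟩ := wk_cut
  have hB0 : 0 ≤ B := (abs_nonneg _).trans (hB 0 ⟨le_rfl, by norm_num⟩).1
  refine ⟨fun ε y => S (‖y - 0‖ ^ 2 / ε ^ 2), 18 * B, by positivity, fun ε y => h01 _,
    fun ε hε hε1 v hv => ⟨_, _, wk_rad v 0 (ψ := fun w => S (w / ε ^ 2))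
      (ψ1 := fun w => S1 (w / ε ^ 2) / ε ^ 2) (ψ2 := fun w => S2 (w / ε ^ 2) / ε ^ 2 / ε ^ 2)
      (fun w _ => ?_) (fun w _ => ?_) (by fun_prop), fun y hy => ?_, fun y hy => ?_,
      fun y hy => ?_⟩⟩
  · have : HasDerivAt (fun w => S (w / ε ^ 2)) _ w :=
      (d1 (w / ε ^ 2)).comp w ((hasDerivAt_id w).div_const (ε ^ 2))
    convert this using 1
    ring
  · have : HasDerivAt (fun w => S1 (w / ε ^ 2) / ε ^ 2) _ w :=
      ((d2 (w / ε ^ 2)).comp w ((hasDerivAt_id w).div_const (ε ^ 2))).div_const (ε ^ 2)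
    convert this using 1
    ring
  · have : ‖y - 0‖ ^ 2 / ε ^ 2 < 1 := by
      rw [sub_zero, div_lt_one (by positivity)]
      exact pow_lt_pow_left₀ hy (norm_nonneg _) two_ne_zero
    obtain ⟨a, b, c⟩ := hlo _ this
    simp only [a, b, c, zero_div, mul_zero, add_zero, and_self]
  · have : 2 < ‖y - 0‖ ^ 2 / ε ^ 2 := by
      rw [sub_zero, lt_div_iff₀ (by positivity)]
      nlinarith
    obtain ⟨a, b, c⟩ := hhi _ this
    simp only [a, b, c, zero_div, mul_zero, add_zero, and_self]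
  · have h4 : ‖y - 0‖ ^ 2 / ε ^ 2 ∈ Icc (0 : ℝ) 4 := by
      refine ⟨by positivity, ?_⟩
      rw [sub_zero, div_le_iff₀ (by positivity)]
      nlinarith [norm_nonneg y]
    obtain ⟨a, b⟩ := hB _ h4
    have hi : |⟪y - 0, v⟫_ℝ| ≤ 2 * ε := by
      refine (abs_real_inner_le_norm _ _).trans ?_
      rwa [sub_zero, hv, mul_one]
    have hi2 : ⟪y - 0, v⟫_ℝ ^ 2 ≤ 4 * ε ^ 2 := by
      rw [← sq_abs]
      nlinarith [abs_nonneg ⟪y - 0, v⟫_ℝ]
    have hε2 : 0 < ε ^ 2 := by positivity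
    constructor
    · rw [abs_mul, abs_mul, abs_div, abs_of_pos hε2, abs_two, ← mul_div_assoc]
      gcongr
      have := mul_le_mul (hi.trans (by linarith : 2 * ε ≤ 2)) a (abs_nonneg _) zero_le_two
      nlinarith
    · refine (abs_add_le _ _).trans ?_
      simp only [abs_mul, abs_div, abs_of_pos hε2, hv, one_pow, mul_one, abs_two,
        abs_pow, sq_abs]
      rw [show |(4 : ℝ)| = 4 by norm_num]
      calc _ ≤ 2 * (B / ε ^ 2) + 4 * (4 * ε ^ 2) * (B / ε ^ 2 / ε ^ 2) := by gcongr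
        _ = _ := by field_simp; ring

/-- one direction: the error term is small -/
theorem wk_err {n : ℕ} (hn : 2 ≤ n) {u g : EuclideanSpace ℝ (Fin n) → ℝ} {ε η C : ℝ}
    (hε : 0 < ε) (hε1 : ε ≤ 1) (hη : 0 ≤ η) (hC : 0 ≤ C) (hu : ∀ y, ‖y‖ ≤ 2 * ε → |u y| ≤ η)
    (hg : ∀ y, ‖y‖ ≤ 2 * ε → |g y| ≤ C / ε ^ 2) (hg0 : ∀ y, 2 * ε < ‖y‖ → g y = 0) :
    |∫ y, u y * g y| ≤
      η * (C * (volume.real (Metric.closedBall (0 : EuclideanSpace ℝ (Fin n)) 1) * 2 ^ n)) := by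
  rw [← setIntegral_eq_integral_of_forall_compl_eq_zero (s := Metric.closedBall 0 (2 * ε))
    fun y hy => by rw [hg0 y (by simpa using hy), mul_zero]]
  have h1 := norm_setIntegral_le_of_norm_le_const (μ := volume) (f := fun y => u y * g y)
    (s := Metric.closedBall (0 : EuclideanSpace ℝ (Fin n)) (2 * ε)) (C := η * (C / ε ^ 2))
    measure_closedBall_lt_top fun y hy => by
      have hy' : ‖y‖ ≤ 2 * ε := by simpa using hy
      rw [Real.norm_eq_abs, abs_mul]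
      exact mul_le_mul (hu y hy') (hg y hy') (abs_nonneg _) hη
  refine h1.trans ?_
  rw [Measure.addHaar_real_closedBall' _ _ (by positivity), finrank_euclideanSpace_fin, mul_pow,
    mul_assoc]
  refine mul_le_mul_of_nonneg_left ?_ hη
  have : ε ^ n ≤ ε ^ 2 := pow_le_pow_of_le_one hε.le hε1 hn
  calc _ ≤ C / ε ^ 2 * (2 ^ n * ε ^ 2 *
        volume.real (Metric.closedBall (0 : EuclideanSpace ℝ (Fin n)) 1)) := by gcongr
    _ = _ := by field_simp

/-- Weak form of `-Δ u = f` (classical on `ℝⁿ ∖ 0`, `u` continuous at `0`, `f ≥ 0`, `n ≥ 2`) tested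
against `φ(y) = ψ(‖y - x0‖²)`, where `Δ φ = 2 n ψ' + 4 w ψ''` (`w = ‖y - x0‖²`).

Recipe.
* Let `e i = EuclideanSpace.single i 1` (or `EuclideanSpace.basisFun`).  By
  `laplacian_eq_iteratedFDeriv_orthonormalBasis` and `iteratedFDeriv_two_apply`, for `x ≠ 0`
  `Δ u x = ∑ i, fderiv ℝ (fun y => fderiv ℝ u y (e i)) x (e i)`; `u`, `u_i = fderiv u · (e i)` have line
  derivatives at `x ≠ 0`, and `u_i`, `u_ii` are continuous on `{0}ᶜ`.
* (W0) If `φ, φ_i, φ_ii` are continuous, `HasLineDerivAt ℝ φ (φ_i y) y (e i)`,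
  `HasLineDerivAt ℝ φ_i (φ_ii y) y (e i)` everywhere, and all vanish outside a compact set
  `K ⊆ {0}ᶜ`, then `∫ u * φ_ii = ∫ u_ii * φ` by two applications of
  `integral_bilinear_hasLineDerivAt_right_eq_neg_left_of_integrable` (`B = ContinuousLinearMap.mul ℝ ℝ`;
  integrability: `ContinuousOn.integrableOn_compact` + `integrableOn_iff_integrable_of_support_subset`).
  The same lemma with `u = 1` gives `∫ φ_ii = 0` for any compactly supported such `φ` (no condition at 0).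
* Cut off the origin: `χ_ε(y) = S(‖y‖²/ε²)` with `S : ℝ → ℝ` smooth, `S = 1` on `(-∞,1]`, `S = 0` on
  `[2,∞)`, `0 ≤ S ≤ 1` (e.g. `S w = Real.smoothTransition (2 - w)`; `S', S''` are continuous with compact
  support in `[1,2]`, hence bounded).  Apply (W0) to `φ (1 - χ_ε)`:
  `∫ f φ (1-χ_ε) = -∫ u Δφ + ∫ u Δ(φ χ_ε)` and `∫ u Δ(φ χ_ε) = ∫ (u - u 0) Δ(φ χ_ε)`, where
  `|Δ(φ χ_ε)| ≤ C ε⁻²` (product rule along `e i`; `ε ≤ 1`) on the ball of radius `√2 ε` and `0` outside;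
  the volume of that ball is `C εⁿ ≤ C ε²` (`Measure.addHaar_closedBall`), and `sup |u - u 0| → 0` there.
* So `∫ f φ (1-χ_ε) → -∫ u Δφ`.  Fatou (`lintegral_liminf_le'`) gives integrability of `f φ ≥ 0`
  (a.e.), dominated convergence gives the identity.
Note `ψ1 w = 0` and `ψ2 w = 0` for `w > max W 0` (derivative of a locally zero function). -/
theorem weak_radial {n : ℕ} (hn : 2 ≤ n) (u f : EuclideanSpace ℝ (Fin n) → ℝ)
    (hu : Continuous u) (hu2 : ContDiffOn ℝ 2 u {0}ᶜ)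
    (hf : ∀ x, x ≠ 0 → -(Δ u) x = f x) (hf0 : ∀ x, x ≠ 0 → 0 ≤ f x)
    (hfc : ContinuousOn f {0}ᶜ)
    (x0 : EuclideanSpace ℝ (Fin n)) (ψ ψ1 ψ2 : ℝ → ℝ) (W : ℝ)
    (h1 : ∀ w, 0 ≤ w → HasDerivAt ψ (ψ1 w) w) (h2 : ∀ w, 0 ≤ w → HasDerivAt ψ1 (ψ2 w) w)
    (h3 : ContinuousOn ψ2 (Ici 0)) (hpos : ∀ w, 0 ≤ w → 0 ≤ ψ w)
    (hW : ∀ w, W ≤ w → ψ w = 0) :
    Integrable (fun y => f y * ψ (‖y - x0‖ ^ 2)) ∧
    ∫ y, f y * ψ (‖y - x0‖ ^ 2) =
      -∫ y, u y * (2 * n * ψ1 (‖y - x0‖ ^ 2) + 4 * ‖y - x0‖ ^ 2 * ψ2 (‖y - x0‖ ^ 2)) := by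
  have hψ1 : ∀ w ∈ Ioi (max W 0), ψ1 w = 0 := fun w hw =>
    wk_zero isOpen_Ioi hw (h1 w ((le_max_right _ _).trans (le_of_lt hw)))
      fun x hx => hW x ((le_max_left _ _).trans (le_of_lt hx))
  have hψ2 : ∀ w ∈ Ioi (max W 0), ψ2 w = 0 := fun w hw =>
    wk_zero isOpen_Ioi hw (h2 w ((le_max_right _ _).trans (le_of_lt hw))) hψ1
  set b := EuclideanSpace.basisFun (Fin n) ℝ with hb
  have hb1 : ∀ i, ‖b i‖ = 1 := b.orthonormal.1
  set φ : EuclideanSpace ℝ (Fin n) → ℝ := fun y => ψ (‖y - x0‖ ^ 2) with hφ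
  set φ1 : Fin n → EuclideanSpace ℝ (Fin n) → ℝ :=
    fun i y => 2 * ⟪y - x0, b i⟫_ℝ * ψ1 (‖y - x0‖ ^ 2) with hφ1
  set φ2 : Fin n → EuclideanSpace ℝ (Fin n) → ℝ := fun i y =>
    2 * ‖b i‖ ^ 2 * ψ1 (‖y - x0‖ ^ 2) + 4 * ⟪y - x0, b i⟫_ℝ ^ 2 * ψ2 (‖y - x0‖ ^ 2) with hφ2
  have hT : ∀ i, WkT2 (b i) φ (φ1 i) (φ2 i) := fun i => wk_rad (b i) x0 h1 h2 h3
  have hsum : ∀ y, ∑ i, φ2 i y =
      2 * n * ψ1 (‖y - x0‖ ^ 2) + 4 * ‖y - x0‖ ^ 2 * ψ2 (‖y - x0‖ ^ 2) := fun y => by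
    simp only [hφ2, hb1, Finset.sum_add_distrib, ← Finset.sum_mul, ← Finset.mul_sum,
      b.sum_sq_inner_left]
    simp [mul_comm]
  set K0 := Metric.closedBall x0 (|W| + 1) with hK0
  have hK0c : IsCompact K0 := isCompact_closedBall _ _
  have hout : ∀ i, ∀ y ∉ K0, φ y = 0 ∧ φ1 i y = 0 ∧ φ2 i y = 0 := fun i y hy => by
    have h4 : |W| + 1 < ‖y - x0‖ := by simpa [hK0, dist_eq_norm] using hy
    have h5 : max W 0 < ‖y - x0‖ ^ 2 := by
      have := le_abs_self W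
      have := abs_nonneg W
      refine max_lt ?_ ?_ <;> nlinarith
    simp only [hφ, hφ1, hφ2, hW _ ((le_max_left _ _).trans h5.le), hψ1 _ h5, hψ2 _ h5, mul_zero,
      add_zero, and_self]
  have ho : IsOpen ({0}ᶜ : Set (EuclideanSpace ℝ (Fin n))) := isOpen_compl_singleton
  have hu1 : ContDiffOn ℝ 1 (fderiv ℝ u) {0}ᶜ := hu2.fderiv_of_isOpen ho le_rfl
  have cu1 : ∀ i, ContinuousOn (fun y => fderiv ℝ u y (b i)) {0}ᶜ := fun i =>
    hu1.continuousOn.clm_apply continuousOn_const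
  have cu2 : ∀ i, ContinuousOn (fun y => fderiv ℝ (fderiv ℝ u) y (b i) (b i)) {0}ᶜ := fun i =>
    ((hu1.continuousOn_fderiv_of_isOpen ho le_rfl).clm_apply continuousOn_const).clm_apply
      continuousOn_const
  have du1 : ∀ i y, y ≠ 0 → HasLineDerivAt ℝ (fun y => u y - u 0) (fderiv ℝ u y (b i)) y (b i) :=
    fun i y hy => (((hu2.contDiffAt (ho.mem_nhds hy)).differentiableAt
      (by norm_num)).hasFDerivAt.sub_const (u 0)).hasLineDerivAt _
  have du2 : ∀ i y, y ≠ 0 → HasLineDerivAt ℝ (fun y => fderiv ℝ u y (b i))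
      (fderiv ℝ (fderiv ℝ u) y (b i) (b i)) y (b i) := fun i y hy =>
    ((ContinuousLinearMap.apply ℝ ℝ (b i)).hasFDerivAt.comp y
      ((hu1.contDiffAt (ho.mem_nhds hy)).differentiableAt (by norm_num)).hasFDerivAt).hasLineDerivAt _
  have hlap : ∀ y, y ≠ 0 → f y = -∑ i, fderiv ℝ (fderiv ℝ u) y (b i) (b i) := fun y hy => by
    rw [← hf y hy, laplacian_eq_iteratedFDeriv_orthonormalBasis u b]
    simp only [iteratedFDeriv_two_apply]
    rfl
  have hz : ∀ i, ∫ y, (u y - u 0) * φ2 i y = ∫ y, u y * φ2 i y := fun i => by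
    have h4 := wk_parts hK0c (u := fun _ => u 0) (u1 := fun _ => 0) (u2 := fun _ => 0)
      continuousOn_const continuousOn_const continuousOn_const
      (fun y _ => hasDerivAt_const _ _) (fun y _ => hasDerivAt_const _ _) (hT i) (hout i)
    simp only [sub_mul]
    rw [integral_sub (wk_int hK0c hu.continuousOn (hT i).c2 fun y hy => (hout i y hy).2.2)
      (wk_int hK0c continuousOn_const (hT i).c2 fun y hy => (hout i y hy).2.2), h4]
    simp
  obtain ⟨A, hA0, hA⟩ : ∃ A, 0 ≤ A ∧ ∀ i y, ‖y‖ ≤ 2 → |φ y| ≤ A ∧ |φ1 i y| ≤ A ∧ |φ2 i y| ≤ A := by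
    have hc : Continuous fun y => |φ y| + ∑ i, (|φ1 i y| + |φ2 i y|) :=
      (hT ⟨0, by omega⟩).c0.abs.add
        (continuous_finsetSum _ fun i _ => (hT i).c1.abs.add (hT i).c2.abs)
    obtain ⟨A, hA⟩ := (isCompact_closedBall (0 : EuclideanSpace ℝ (Fin n)) 2
      ).exists_bound_of_continuousOn hc.continuousOn
    refine ⟨max A 0, le_max_right _ _, fun i y hy => ?_⟩
    have h4 := (le_abs_self _).trans ((hA y (by simpa using hy)).trans (le_max_left A 0))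
    have h5 := Finset.single_le_sum (f := fun i => |φ1 i y| + |φ2 i y|)
      (fun i _ => by positivity) (Finset.mem_univ i)
    have := abs_nonneg (φ y)
    have := abs_nonneg (φ1 i y)
    have := abs_nonneg (φ2 i y)
    refine ⟨?_, ?_, ?_⟩ <;> linarith
  obtain ⟨χ, B, hB0, hχ01, hχ⟩ := wk_chi (E := EuclideanSpace ℝ (Fin n))
  set C := n * (A * (1 + 3 * B) *
    (volume.real (Metric.closedBall (0 : EuclideanSpace ℝ (Fin n)) 1) * 2 ^ n)) with hC
  have hC0 : 0 ≤ C := by positivity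
  set L := -∫ y, u y * (2 * n * ψ1 (‖y - x0‖ ^ 2) + 4 * ‖y - x0‖ ^ 2 * ψ2 (‖y - x0‖ ^ 2)) with hL
  have hL' : L = -∑ i, ∫ y, u y * φ2 i y := by
    rw [hL, ← integral_finsetSum _ fun i _ =>
      wk_int hK0c hu.continuousOn (hT i).c2 fun y hy => (hout i y hy).2.2]
    simp only [← Finset.mul_sum, hsum]
  have key : ∀ ε, 0 < ε → ε ≤ 1 → Integrable (fun y => f y * (φ y - φ y * χ ε y)) ∧
      ∀ η, 0 ≤ η → (∀ y, ‖y‖ ≤ 2 * ε → |u y - u 0| ≤ η) →
        |(∫ y, f y * (φ y - φ y * χ ε y)) - L| ≤ η * C := by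
    intro ε hε hε1
    set K := K0 ∩ {y | ε ≤ ‖y‖} with hK
    have hKc : IsCompact K := hK0c.inter_right (isClosed_le continuous_const continuous_norm)
    have hK0' : K ⊆ {0}ᶜ := fun y hy h0 => by
      have := hy.2
      rw [mem_singleton_iff.1 h0, mem_ofPred_eq, norm_zero] at this
      linarith
    choose χ1 χ2 hχT hlo hhi hbd using fun i => hχ ε hε hε1 (b i) (hb1 i)
    have hT2 := fun i => (hT i).mul (hχT i)
    have hT3 := fun i => (hT i).sub (hT2 i)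
    have hz3 : ∀ i, ∀ y ∉ K, φ y - φ y * χ ε y = 0 ∧
        φ1 i y - (φ1 i y * χ ε y + φ y * χ1 i y) = 0 ∧
        φ2 i y - (φ2 i y * χ ε y + 2 * (φ1 i y * χ1 i y) + φ y * χ2 i y) = 0 := fun i y hy => by
      by_cases hy0 : y ∈ K0
      · obtain ⟨a1, a2, a3⟩ := hlo i y (not_le.1 fun h => hy ⟨hy0, h⟩)
        simp [a1, a2, a3]
      · obtain ⟨a1, a2, a3⟩ := hout i y hy0
        simp [a1, a2, a3]
    have i0 : Fin n := ⟨0, by omega⟩
    refine ⟨wk_int hKc (hfc.mono hK0') (hT3 i0).c0 fun y hy => (hz3 i0 y hy).1, fun η hη hu0 => ?_⟩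
    have e1 : ∀ i, ∫ y, fderiv ℝ (fderiv ℝ u) y (b i) (b i) * (φ y - φ y * χ ε y) =
        (∫ y, u y * φ2 i y) - ∫ y, (u y - u 0) *
          (φ2 i y * χ ε y + 2 * (φ1 i y * χ1 i y) + φ y * χ2 i y) := fun i => by
      rw [← wk_parts hKc (u := fun y => u y - u 0) (hu.sub continuous_const).continuousOn
        ((cu1 i).mono hK0')
        ((cu2 i).mono hK0') (fun y hy => du1 i y (hK0' hy)) (fun y hy => du2 i y (hK0' hy))
        (hT3 i) (hz3 i), ← hz i, ← integral_sub]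
      · simp only [mul_sub]
      · exact wk_int hK0c (g := fun y => u y - u 0) (hu.sub continuous_const).continuousOn (hT i).c2
          fun y hy => (hout i y hy).2.2
      · refine wk_int hK0c (g := fun y => u y - u 0) (hu.sub continuous_const).continuousOn
          (hT2 i).c2 fun y hy => ?_
        obtain ⟨a1, a2, a3⟩ := hout i y hy
        simp [a1, a2, a3]
    have e2 : ∫ y, f y * (φ y - φ y * χ ε y) =
        -∑ i, ∫ y, fderiv ℝ (fderiv ℝ u) y (b i) (b i) * (φ y - φ y * χ ε y) := by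
      rw [← integral_finsetSum _ fun i _ =>
        wk_int hKc ((cu2 i).mono hK0') (hT3 i).c0 fun y hy => (hz3 i y hy).1, ← integral_neg]
      refine integral_congr_ae (Eventually.of_forall fun y => ?_)
      by_cases hy : y ∈ K
      · simp only [hlap y (hK0' hy), ← Finset.sum_mul, neg_mul]
      · simp only [(hz3 i0 y hy).1, mul_zero, Finset.sum_const_zero, neg_zero]
    rw [e2, hL']
    simp only [e1, Finset.sum_sub_distrib]
    rw [neg_sub, sub_neg_eq_add, sub_add_cancel]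
    refine (Finset.abs_sum_le_sum_abs _ _).trans ((Finset.sum_le_sum fun i _ =>
      wk_err hn hε hε1 hη (C := A * (1 + 3 * B)) (by positivity) hu0 (fun y hy => ?_)
        fun y hy => ?_).trans (le_of_eq ?_))
    · obtain ⟨a1, a2, a3⟩ := hA i y (by linarith)
      obtain ⟨b1, b2⟩ := hbd i y hy
      have b0 : |χ ε y| ≤ 1 / ε ^ 2 := by
        rw [abs_of_nonneg (hχ01 ε y).1]
        refine (hχ01 ε y).2.trans ?_
        rw [le_div_iff₀ (by positivity)]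
        nlinarith
      refine (abs_add_three _ _ _).trans ?_
      simp only [abs_mul, abs_two]
      calc _ ≤ A * (1 / ε ^ 2) + 2 * (A * (B / ε ^ 2)) + A * (B / ε ^ 2) := by gcongr
        _ = _ := by ring
    · obtain ⟨a1, a2, a3⟩ := hhi i y hy
      simp [a1, a2, a3]
    · simp only [Finset.sum_const, Finset.card_univ, Fintype.card_fin, nsmul_eq_mul, hC]
      ring
  have hε : ∀ k : ℕ, (0 : ℝ) < 1 / (k + 1) ∧ (1 : ℝ) / (k + 1) ≤ 1 := fun k =>
    ⟨by positivity, by rw [div_le_one (by positivity)]; linarith [Nat.cast_nonneg (α := ℝ) k]⟩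
  have hε0 : ∀ r : ℝ, 0 < r → ∀ᶠ k : ℕ in atTop, 2 * ((1 : ℝ) / (k + 1)) < r := fun r hr => by
    have := (tendsto_one_div_add_atTop_nhds_zero_nat (𝕜 := ℝ)).const_mul 2
    rw [mul_zero] at this
    exact this.eventually (gt_mem_nhds hr)
  set F : ℕ → EuclideanSpace ℝ (Fin n) → ℝ :=
    fun k y => f y * (φ y - φ y * χ (1 / (k + 1)) y) with hF
  have hFi : ∀ k, Integrable (F k) := fun k => (key _ (hε k).1 (hε k).2).1
  have hlim : Tendsto (fun k => ∫ y, F k y) atTop (𝓝 L) := by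
    rw [Metric.tendsto_nhds]
    intro δ hδ
    obtain ⟨r, hr, hr'⟩ := Metric.continuousAt_iff.1 (hu.continuousAt (x := 0)) (δ / (C + 1))
      (by positivity)
    filter_upwards [hε0 r hr] with k hk
    rw [Real.dist_eq]
    refine ((key _ (hε k).1 (hε k).2).2 (δ / (C + 1)) (by positivity) fun y hy =>
      (hr' (by rw [dist_zero_right]; linarith)).le).trans_lt ?_
    rw [div_mul_eq_mul_div, div_lt_iff₀ (by positivity)]
    nlinarith
  have : Nonempty (Fin n) := ⟨⟨0, by omega⟩⟩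
  have hae : ∀ᵐ y : EuclideanSpace ℝ (Fin n), y ≠ 0 := by
    simp [ae_iff]
  have hpt : ∀ᵐ y, Tendsto (fun k => F k y) atTop (𝓝 (f y * φ y)) := by
    filter_upwards [hae] with y hy
    refine tendsto_const_nhds.congr' ?_
    filter_upwards [hε0 _ (norm_pos_iff.2 hy)] with k hk
    obtain ⟨_, _, -, -, hhi, -⟩ := hχ _ (hε k).1 (hε k).2 (b ⟨0, by omega⟩) (hb1 _)
    simp only [hF, (hhi y hk).1, mul_zero, sub_zero]
  have hF0 : ∀ k, ∀ᵐ y, 0 ≤ F k y ∧ F k y ≤ f y * φ y := fun k => by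
    filter_upwards [hae] with y hy
    have a1 : 0 ≤ φ y := hpos _ (sq_nonneg _)
    have a2 := hχ01 (1 / (k + 1)) y
    have a3 := hf0 y hy
    exact ⟨mul_nonneg a3 (by nlinarith), mul_le_mul_of_nonneg_left (by nlinarith) a3⟩
  have hI : Integrable fun y => f y * φ y := by
    refine ⟨aestronglyMeasurable_of_tendsto_ae atTop (fun k => (hFi k).1) hpt, ?_⟩
    rw [hasFiniteIntegral_iff_ofReal ((hF0 0).mono fun y hy => hy.1.trans hy.2)]
    calc ∫⁻ y, ENNReal.ofReal (f y * φ y)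
        = ∫⁻ y, liminf (fun k => ENNReal.ofReal (F k y)) atTop :=
          lintegral_congr_ae (hpt.mono fun y hy => (ENNReal.tendsto_ofReal hy).liminf_eq.symm)
      _ ≤ liminf (fun k => ∫⁻ y, ENNReal.ofReal (F k y)) atTop :=
          lintegral_liminf_le' fun k => (hFi k).1.aemeasurable.ennreal_ofReal
      _ = ENNReal.ofReal L := by
          rw [← (ENNReal.tendsto_ofReal hlim).liminf_eq]
          congr 1
          funext k
          rw [ofReal_integral_eq_lintegral_ofReal (hFi k) ((hF0 k).mono fun y hy => hy.1)]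
      _ < ⊤ := ENNReal.ofReal_lt_top
  refine ⟨hI, tendsto_nhds_unique (tendsto_integral_of_dominated_convergence _
    (fun k => (hFi k).1) hI (fun k => (hF0 k).mono fun y hy => ?_) hpt) hlim⟩
  rw [Real.norm_eq_abs, abs_of_nonneg hy.1]
  exact hy.2

end Crest.Agent.R77
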